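import Crest.Agent.R268.Tower

/-!
The ambient bigraded ring and the distinguished elements in it.
-/

set_option autoImplicit false
set_option linter.unusedSectionVars false
set_option linter.unusedSimpArgs false
set_option maxSynthPendingDepth 6

namespace Crest.Agent.R268

open AddMonoidAlgebra

abbrev Gm := ℤ ×ₗ ℤ
abbrev R1 := MvPolynomial (Fin 2) ℂ
abbrev Lam := AddMonoidAlgebra R1 Gm

/-- A bidegree. -/
def G (i t : ℤ) : Gm := toLex (i, t)

lemma G_add (i t i' t' : ℤ) : G i t + G i' t' = G (i + i') (t + t') := rfl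
lemma G_zero : G 0 0 = 0 := rfl
lemma G_lt {i t i' t' : ℤ} : G i t < G i' t' ↔ i < i' ∨ (i = i' ∧ t < t') := by
  simp [G, Prod.Lex.toLex_lt_toLex]
lemma G_le {i t i' t' : ℤ} : G i t ≤ G i' t' ↔ i < i' ∨ (i = i' ∧ t ≤ t') := by
  simp [G, Prod.Lex.toLex_le_toLex]
lemma G_inj {i t i' t' : ℤ} : G i t = G i' t' ↔ i = i' ∧ t = t' := by
  simp [G]
lemma exists_G (g : Gm) : ∃ i t, g = G i t := ⟨(ofLex g).1, (ofLex g).2, rfl⟩
lemma nsmul_G (n : ℕ) (i t : ℤ) : n • G i t = G (n * i) (n * t) := by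
  induction n with
  | zero => simp [G_zero]
  | succ n ih => rw [succ_nsmul, ih, G_add]; push_cast; congr 1 <;> ring

lemma sG_mul (i t i' t' : ℤ) (r r' : R1) :
    (single (G i t) r * single (G i' t') r' : Lam) = single (G (i + i') (t + t')) (r * r') :=
  single_mul_single ..
lemma sG_pow (i t : ℤ) (r : R1) (n : ℕ) :
    (single (G i t) r ^ n : Lam) = single (G (n * i) (n * t)) (r ^ n) := by
  rw [single_pow, nsmul_G]

/-- First projection of bidegrees. -/
def pr1 : Gm →+ ℤ where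
  toFun g := (ofLex g).1
  map_zero' := rfl
  map_add' _ _ := rfl

/-- Second projection of bidegrees. -/
def pr2 : Gm →+ ℤ where
  toFun g := (ofLex g).2
  map_zero' := rfl
  map_add' _ _ := rfl

@[simp] lemma pr1_G (i t : ℤ) : pr1 (G i t) = i := rfl
@[simp] lemma pr2_G (i t : ℤ) : pr2 (G i t) = t := rfl

def aa (o : Bool) : ℕ := if o then 3 else 1
def bb (o : Bool) : ℕ := if o then 2 else 1
def ll (o : Bool) : ℕ := if o then 2 else 1
def kd (o : Bool) : ℕ := if o then 1 else 0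
def km (o : Bool) : ℕ := if o then 2 else 0
def kk (o : Bool) : ℕ := if o then 3 else 1

lemma aa_pos (o : Bool) : 0 < aa o := by cases o <;> simp [aa]
lemma ll_pos (o : Bool) : 0 < ll o := by cases o <;> simp [ll]
lemma kk_eq (o : Bool) : kk o = ll o + kd o := by cases o <;> rfl
lemma kk_eq' (o : Bool) : kk o = km o + 1 := by cases o <;> rfl

/-- `u ^ 3` in the cuspidal case and `- u ^ 2` in the nodal case. -/
def hf (o : Bool) {A : Type*} [CommRing A] (u : A) : A := if o then u ^ 3 else -u ^ 2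

lemma map_hf (o : Bool) {A A' F : Type*} [CommRing A] [CommRing A'] [FunLike F A A']
    [RingHomClass F A A'] (φ : F) (u : A) : φ (hf o u) = hf o (φ u) := by
  cases o <;> simp [hf]

lemma hf_mem (o : Bool) {A : Type*} [CommRing A] [Algebra ℂ A] (S : Subalgebra ℂ A) {u : A}
    (hu : u ∈ S) : hf o u ∈ S := by
  cases o
  · exact neg_mem (pow_mem hu 2)
  · exact pow_mem hu 3

lemma hf_cases (o : Bool) {A : Type*} [CommRing A] (u : A) :
    hf o u = u ^ 3 ∨ hf o u = -u ^ 2 := by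
  cases o <;> simp [hf]

noncomputable def pL : Lam := single (G 1 0) 1
noncomputable def pI : Lam := single (G (-1) 0) 1
noncomputable def zL : Lam := single (G 0 0) (MvPolynomial.X 1)
variable (o : Bool)
noncomputable def xL : Lam := single (G 0 (aa o)) 1
noncomputable def xI : Lam := single (G 0 (-aa o)) 1
noncomputable def uL : Lam := single (G 0 (-bb o)) (MvPolynomial.X 0)
noncomputable def sL : Lam := zL * xI o
noncomputable def yb : Lam := zL * (zL + 1) * xI o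
noncomputable def yL : Lam := yb o + pL ^ kk o * uL o * xI o
noncomputable def hL : Lam := hf o (uL o)
noncomputable def sA : Lam := yL o - xL o ^ 2 + xL o * hL o
noncomputable def JL : Lam := pI ^ ll o * (zL - xL o * sA o)
noncomputable def FL : Lam := pI ^ ll o * (xL o - sA o ^ 2 - hL o)
noncomputable def n1 : Lam := xL o ^ 2 * hL o + zL ^ 2
noncomputable def n3 : Lam := (zL + 1) ^ 2 * hL o + yb o ^ 2
noncomputable def N1 : Lam := pI ^ ll o * (n1 o - xL o ^ 3)
noncomputable def N3 : Lam := pI ^ ll o * ((zL + 1) ^ 2 * (hL o - xL o) + yL o ^ 2)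

lemma one_eq : (1 : Lam) = single (G 0 0) 1 := rfl

lemma p_pI : pL * pI = 1 := by simp [pL, pI, single_mul_single, G_add, one_eq]
lemma x_xI : xL o * xI o = 1 := by simp [xL, xI, single_mul_single, G_add, one_eq]
lemma pl_pI (n : ℕ) : pL ^ n * pI ^ n = 1 := by rw [← mul_pow, p_pI, one_pow]
lemma pL_ne : pL ≠ 0 := left_ne_zero_of_mul_eq_one p_pI
lemma xL_ne : xL o ≠ 0 := left_ne_zero_of_mul_eq_one (x_xI o)
lemma uL_ne : uL o ≠ 0 := by simp [uL]
lemma pL_pow (n : ℕ) : pL ^ n = single (G n 0) 1 := by rw [pL, sG_pow]; simp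
lemma pI_pow (n : ℕ) : pI ^ n = single (G (-n) 0) 1 := by rw [pI, sG_pow]; simp

lemma x_s : xL o * sL o = zL := by
  rw [sL]; linear_combination zL * x_xI o
lemma x_yb : xL o * yb o = zL * (zL + 1) := by
  rw [yb]; linear_combination zL * (zL + 1) * x_xI o
lemma x_y : xL o * yL o = zL * (zL + 1) + pL ^ kk o * uL o := by
  rw [yL]; linear_combination x_yb o + pL ^ kk o * uL o * x_xI o
lemma z_s : (zL + 1) * sL o = yb o := by rw [sL, yb]; ring
lemma pl_J : pL ^ ll o * JL o = zL - xL o * sA o := by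
  rw [JL, ← mul_assoc, pl_pI, one_mul]
lemma pl_F : pL ^ ll o * FL o = xL o - sA o ^ 2 - hL o := by
  rw [FL, ← mul_assoc, pl_pI, one_mul]
lemma pl_N1 : pL ^ ll o * N1 o = n1 o - xL o ^ 3 := by
  rw [N1, ← mul_assoc, pl_pI, one_mul]
lemma pl_N3 : pL ^ ll o * N3 o = (zL + 1) ^ 2 * (hL o - xL o) + yL o ^ 2 := by
  rw [N3, ← mul_assoc, pl_pI, one_mul]
lemma y_eq : yL o = sA o + xL o ^ 2 - xL o * hL o := by rw [sA]; ring

lemma N1_eq : N1 o = -xL o ^ 2 * FL o + 2 * xL o * sA o * JL o + pL ^ ll o * JL o ^ 2 := by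
  apply mul_left_cancel₀ (pow_ne_zero (ll o) pL_ne)
  rw [pl_N1, n1]
  linear_combination (xL o ^ 2) * pl_F o -
    (2 * xL o * sA o + pL ^ ll o * JL o + (zL - xL o * sA o)) * pl_J o

lemma J_eq : JL o = -N1 o - pL ^ kd o * uL o := by
  apply mul_left_cancel₀ (pow_ne_zero (ll o) pL_ne)
  have h := x_y o
  rw [kk_eq] at h
  have h2 := pl_N1 o
  rw [n1] at h2
  rw [pl_J, sA]
  linear_combination -h + h2

lemma F_eq : FL o = xI o ^ 2 * (-N1 o + 2 * zL * JL o - pL ^ ll o * JL o ^ 2) := by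
  apply mul_left_cancel₀ (pow_ne_zero 2 (xL_ne o))
  rw [← mul_assoc, ← mul_pow, x_xI, N1_eq]
  linear_combination (2 * JL o) * pl_J o

lemma N3_eq : N3 o = (xL o * FL o - sA o * JL o) * (yL o + sA o * (zL + 1)) -
    (zL + 1) ^ 2 * FL o := by
  apply mul_left_cancel₀ (pow_ne_zero (ll o) pL_ne)
  rw [pl_N3]
  linear_combination (-(xL o * (yL o + sA o * (zL + 1))) + (zL + 1) ^ 2) * pl_F o +
    (sA o * (yL o + sA o * (zL + 1))) * pl_J o + (yL o + sA o * (zL + 1)) * y_eq o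

lemma H_rel : xL o ^ 2 * FL o - (1 + 2 * sA o * xL o) * JL o - pL ^ ll o * JL o ^ 2 -
    pL ^ kd o * uL o = 0 := by
  linear_combination N1_eq o - J_eq o

lemma hL_eq : hL o = single (G 0 (-(2 * aa o))) (hf o (MvPolynomial.X 0)) := by
  cases o
  · simp only [hL, hf, uL, sG_pow]; simp [aa, bb]
  · simp only [hL, hf, uL, sG_pow]; simp [aa, bb]

lemma z1_eq : zL + 1 = single (G 0 0) (MvPolynomial.X 1 + 1) := by
  rw [zL, one_eq, ← single_add]

lemma yb_eq : yb o = single (G 0 (-aa o)) (MvPolynomial.X 1 * (MvPolynomial.X 1 + 1)) := by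
  rw [yb, z1_eq, zL, xI, sG_mul, sG_mul]; simp

lemma n1_eq : n1 o = single (G 0 0) (hf o (MvPolynomial.X 0) + MvPolynomial.X 1 ^ 2) := by
  rw [n1, hL_eq, xL, zL, single_add, sG_pow, sG_pow, sG_mul]; simp

lemma n3_eq : n3 o = single (G 0 (-(2 * aa o))) ((MvPolynomial.X 1 + 1) ^ 2 *
    hf o (MvPolynomial.X 0) + (MvPolynomial.X 1 * (MvPolynomial.X 1 + 1)) ^ 2) := by
  rw [n3, hL_eq, yb_eq, z1_eq, sG_pow, sG_pow, sG_mul]; simp

lemma n1c_ne : (hf o (MvPolynomial.X 0) + MvPolynomial.X 1 ^ 2 : R1) ≠ 0 := by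
  intro h
  have := congrArg (MvPolynomial.eval ![0, 1]) h
  cases o <;> simp [hf] at this

/-- Specialisation of the ambient ring at a point of an algebraically closed field. -/
lemma exists_psi {K : Type*} [Field K] [IsAlgClosed K] [Algebra ℂ K] (p x z u : K) (hp : p ≠ 0)
    (hx : x ≠ 0) : ∃ ψ : Lam →ₐ[ℂ] K, ψ pL = p ∧ ψ (xL o) = x ∧ ψ zL = z ∧ ψ (uL o) = u := by
  obtain ⟨θ, hθ⟩ := IsAlgClosed.exists_pow_nat_eq x (aa_pos o)
  have hθ0 : θ ≠ 0 := by
    rintro rfl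
    rw [zero_pow (aa_pos o).ne'] at hθ
    exact hx hθ.symm
  let g : Multiplicative Gm →* K :=
    { toFun := fun g => p ^ pr1 g.toAdd * θ ^ pr2 g.toAdd
      map_one' := by simp
      map_mul' := fun a b => by
        simp only [toAdd_mul, map_add, zpow_add₀ hp, zpow_add₀ hθ0]; ring }
  let ψ : Lam →ₐ[ℂ] K :=
    liftNCAlgHom (MvPolynomial.aeval ![u * θ ^ bb o, z]) g fun _ _ => Commute.all _ _
  have hψ : ∀ (i t : ℤ) (r : R1), ψ (single (G i t) r) =
      MvPolynomial.aeval ![u * θ ^ bb o, z] r * (p ^ i * θ ^ t) := by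
    intro i t r
    exact liftNC_single _ _ _ _
  refine ⟨ψ, ?_, ?_, ?_, ?_⟩
  · simp [pL, hψ]
  · simp [xL, hψ, hθ]
  · simp [zL, hψ]
  · simp only [uL, hψ, MvPolynomial.aeval_X, Matrix.cons_val_zero, zpow_zero, one_mul, zpow_neg,
      zpow_natCast]
    rw [mul_assoc, mul_inv_cancel₀ (pow_ne_zero _ hθ0), mul_one]

/-- Specialisation with values in (the algebraic closure of the fraction field of) a domain. -/
lemma exists_psi' {B : Type} [CommRing B] [IsDomain B] [Algebra ℂ B] (p x z u : B) (hp : p ≠ 0)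
    (hx : x ≠ 0) : ∃ (K : Type) (_ : Field K) (_ : Algebra ℂ K) (ι : B →ₐ[ℂ] K)
      (ψ : Lam →ₐ[ℂ] K), Function.Injective ι ∧
      ψ pL = ι p ∧ ψ (xL o) = ι x ∧ ψ zL = ι z ∧ ψ (uL o) = ι u := by
  let K := AlgebraicClosure (FractionRing B)
  let ι : B →ₐ[ℂ] K :=
    (IsScalarTower.toAlgHom ℂ (FractionRing B) K).comp (IsScalarTower.toAlgHom ℂ B (FractionRing B))
  have hι : Function.Injective ι :=
    (algebraMap (FractionRing B) K).injective.comp (IsFractionRing.injective B (FractionRing B))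
  obtain ⟨ψ, h⟩ := exists_psi o (ι p) (ι x) (ι z) (ι u)
    (by rwa [Ne, map_eq_zero_iff _ hι]) (by rwa [Ne, map_eq_zero_iff _ hι])
  exact ⟨K, inferInstance, inferInstance, ι, ψ, hι, h⟩

open Polynomial in
lemma evZ_inj : Function.Injective (ev3 (uL o) zL (xL o)) := by
  obtain ⟨K, _, _, ι, ψ, hι, -, h2, h3, h4⟩ :=
    exists_psi' o (B := ℂ[X][X][X]) 1 X (C X) (C (C X)) one_ne_zero X_ne_zero
  intro P Q h
  have := congrArg ψ h
  rw [map_ev3, map_ev3, h2, h3, h4, ← map_ev3 ι, ← map_ev3 ι, ev3_id, ev3_id] at this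
  exact hι this

open Polynomial in
lemma evV_inj : Function.Injective (ev3 (uL o) (sL o) (xL o)) := by
  obtain ⟨K, _, _, ι, ψ, hι, -, h2, h3, h4⟩ :=
    exists_psi' o (B := ℂ[X][X][X]) 1 X (X * C X) (C (C X)) one_ne_zero X_ne_zero
  have h5 : ψ (sL o) = ι (C X) := by
    have hx : ι X ≠ 0 := by rw [Ne, map_eq_zero_iff _ hι]; exact X_ne_zero
    apply mul_left_cancel₀ hx
    rw [← map_mul, ← h3, ← h2, ← map_mul, x_s]
  intro P Q h
  have := congrArg ψ h
  rw [map_ev3, map_ev3, h2, h5, h4, ← map_ev3 ι, ← map_ev3 ι, ev3_id, ev3_id] at this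
  exact hι this

open Polynomial in
/-- The only relation between `u, z, x, z (z + 1) / x`. -/
lemma nf_lemma (P : ℂ[X][X][X][X]) (hP : ev4 (uL o) zL (xL o) (yb o) P = 0) :
    (C X * X - C (C (X * (X + 1))) : ℂ[X][X][X][X]) ∣ P := by
  refine div_lemma (ev3 (uL o) zL (xL o) : ℂ[X][X][X] →+* Lam) (evZ_inj o) X _ prime_X ?_ (yb o)
    ?_ P hP
  · rw [X_dvd_iff, coeff_C_zero]
    exact mul_ne_zero X_ne_zero (by simpa using X_add_C_ne_zero (1 : ℂ[X]))
  · simp [x_yb]

end Crest.Agent.R268
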