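import Crest.Agent.R268.Filt

/-!
The two cases of the degeneration argument.
-/

set_option autoImplicit false
set_option linter.unusedSectionVars false
set_option linter.unusedSimpArgs false
set_option maxSynthPendingDepth 6

namespace Crest.Agent.R268

open AddMonoidAlgebra

variable (o : Bool)

/-- Lowest terms (or zero) of degree `g` of elements of `BB`. -/
def Gr (g : Gm) (a : Lam) : Prop := ∃ f ∈ BB o, Ge g f ∧ comp g f = a

lemma Gr.comp_self {o : Bool} {g : Gm} {a : Lam} (h : Gr o g a) : comp g a = a := by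
  obtain ⟨f, -, -, rfl⟩ := h
  rw [comp, comp, coeff_single, Finsupp.single_eq_same]

lemma Gr_single {g : Gm} {r : R1} (h : single g r ∈ BB o) : Gr o g (single g r) :=
  ⟨_, h, Ge_single _ _, by rw [comp_single, if_pos rfl]⟩

lemma lead_add_p {t : ℤ} {a δ : Lam} (ha : Ge (G 0 t) a) (hδ : δ ∈ P0) :
    Ge (G 0 t) (a + pL * δ) ∧ comp (G 0 t) (a + pL * δ) = comp (G 0 t) a := by
  constructor
  · refine ha.add fun g hg => ?_
    obtain ⟨i, t', rfl⟩ := exists_G g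
    exact coeff_p_mul_P0 hδ (by rw [G_lt] at hg; omega) _
  · rw [comp_add, comp_eq_zero.2 (coeff_p_mul_P0 hδ le_rfl t), add_zero]

noncomputable def N1h : Lam := pI ^ ll o * n1 o
noncomputable def N3h : Lam := pI ^ ll o * n3 o

lemma Gr_p : Gr o (G 1 0) pL := Gr_single o (p_BB o)
lemma Gr_x : Gr o (G 0 (aa o)) (xL o) := Gr_single o (x_BB o)
lemma Gr_z : Gr o (G 0 0) zL := Gr_single o (z_BB o)
lemma Gr_u : Gr o (G 0 (-bb o)) (uL o) := Gr_single o (u_BB o)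
lemma Gr_yb : Gr o (G 0 (-aa o)) (yb o) := by
  obtain ⟨δ, hδ, e⟩ := y_split o
  have h := lead_add_p (t := -aa o) (a := yb o) (by rw [yb_eq]; exact Ge_single _ _) hδ
  rw [← e] at h
  exact ⟨_, y_BB o, h.1, by rw [h.2, yb_eq, comp_single, if_pos rfl]⟩
lemma Gr_N1 : Gr o (G (-ll o) 0) (N1h o) := by
  obtain ⟨h1, h2⟩ := G1_lead o
  have eg : G (-ll o) 0 + G 0 0 = G (-ll o) 0 := by rw [G_zero, add_zero]
  have h3 := (Ge_T_mul (a := G (-ll o) 0)).2 h1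
  have h4 := comp_T_mul (G (-ll o) 0) (G 0 0) (n1 o - xL o ^ 3)
  rw [eg] at h3 h4
  refine ⟨_, N1_BB o, ?_, ?_⟩
  · rw [N1, pI_pow]; exact h3
  · rw [N1, N1h, pI_pow, h4, h2]
lemma Gr_N3 : Gr o (G (-ll o) (-(2 * aa o))) (N3h o) := by
  obtain ⟨δ, hδ, e⟩ := y_split o
  have hlt : G 0 (-(2 * aa o)) < G ((2 : ℕ) * 0 + 0) ((2 : ℕ) * 0 + aa o) :=
    G_lt.2 (Or.inr ⟨by simp, by have := aa_pos o; omega⟩)
  have h0 : Ge (G 0 (-(2 * aa o))) (n3 o - (zL + 1) ^ 2 * xL o) ∧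
      comp (G 0 (-(2 * aa o))) (n3 o - (zL + 1) ^ 2 * xL o) = n3 o := by
    rw [n3_eq, z1_eq, xL, sG_pow, sG_mul]
    refine ⟨(Ge_single _ _).sub ((Ge_single _ _).mono hlt.le), ?_⟩
    rw [comp_sub, comp_single, if_pos rfl, (Ge_single _ _).comp_eq_zero hlt, sub_zero]
  have h := lead_add_p (δ := δ * (2 * yb o + pL * δ)) h0.1 (mul_mem hδ (add_mem
    (mul_mem (ofNat_mem _ 2) (Q0_le_P0 (yb_Q0 o))) (mul_mem p_P0 hδ)))
  rw [h0.2, show n3 o - (zL + 1) ^ 2 * xL o + pL * (δ * (2 * yb o + pL * δ)) =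
    (zL + 1) ^ 2 * (hL o - xL o) + yL o ^ 2 by rw [e, n3]; ring] at h
  have eg : G (-ll o) (-(2 * aa o)) = G (-ll o) 0 + G 0 (-(2 * aa o)) := by simp [G_add]
  refine ⟨_, N3_BB o, ?_, ?_⟩
  · rw [N3, pI_pow, eg]; exact Ge_T_mul.2 h.1
  · rw [N3, N3h, pI_pow, eg, comp_T_mul, h.2]

lemma Gr_decomp {i t : ℤ} {a : Lam} (h : Gr o (G i t) a) (k : ℕ)
    (hk : ∀ j : ℕ, 0 ≤ ll o * j + i → k ≤ j) :
    ∃ w ∈ WW o, ∃ η ∈ O0 o, a = single (G i 0) 1 * w ∧ w = n1 o ^ k * η := by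
  obtain ⟨f, hf, hge, rfl⟩ := h
  obtain ⟨w, hw, e⟩ := lead_W o hf hge
  obtain ⟨η, hη, e'⟩ := lead_P o (BB_le_OO o hf) hge k hk
  refine ⟨w, hw, η, hη, e, ?_⟩
  rw [e] at e'
  exact mul_left_cancel₀ (by simp) e'

variable (D : Derivation ℂ Lam Lam) (e₁ e₂ : ℤ)
  (hL' : ∀ g a, Gr o g a → Gr o (G e₁ e₂ + g) (D a)) (hN : ∀ g a, Gr o g a → a ∈ nilSub D)

include hL' in
lemma Gr_iter {i t : ℤ} {a : Lam} (h : Gr o (G i t) a) (n : ℕ) :
    Gr o (G (i + n * e₁) (t + n * e₂)) (D^[n] a) := by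
  induction n with
  | zero => simpa using h
  | succ n ih =>
    have := hL' _ _ ih
    rw [G_add] at this
    rw [Function.iterate_succ_apply']
    convert this using 2 <;> push_cast <;> ring

include hN in
lemma WW_nil {w : Lam} (hw : w ∈ WW o) : w ∈ nilSub D := by
  refine Algebra.adjoin_le ?_ hw
  rintro t (rfl | rfl | rfl | rfl)
  exacts [hN _ _ (Gr_u o), hN _ _ (Gr_z o), hN _ _ (Gr_x o), hN _ _ (Gr_yb o)]

open Polynomial in
lemma not_x_dvd (c : ℂ[X]) (d : ℕ) (r : Lam) (hr : r ∈ WW o)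
    (h : aeval (uL o) c * zL ^ d = xL o * r) : c = 0 := by
  obtain ⟨K, _, _, ι, ψ, hι, -, h2, h3, h4⟩ :=
    exists_psi' o (B := ℂ[X][X]) 1 X (X ^ 2 - 1) (C X) one_ne_zero X_ne_zero
  have h5 : ψ (yb o) = ι ((X ^ 2 - 1) * X) := by
    have hx : ι X ≠ 0 := by rw [Ne, map_eq_zero_iff _ hι]; exact X_ne_zero
    apply mul_left_cancel₀ hx
    rw [← h2, ← map_mul, x_yb, map_mul, map_add, h3, h2, map_one, ← map_mul ι X,
      ← map_one ι, ← map_add, ← map_mul]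
    congr 1; simp; ring
  have h6 : r ∈ ι.range.comap ψ := by
    refine Algebra.adjoin_le ?_ hr
    rintro t (rfl | rfl | rfl | rfl)
    exacts [⟨_, h4.symm⟩, ⟨_, h3.symm⟩, ⟨_, h2.symm⟩, ⟨_, h5.symm⟩]
  obtain ⟨r', hr'⟩ := h6
  have h7 := congrArg ψ h
  change ι r' = ψ r at hr'
  rw [map_mul, map_mul, map_pow, ← aeval_algHom_apply, h2, h3, h4, ← hr', aeval_algHom_apply,
    ← map_pow, ← map_mul, ← map_mul] at h7
  have h8 := congrArg (eval 0) (hι h7)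
  have h9 : aeval (C X : ℂ[X][X]) c = C c :=
    (aeval_algHom_apply (CAlgHom : ℂ[X] →ₐ[ℂ] ℂ[X][X]) X c).trans (by simp)
  simpa [h9] using h8

open Polynomial in
include hL' hN in
theorem caseB (he : e₁ < 0) (hp : D pL = 0) : D (xL o) = 0 ∧ D zL = 0 ∧ D (uL o) = 0 := by
  by_contra hcon
  obtain ⟨τ, t, ht, hDt⟩ : ∃ τ t, Gr o (G 0 τ) t ∧ D t ≠ 0 := by
    by_cases hx : D (xL o) = 0
    · by_cases hz : D zL = 0
      · exact ⟨_, _, Gr_u o, fun hu => hcon ⟨hx, hz, hu⟩⟩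
      · exact ⟨_, _, Gr_z o, hz⟩
    · exact ⟨_, _, Gr_x o, hx⟩
  obtain ⟨n, hn0, hn1⟩ := exists_top (nilDer D) (nilDer_nil D) (a := nilDer D ⟨t, hN _ _ ht⟩)
    (fun h => hDt (congrArg Subtype.val h))
  have hκ0 : D^[n + 1] t ≠ 0 := by
    intro h; apply hn0; apply Subtype.ext
    rw [nilDer_iter_coe, nilDer_coe]; exact h
  have hκ1 : D (D^[n + 1] t) = 0 := by
    have := congrArg Subtype.val hn1
    rw [nilDer_iter_coe, nilDer_coe, Function.iterate_succ_apply'] at this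
    exact this
  have hκ := Gr_iter o D e₁ e₂ hL' ht (n + 1)
  set i : ℤ := 0 + ((n + 1 : ℕ) : ℤ) * e₁ with hi
  have hi0 : i < 0 := by rw [hi]; push_cast; nlinarith
  obtain ⟨w, hw, η, hη, ew, ew'⟩ := Gr_decomp o hκ 1 (fun j hj => by
    rcases j with _ | j
    · simp at hj; omega
    · omega)
  have hw0 : w ≠ 0 := by rintro rfl; exact hκ0 (by rw [ew, mul_zero])
  have hDw : D w = 0 := by
    have : w = pL ^ (-i).toNat * D^[n + 1] t := by
      rw [ew, pL_pow, ← mul_assoc, sG_mul, Int.toNat_of_nonneg (by omega), neg_add_cancel]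
      simp [← one_eq]
    rw [this]
    exact mul_mem (pow_mem (show pL ∈ kerSub D from hp) _) (show _ ∈ kerSub D from hκ1)
  obtain ⟨j, η₁, hη₁, e₁'⟩ := div_V1 o hη 1 ew'
  obtain ⟨M, η₃, hη₃, e₃'⟩ := div_V3 o hw hη 1 ew'
  obtain ⟨hu', hxz'⟩ := caseB_abs (nilDer D) (nilDer_nil D) ⟨xL o, hN _ _ (Gr_x o)⟩
    ⟨yb o, hN _ _ (Gr_yb o)⟩ ⟨zL, hN _ _ (Gr_z o)⟩ ⟨uL o, hN _ _ (Gr_u o)⟩
    (hf o ⟨uL o, hN _ _ (Gr_u o)⟩) ⟨w, WW_nil o D hN hw⟩ ⟨η₁, WW_nil o D hN hη₁⟩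
    ⟨η₃, WW_nil o D hN hη₃⟩ j M (Subtype.ext (x_yb o))
    (fun h => xL_ne o (congrArg Subtype.val h)) (fun h => uL_ne o (congrArg Subtype.val h))
    (fun h => hw0 (congrArg Subtype.val h)) (Subtype.ext hDw)
    (Subtype.ext (by
      have := map_hf o (nilSub D).val ⟨uL o, hN _ _ (Gr_u o)⟩
      simp only [Subalgebra.coe_val] at this
      simp only [MulMemClass.coe_mul, SubmonoidClass.coe_pow, AddMemClass.coe_add, this]
      rw [e₁', pow_one, n1, hL]))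
    (Subtype.ext (by
      have := map_hf o (nilSub D).val ⟨uL o, hN _ _ (Gr_u o)⟩
      simp only [Subalgebra.coe_val] at this
      simp only [MulMemClass.coe_mul, SubmonoidClass.coe_pow, AddMemClass.coe_add, this,
        OneMemClass.coe_one]
      rw [e₃', pow_one, n3, hL]))
    (hf_cases o _)
  have hu : D (uL o) = 0 := congrArg Subtype.val hu'
  have hxz : xL o * D zL = zL * D (xL o) := congrArg Subtype.val hxz'
  have hs : D (sL o) = 0 := by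
    have h1 := congrArg D (x_s o)
    rw [Derivation.leibniz, smul_eq_mul, smul_eq_mul] at h1
    apply mul_left_cancel₀ (pow_ne_zero 2 (xL_ne o))
    linear_combination xL o * h1 + hxz - D (xL o) * x_s o
  have hx : D (xL o) ≠ 0 := by
    intro hx
    rw [hx, mul_zero] at hxz
    exact hcon ⟨hx, (mul_eq_zero.1 hxz).resolve_left (xL_ne o), hu⟩
  obtain ⟨P₁, hP⟩ := div_V o hw hη 1 ew'
  set P := C ((X ^ 2 + C (hf o X)) ^ 1) * P₁ with hPdef
  have hd : derivative P = 0 := by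
    have h1 := der_ev3 D (xL o) hu hs P
    rw [← hP, hDw] at h1
    apply evV_inj o
    rw [map_zero]
    exact (mul_eq_zero.1 h1.symm).resolve_right hx
  have hP0 := eq_C_of_natDegree_eq_zero (derivative_eq_zero.1 hd)
  set P₀ := P.coeff 0 with hP₀
  have hP₀0 : P₀ ≠ 0 := by
    intro h; apply hw0; rw [hP, hP0, h, map_zero, map_zero]
  have hdeg : 0 < P₀.natDegree := by
    have h1 : (X ^ 2 + C (hf o X) : ℂ[X][X]) ∣ P₀ := by
      rw [hP₀, hPdef, coeff_C_mul, pow_one]; exact Dvd.intro _ rfl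
    have h2 := natDegree_le_of_dvd h1 hP₀0
    rw [natDegree_X_pow_add_C] at h2
    omega
  obtain ⟨d, hd'⟩ := Nat.exists_eq_succ_of_ne_zero hdeg.ne'
  have hsum : xL o ^ (d + 1) * w = aeval (uL o) (P₀.coeff (d + 1)) * zL ^ (d + 1) +
      xL o * ∑ m ∈ Finset.range (d + 1), aeval (uL o) (P₀.coeff m) * zL ^ m * xL o ^ (d - m) := by
    rw [hP, hP0, ev3_C]
    conv_lhs => rw [P₀.as_sum_range_C_mul_X_pow, hd', map_sum, Finset.sum_range_succ, mul_add,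
      Finset.mul_sum]
    rw [add_comm, Finset.mul_sum]
    congr 1
    · simp only [map_mul, map_pow, ev2_C, ev2_X]; rw [← x_s o]; ring
    · refine Finset.sum_congr rfl fun m hm => ?_
      obtain ⟨k, rfl⟩ := Nat.exists_eq_add_of_le (Nat.lt_succ_iff.1 (Finset.mem_range.1 hm))
      simp only [map_mul, map_pow, ev2_C, ev2_X, Nat.add_sub_cancel_left]; rw [← x_s o]; ring
  have := not_x_dvd o (P₀.coeff (d + 1)) (d + 1) (xL o ^ d * w -
      ∑ m ∈ Finset.range (d + 1), aeval (uL o) (P₀.coeff m) * zL ^ m * xL o ^ (d - m))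
    (sub_mem (mul_mem (pow_mem (x_WW o) _) hw) (sum_mem fun m _ => mul_mem (mul_mem
      (aeval_mem _ (u_WW o) _) (pow_mem (z_WW o) _)) (pow_mem (x_WW o) _)))
    (by linear_combination -hsum)
  apply hP₀0
  rw [← Polynomial.leadingCoeff_eq_zero, Polynomial.leadingCoeff, hd']; exact this

noncomputable def A3 : Subalgebra ℂ Lam :=
  Algebra.adjoin ℂ {pL, xL o, yb o, zL, uL o, N1h o, N3h o}

lemma Gr_A3 {g : Gm} {a : Lam} (h : Gr o g a) : a ∈ A3 o := by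
  classical
  obtain ⟨i, t, rfl⟩ := exists_G g
  have hex : ∃ j : ℕ, 0 ≤ ll o * j + i := ⟨(-i).toNat, by
    have := ll_pos o
    have h2 : (-i) ≤ (-i).toNat := Int.self_le_toNat _
    nlinarith [Int.natCast_nonneg (-i).toNat]⟩
  obtain ⟨w, hw, η, hη, ea, ew⟩ := Gr_decomp o h (Nat.find hex) fun j hj => Nat.find_min' hex hj
  obtain ⟨b, hb, c, hc, e⟩ := div_ideal o hw hη _ ew
  have hk := Nat.find_spec hex
  set k := Nat.find hex
  have hW : ∀ f ∈ WW o, f ∈ A3 o := by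
    intro f hf
    refine Algebra.adjoin_le ?_ hf
    rintro t (rfl | rfl | rfl | rfl) <;> exact Algebra.subset_adjoin (by simp)
  have e2 : (single (G i 0) 1 : Lam) = pL ^ (ll o * k + i).toNat * (pI ^ ll o) ^ k := by
    rw [← pow_mul, pL_pow, pI_pow, sG_mul, Int.toNat_of_nonneg hk]; simp
  rw [ea, e, e2, show pL ^ (ll o * k + i).toNat * (pI ^ ll o) ^ k * (n1 o ^ k * b + n3 o ^ k * c)
    = pL ^ (ll o * k + i).toNat * (N1h o ^ k * b + N3h o ^ k * c) by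
      rw [N1h, N3h, mul_pow, mul_pow]; ring]
  exact mul_mem (pow_mem (Algebra.subset_adjoin (by simp)) _) (add_mem
    (mul_mem (pow_mem (Algebra.subset_adjoin (by simp)) _) (hW _ hb))
    (mul_mem (pow_mem (Algebra.subset_adjoin (by simp)) _) (hW _ hc)))

lemma sq_R1 (a b : R1) (h : a ^ 2 + MvPolynomial.X 0 ^ 3 * b ^ 2 = 0) : b = 0 := by
  by_contra hb
  have h1 := congrArg (MvPolynomial.finSuccEquiv ℂ 1) h
  rw [map_add, map_mul, map_pow, map_pow, map_pow, map_zero, MvPolynomial.finSuccEquiv_X_zero]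
    at h1
  have hb' : MvPolynomial.finSuccEquiv ℂ 1 b ≠ 0 := by simpa using hb
  have h2 := congrArg Polynomial.natDegree (eq_neg_of_add_eq_zero_left h1)
  rw [Polynomial.natDegree_neg, Polynomial.natDegree_mul (pow_ne_zero _ Polynomial.X_ne_zero)
    (pow_ne_zero _ hb'), Polynomial.natDegree_pow, Polynomial.natDegree_pow,
    Polynomial.natDegree_pow, Polynomial.natDegree_X] at h2
  omega

lemma sq_Lam (a b : Lam) (h : a ^ 2 + uL true ^ 3 * b ^ 2 = 0) : b = 0 := by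
  by_contra hb
  obtain ⟨g', hg', hg0'⟩ := exists_ord hb
  obtain ⟨i', t', rfl⟩ := exists_G g'
  have hu : uL true ^ 3 = single (G 0 (-6)) (MvPolynomial.X 0 ^ 3) := by
    rw [uL, sG_pow]; simp [bb]
  obtain ⟨h1, h2⟩ := hg'.pow 2
  have h3 := (Ge_single (G 0 (-6)) (MvPolynomial.X 0 ^ 3 : R1)).mul h1
  have h4 := (Ge_single (G 0 (-6)) (MvPolynomial.X 0 ^ 3 : R1)).coeff_mul h1
  rw [h2, coeff_single, Finsupp.single_eq_same] at h4
  rw [← hu, nsmul_G, G_add] at h3 h4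
  have ha : Ge (G i' (t' - 3)) a := by
    by_cases ha0 : a = 0
    · rw [ha0]; exact Ge_zero _
    obtain ⟨g, hg, hg0⟩ := exists_ord ha0
    refine hg.mono (not_lt.1 fun hlt => ?_)
    obtain ⟨i, t, rfl⟩ := exists_G g
    have h5 := (hg.pow 2).2
    rw [eq_neg_of_add_eq_zero_left h, coeff_neg, Finsupp.neg_apply, nsmul_G, h3 _ (by
      rw [G_lt] at hlt ⊢; push_cast; omega), neg_zero] at h5
    exact pow_ne_zero 2 hg0 h5.symm
  have h5 := (ha.pow 2).2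
  rw [eq_neg_of_add_eq_zero_left h, coeff_neg, Finsupp.neg_apply, nsmul_G,
    show G ((2 : ℕ) * i') ((2 : ℕ) * (t' - 3)) = G (0 + (2 : ℕ) * i') (-6 + (2 : ℕ) * t') by
      congr 1 <;> push_cast <;> ring, h4] at h5
  exact hg0' (sq_R1 (a.coeff (G i' (t' - 3))) _ (by rw [← h5]; ring))

theorem caseA (D : Derivation ℂ Lam Lam) (e₁ e₂ : ℤ)
    (hL' : ∀ g a, Gr true g a → Gr true (G e₁ e₂ + g) (D a))
    (hN : ∀ g a, Gr true g a → a ∈ nilSub D) : D pL = 0 := by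
  have hst : ∀ a ∈ A3 true, D a ∈ A3 true := by
    apply adjoin_stable
    rintro t (rfl | rfl | rfl | rfl | rfl | rfl | rfl)
    exacts [Gr_A3 _ (hL' _ _ (Gr_p _)), Gr_A3 _ (hL' _ _ (Gr_x _)), Gr_A3 _ (hL' _ _ (Gr_yb _)),
      Gr_A3 _ (hL' _ _ (Gr_z _)), Gr_A3 _ (hL' _ _ (Gr_u _)), Gr_A3 _ (hL' _ _ (Gr_N1 _)),
      Gr_A3 _ (hL' _ _ (Gr_N3 _))]
  have hnil : ∀ a ∈ A3 true, a ∈ nilSub D := by
    intro a ha
    refine Algebra.adjoin_le ?_ ha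
    rintro t (rfl | rfl | rfl | rfl | rfl | rfl | rfl)
    exacts [hN _ _ (Gr_p _), hN _ _ (Gr_x _), hN _ _ (Gr_yb _), hN _ _ (Gr_z _), hN _ _ (Gr_u _),
      hN _ _ (Gr_N1 _), hN _ _ (Gr_N3 _)]
  have hD : ∀ a, ∃ n : ℕ, (resDer D _ hst)^[n] a = 0 := by
    intro a
    obtain ⟨n, hn⟩ := hnil _ a.2
    exact ⟨n, Subtype.ext (by rw [resDer_iter_coe]; exact hn)⟩
  let H₂ : AddSubgroup Gm := (AddSubgroup.zmultiples (2 : ℤ)).comap pr1
  let H₃ : AddSubgroup Gm := (AddSubgroup.zmultiples (3 : ℤ)).comap pr2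
  have m₂ : ∀ i t, G i t ∈ H₂ ↔ (2 : ℤ) ∣ i := fun i t => by
    simp [H₂, Int.mem_zmultiples_iff]
  have m₃ : ∀ i t, G i t ∈ H₃ ↔ (3 : ℤ) ∣ t := fun i t => by
    simp [H₃, Int.mem_zmultiples_iff]
  have eN1 : ∃ r, N1h true = single (G (-2) 0) r := ⟨_, by
    rw [N1h, pI_pow, n1_eq, sG_mul]; rfl⟩
  have eN3 : ∃ r, N3h true = single (G (-2) (-6)) r := ⟨_, by
    rw [N3h, pI_pow, n3_eq, sG_mul]; rfl⟩
  obtain ⟨r₁, eN1⟩ := eN1
  obtain ⟨r₃, eN3⟩ := eN3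
  have d₂ : ∀ i t a, Gr true (G i t) a → ¬ (2 : ℤ) ∣ i → ∃ q ∈ A3 true, a = pL * q := by
    intro i t a ha hi
    rw [← ha.comp_self]
    refine comp_mem_mul _ pL H₂ ?_ (Gr_A3 _ ha) _ (by rwa [m₂])
    rintro t (rfl | rfl | rfl | rfl | rfl | rfl | rfl)
    · exact ⟨_, _, rfl, Or.inr rfl⟩
    · exact ⟨_, _, rfl, Or.inl (by simp [m₂])⟩
    · exact ⟨_, _, yb_eq _, Or.inl (by simp [m₂])⟩
    · exact ⟨_, _, rfl, Or.inl (by simp [m₂])⟩
    · exact ⟨_, _, rfl, Or.inl (by simp [m₂])⟩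
    · exact ⟨_, _, eN1, Or.inl (by simp [m₂])⟩
    · exact ⟨_, _, eN3, Or.inl (by simp [m₂])⟩
  have d₃ : ∀ i t a, Gr true (G i t) a → ¬ (3 : ℤ) ∣ t → ∃ q ∈ A3 true, a = uL true * q := by
    intro i t a ha hi
    rw [← ha.comp_self]
    refine comp_mem_mul _ (uL true) H₃ ?_ (Gr_A3 _ ha) _ (by rwa [m₃])
    rintro t (rfl | rfl | rfl | rfl | rfl | rfl | rfl)
    · exact ⟨_, _, rfl, Or.inl (by simp [m₃])⟩
    · exact ⟨_, _, rfl, Or.inl (by simp [m₃, aa])⟩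
    · exact ⟨_, _, yb_eq _, Or.inl (by simp [m₃, aa])⟩
    · exact ⟨_, _, rfl, Or.inl (by simp [m₃])⟩
    · exact ⟨_, _, rfl, Or.inr rfl⟩
    · exact ⟨_, _, eN1, Or.inl (by simp [m₃])⟩
    · exact ⟨_, _, eN3, Or.inl (by rw [m₃]; norm_num)⟩
  have := caseA_abs (resDer D _ hst) hD ⟨pL, Gr_A3 _ (Gr_p _)⟩ ⟨uL true, Gr_A3 _ (Gr_u _)⟩
    ⟨xL true, Gr_A3 _ (Gr_x _)⟩ ⟨yb true, Gr_A3 _ (Gr_yb _)⟩ ⟨zL, Gr_A3 _ (Gr_z _)⟩
    ⟨N1h true, Gr_A3 _ (Gr_N1 _)⟩ ⟨N3h true, Gr_A3 _ (Gr_N3 _)⟩ e₁ e₂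
    (fun h => pL_ne (congrArg Subtype.val h)) (fun h => uL_ne _ (congrArg Subtype.val h))
    (Subtype.ext (by
      change pL ^ 2 * (pI ^ 2 * n1 true) = _
      rw [← mul_assoc, pl_pI, one_mul]; rfl))
    (Subtype.ext (by
      change pL ^ 2 * (pI ^ 2 * n3 true) = _
      rw [← mul_assoc, pl_pI, one_mul]; rfl))
    (fun k hk => by
      obtain ⟨q, hq, e⟩ := d₂ _ _ _ (Gr_iter true D e₁ e₂ hL' (Gr_p _) k) hk
      exact ⟨⟨q, hq⟩, Subtype.ext (by rw [resDer_iter_coe]; exact e)⟩)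
    (fun hk => by
      obtain ⟨q, hq, e⟩ := d₃ _ _ _ (Gr_iter true D e₁ e₂ hL' (Gr_p _) 1) (by simpa using hk)
      exact ⟨⟨q, hq⟩, Subtype.ext e⟩)
    (fun k hk => by
      obtain ⟨q, hq, e⟩ := d₃ _ _ _ (Gr_iter true D e₁ e₂ hL' (Gr_u _) k) hk
      exact ⟨⟨q, hq⟩, Subtype.ext (by rw [resDer_iter_coe]; exact e)⟩)
    (fun a b hab => Subtype.ext (sq_Lam a b (congrArg Subtype.val hab)))
  exact congrArg Subtype.val this

end Crest.Agent.R268
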