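import Crest.Agent.R268.Crit

/-!
Commuting locally nilpotent derivations whose common kernel is generated by the function `cc`.
-/

set_option autoImplicit false

namespace Crest.Agent.R268

open MvPolynomial

lemma eq_C_of_pderiv_eq_zero {σ R : Type*} [CommRing R] [IsDomain R] [CharZero R]
    (p : MvPolynomial σ R) (hp : ∀ i, pderiv i p = 0) : p = C (coeff 0 p) := by
  classical
  ext n
  rw [coeff_C]
  split_ifs with h
  · rw [← h]
  · obtain ⟨i, hi⟩ : ∃ i, n i ≠ 0 := by
      by_contra hc
      push Not at hc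
      exact h (Finsupp.ext fun i => (hc i).symm)
    have h1 := coeff_pderiv (i := i) p (n - Finsupp.single i 1)
    rw [hp i, coeff_zero, tsub_add_cancel_of_le
      (Finsupp.single_le_iff.2 (Nat.one_le_iff_ne_zero.2 hi))] at h1
    rcases mul_eq_zero.1 h1.symm with h2 | h2
    · exact h2
    · exact absurd h2 (Nat.cast_add_one_ne_zero _)

lemma pderiv_comm' {σ R : Type*} [CommRing R] (i j : σ) (p : MvPolynomial σ R) :
    pderiv i (pderiv j p) = pderiv j (pderiv i p) := by
  classical
  induction p using MvPolynomial.induction_on with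
  | C a => simp
  | add p q hp hq => simp [hp, hq]
  | mul_X p a h =>
    simp only [Derivation.leibniz, map_add, smul_eq_mul, h, pderiv_X, Pi.single_apply]
    split_ifs <;> simp <;> ring

/-- The elements killed by some power of a derivation form a subalgebra. -/
def nilSub {R A : Type*} [CommRing R] [CommRing A] [Algebra R A] (D : Derivation R A A) :
    Subalgebra R A where
  carrier := {a | ∃ n : ℕ, D^[n] a = 0}
  mul_mem' := by
    have up : ∀ (a : A) (n k : ℕ), D^[n] a = 0 → n ≤ k → D^[k] a = 0 := by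
      intro a n k h hk
      obtain ⟨j, rfl⟩ := Nat.exists_eq_add_of_le' hk
      rw [Function.iterate_add_apply, h]
      exact Function.iterate_fixed (map_zero D) j
    have add : ∀ (n : ℕ) (a b : A), D^[n] (a + b) = D^[n] a + D^[n] b := by
      intro n
      induction n with
      | zero => simp
      | succ n ih => intro a b; simp [Function.iterate_succ_apply, ih]
    have key : ∀ (N m n : ℕ) (a b : A), m + n = N → D^[m] a = 0 → D^[n] b = 0 →
        D^[N] (a * b) = 0 := by
      intro N
      induction N with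
      | zero =>
        intro m n a b h ha hb
        obtain rfl : m = 0 := by omega
        simp only [Function.iterate_zero, id_eq] at ha ⊢
        simp [ha]
      | succ N ih =>
        intro m n a b h ha hb
        rcases m with _ | m
        · simp only [Function.iterate_zero, id_eq] at ha
          rw [ha, zero_mul]; exact Function.iterate_fixed (map_zero D) _
        rcases n with _ | n
        · simp only [Function.iterate_zero, id_eq] at hb
          rw [hb, mul_zero]; exact Function.iterate_fixed (map_zero D) _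
        rw [Function.iterate_succ_apply, Derivation.leibniz, add, smul_eq_mul, smul_eq_mul,
          ih (m + 1) n a (D b) (by omega) ha hb,
          ih (n + 1) m b (D a) (by omega) hb ha, add_zero]
    rintro a b ⟨m, hm⟩ ⟨n, hn⟩
    exact ⟨m + n, key _ m n a b rfl hm hn⟩
  add_mem' := by
    have up : ∀ (a : A) (n k : ℕ), D^[n] a = 0 → n ≤ k → D^[k] a = 0 := by
      intro a n k h hk
      obtain ⟨j, rfl⟩ := Nat.exists_eq_add_of_le' hk
      rw [Function.iterate_add_apply, h]
      exact Function.iterate_fixed (map_zero D) j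
    have add : ∀ (n : ℕ) (a b : A), D^[n] (a + b) = D^[n] a + D^[n] b := by
      intro n
      induction n with
      | zero => simp
      | succ n ih => intro a b; simp [Function.iterate_succ_apply, ih]
    rintro a b ⟨m, hm⟩ ⟨n, hn⟩
    exact ⟨m + n, by rw [add, up a m _ hm (by omega), up b n _ hn (by omega), add_zero]⟩
  algebraMap_mem' r := ⟨1, by simp⟩

lemma mem_nilSub {R A : Type*} [CommRing R] [CommRing A] [Algebra R A] (D : Derivation R A A)
    (a : A) : a ∈ nilSub D ↔ ∃ n : ℕ, D^[n] a = 0 := Iff.rfl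

lemma pderiv_locNil {σ R : Type*} [CommRing R] (i : σ) (p : MvPolynomial σ R) :
    ∃ n : ℕ, (pderiv i)^[n] p = 0 := by
  classical
  change p ∈ nilSub (pderiv i : Derivation R (MvPolynomial σ R) (MvPolynomial σ R))
  induction p using MvPolynomial.induction_on with
  | C a => exact Subalgebra.algebraMap_mem _ a
  | add p q hp hq => exact add_mem hp hq
  | mul_X p a h =>
    refine mul_mem h ⟨2, ?_⟩
    simp only [Function.iterate_succ, Function.iterate_zero, Function.comp_apply, id_eq,
      pderiv_X, Pi.single_apply]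
    split_ifs <;> simp

lemma pderiv_inr_rename_inl {σ τ R : Type*} [CommRing R] (j : τ) (q : MvPolynomial σ R) :
    pderiv (Sum.inr j : σ ⊕ τ) (rename Sum.inl q) = 0 := by
  induction q using MvPolynomial.induction_on with
  | C a => simp
  | add p q hp hq => simp [hp, hq]
  | mul_X p a h => simp [h]

noncomputable section

abbrev KK := LaurentPolynomial ℂ
abbrev Pm (m : ℕ) := MvPolynomial (Fin (4 + m)) ℂ
abbrev Lm (m : ℕ) := MvPolynomial (Fin 3 ⊕ Fin m) KK
abbrev L3 := MvPolynomial (Fin 3) KK

variable (m : ℕ)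

def b3 : Fin 4 → L3 :=
  ![bh (C (LaurentPolynomial.T 1)) (C (LaurentPolynomial.T (-1))) (X 0) (X 1),
    bu (C (LaurentPolynomial.T 1)) (C (LaurentPolynomial.T (-1))) (X 0) (X 1) (X 2),
    bv (C (LaurentPolynomial.T 1)) (C (LaurentPolynomial.T (-1))) (X 0) (X 1) (X 2),
    bw (C (LaurentPolynomial.T 1)) (C (LaurentPolynomial.T (-1))) (X 0) (X 1) (X 2)]

def iota : Pm m →ₐ[ℂ] Lm m :=
  aeval (Fin.addCases (fun i => rename Sum.inl (b3 i)) (fun j => X (Sum.inr j)))

def vv (i : Fin 4) : Pm m := X (Fin.castAdd m i)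
def cB : Pm m := cc (vv m 0) (vv m 1) (vv m 2) (vv m 3)
def cL : Lm m := C (LaurentPolynomial.T 1)
def ciL : Lm m := C (LaurentPolynomial.T (-1))

def tt : Fin 3 ⊕ Fin m → Pm m :=
  Sum.elim ![cx' (vv m 0) (vv m 1) (vv m 2) (vv m 3), cy' (vv m 0) (vv m 1) (vv m 2) (vv m 3),
    cV (vv m 0) (vv m 1) (vv m 2) (vv m 3)] (fun j => X (Fin.natAdd 4 j))

lemma cL_mul : cL m * ciL m = 1 := by
  rw [cL, ciL, ← map_mul, ← LaurentPolynomial.T_add]; simp

lemma cL_ne : cL m ≠ 0 := by
  intro h; have := cL_mul m; rw [h] at this; simp at this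

lemma iota_vv (i : Fin 4) : iota m (vv m i) = rename Sum.inl (b3 i) := by
  simp [iota, vv]

lemma iota_nat (j : Fin m) : iota m (X (Fin.natAdd 4 j)) = X (Sum.inr j) := by
  simp [iota]

lemma iota0 : iota m (vv m 0) = bh (cL m) (ciL m) (X (Sum.inl 0)) (X (Sum.inl 1)) := by
  simp [iota_vv, b3, cL, ciL]
lemma iota1 : iota m (vv m 1)
    = bu (cL m) (ciL m) (X (Sum.inl 0)) (X (Sum.inl 1)) (X (Sum.inl 2)) := by
  simp [iota_vv, b3, cL, ciL]
lemma iota2 : iota m (vv m 2)
    = bv (cL m) (ciL m) (X (Sum.inl 0)) (X (Sum.inl 1)) (X (Sum.inl 2)) := by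
  simp [iota_vv, b3, cL, ciL]
lemma iota3 : iota m (vv m 3)
    = bw (cL m) (ciL m) (X (Sum.inl 0)) (X (Sum.inl 1)) (X (Sum.inl 2)) := by
  simp [iota_vv, b3, cL, ciL]

lemma bh_ne : bh (cL m) (ciL m) (X (Sum.inl 0)) (X (Sum.inl 1)) ≠ 0 := by
  intro h0
  have := congrArg (MvPolynomial.eval (fun _ => (0 : KK))) h0
  simp only [map_bh, eval_X, bh_zero, map_zero, cL, eval_C] at this
  exact (LaurentPolynomial.isUnit_T (R := ℂ) 1).ne_zero this

lemma iota_cB : iota m (cB m) = cL m := by
  rw [cB, map_cc, iota0, iota1, iota2, iota3]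
  exact (fwd_bwd _ _ _ _ _ (cL_mul m) (bh_ne m)).1

lemma iota_tt (a : Fin 3 ⊕ Fin m) : iota m (tt m a) = X a := by
  obtain ⟨-, e2, e3, e4⟩ := fwd_bwd _ _ _ _ (X (Sum.inl 2)) (cL_mul m) (bh_ne m)
  rcases a with i | j
  · fin_cases i
    · change iota m (cx' _ _ _ _) = _
      rw [map_cx', iota0, iota1, iota2, iota3, e2]; rfl
    · change iota m (cy' _ _ _ _) = _
      rw [map_cy', iota0, iota1, iota2, iota3, e3]; rfl
    · change iota m (cV _ _ _ _) = _
      rw [map_cV, iota0, iota1, iota2, iota3, e4]; rfl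
  · exact iota_nat m j

def piT : Pm m →ₐ[ℂ] Polynomial ℂ :=
  aeval (Fin.addCases (fun i => if i = 0 then Polynomial.X else 0) (fun _ => 0))

lemma piT_cB : piT m (cB m) = Polynomial.X := by
  have h0 : piT m (vv m 0) = Polynomial.X := by simp [piT, vv]
  have h1 : piT m (vv m 1) = 0 := by simp [piT, vv]
  have h2 : piT m (vv m 2) = 0 := by simp [piT, vv]
  have h3 : piT m (vv m 3) = 0 := by simp [piT, vv]
  rw [cB, map_cc, h0, h1, h2, h3, cc_zero]

lemma cB_ne : cB m ≠ 0 := by
  intro h; have := piT_cB m; rw [h, map_zero] at this; exact Polynomial.X_ne_zero this.symm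

lemma iota_injective : Function.Injective (iota m) := by
  let Fr := FractionRing (Pm m)
  let j : Pm m →+* Fr := algebraMap _ _
  have hj : Function.Injective j := IsFractionRing.injective _ _
  have hc : j (cB m) ≠ 0 := by
    intro h; exact cB_ne m (hj (by rw [h, map_zero]))
  let un : Frˣ := Units.mk0 _ hc
  let ψ : Lm m →+* Fr := eval₂Hom (LaurentPolynomial.eval₂ (j.comp C) un) (fun a => j (tt m a))
  have ψc : ψ (cL m) = j (cB m) := by simp [ψ, cL, un]
  have ψci : ψ (ciL m) = (j (cB m))⁻¹ := by simp [ψ, ciL, un]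
  have ψX : ∀ a, ψ (X a) = j (tt m a) := by intro a; simp [ψ]
  have hcB : j (cB m) = cc (j (vv m 0)) (j (vv m 1)) (j (vv m 2)) (j (vv m 3)) := by
    rw [cB, map_cc]
  obtain ⟨f1, f2, f3, f4⟩ := bwd_fwd (j (vv m 0)) (j (vv m 1)) (j (vv m 2)) (j (vv m 3))
    (j (cB m))⁻¹ (by rw [← hcB]; exact mul_inv_cancel₀ hc)
  rw [← hcB] at f1 f2 f3 f4
  have t0 : j (tt m (Sum.inl 0)) = cx' (j (vv m 0)) (j (vv m 1)) (j (vv m 2)) (j (vv m 3)) := by
    rw [← map_cx']; rfl
  have t1 : j (tt m (Sum.inl 1)) = cy' (j (vv m 0)) (j (vv m 1)) (j (vv m 2)) (j (vv m 3)) := by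
    rw [← map_cy']; rfl
  have t2 : j (tt m (Sum.inl 2)) = cV (j (vv m 0)) (j (vv m 1)) (j (vv m 2)) (j (vv m 3)) := by
    rw [← map_cV]; rfl
  have key : ψ.comp (iota m : Pm m →+* Lm m) = j := by
    apply MvPolynomial.ringHom_ext
    · intro r
      have : iota m (C r) = C (LaurentPolynomial.C r) := by
        rw [← algebraMap_eq, AlgHom.commutes]; rfl
      simp [this, ψ]
    · intro i
      refine Fin.addCases (fun i => ?_) (fun i => ?_) i
      · change ψ (iota m (vv m i)) = j (vv m i)
        fin_cases i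
        · change ψ (iota m (vv m 0)) = j (vv m 0)
          rw [iota0, map_bh, ψc, ψci, ψX, ψX, t0, t1, f1]
        · change ψ (iota m (vv m 1)) = j (vv m 1)
          rw [iota1, map_bu, ψc, ψci, ψX, ψX, ψX, t0, t1, t2, f2]
        · change ψ (iota m (vv m 2)) = j (vv m 2)
          rw [iota2, map_bv, ψc, ψci, ψX, ψX, ψX, t0, t1, t2, f3]
        · change ψ (iota m (vv m 3)) = j (vv m 3)
          rw [iota3, map_bw, ψc, ψci, ψX, ψX, ψX, t0, t1, t2, f4]
      · change ψ (iota m (X (Fin.natAdd 4 i))) = j (X (Fin.natAdd 4 i))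
        rw [iota_nat, ψX]; rfl
  intro a b hab
  apply hj
  rw [← key]
  change ψ (iota m a) = ψ (iota m b)
  rw [hab]

lemma iota_aeval (q : Polynomial ℂ) :
    iota m (Polynomial.aeval (cB m) q) = C (Polynomial.toLaurent q) := by
  induction q using Polynomial.induction_on with
  | C a =>
    rw [Polynomial.aeval_C, AlgHom.commutes, Polynomial.toLaurent_C]; rfl
  | add p q hp hq => simp only [map_add, hp, hq]
  | monomial n a h =>
    rw [pow_succ, ← mul_assoc, map_mul, map_mul, h, map_mul (Polynomial.toLaurent) _ Polynomial.X,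
      Polynomial.aeval_X, iota_cB, Polynomial.toLaurent_X, cL, ← map_mul]

lemma cL_pow (n : ℕ) : cL m ^ n = C (LaurentPolynomial.T n) := by
  rw [cL, ← map_pow, LaurentPolynomial.T_pow]; simp

lemma iota_surj (f : Lm m) : ∃ (N : ℕ) (g : Pm m), iota m g = cL m ^ N * f := by
  induction f using MvPolynomial.induction_on with
  | C r =>
    obtain ⟨n, q, hq⟩ := LaurentPolynomial.exists_T_pow r
    exact ⟨n, Polynomial.aeval (cB m) q, by rw [iota_aeval, hq, cL_pow, map_mul, mul_comm]⟩
  | add p q hp hq =>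
    obtain ⟨N, g, hg⟩ := hp
    obtain ⟨N', g', hg'⟩ := hq
    exact ⟨N + N', cB m ^ N' * g + cB m ^ N * g', by
      simp only [map_add, map_mul, map_pow, iota_cB, hg, hg']; ring⟩
  | mul_X p a h =>
    obtain ⟨N, g, hg⟩ := h
    exact ⟨N, g * tt m a, by rw [map_mul, hg, iota_tt]; ring⟩

lemma pderiv_iota_C (a : Fin 3 ⊕ Fin m) (r : ℂ) : pderiv a (iota m (C r)) = 0 := by
  have : iota m (C r) = C (LaurentPolynomial.C r) := by
    rw [← algebraMap_eq, AlgHom.commutes]; rfl
  rw [this, pderiv_C]

lemma der_of_gens (a : Fin 3 ⊕ Fin m) (N : ℕ) (D : Derivation ℂ (Pm m) (Pm m))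
    (hD : ∀ i, iota m (D (X i)) = cL m ^ N * pderiv a (iota m (X i))) (p : Pm m) :
    iota m (D p) = cL m ^ N * pderiv a (iota m p) := by
  induction p using MvPolynomial.induction_on with
  | C r => rw [pderiv_iota_C, derivation_C]; simp
  | add p q hp hq => simp only [map_add, hp, hq]; ring
  | mul_X p i h =>
    simp only [Derivation.leibniz, smul_eq_mul, map_add, map_mul, h, hD]; ring

lemma exists_der (a : Fin 3 ⊕ Fin m) : ∃ (N : ℕ) (D : Derivation ℂ (Pm m) (Pm m)),
    (∀ j, a = Sum.inr j → D = pderiv (Fin.natAdd 4 j)) ∧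
    ∀ p, iota m (D p) = cL m ^ N * pderiv a (iota m p) := by
  classical
  rcases a with i | j
  · choose N g hg using fun k : Fin (4 + m) => iota_surj m (pderiv (Sum.inl i) (iota m (X k)))
    refine ⟨∑ k, N k, mkDerivation ℂ (fun k => cB m ^ (∑ k, N k - N k) * g k), by simp, ?_⟩
    apply der_of_gens
    intro k
    have : N k ≤ ∑ k, N k := Finset.single_le_sum (fun _ _ => Nat.zero_le _) (Finset.mem_univ k)
    rw [mkDerivation_X, map_mul, map_pow, iota_cB, hg, ← mul_assoc, ← pow_add,
      Nat.sub_add_cancel this]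
  · refine ⟨0, pderiv (Fin.natAdd 4 j), by rintro j' h; cases h; rfl, ?_⟩
    apply der_of_gens
    intro k
    refine Fin.addCases (fun i => ?_) (fun i => ?_) k
    · have h1 : iota m (X (Fin.castAdd m i)) = rename Sum.inl (b3 i) := iota_vv m i
      rw [h1, pderiv_inr_rename_inl, pderiv_X_of_ne]
      · simp
      · intro h; have := congrArg Fin.val h; simp at this; omega
    · rw [iota_nat]
      by_cases hij : i = j
      · subst hij; simp
      · rw [pderiv_X_of_ne, pderiv_X_of_ne]
        · simp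
        · simpa using hij
        · simpa using hij

theorem comm_result :
    ∃ D : Fin 3 ⊕ Fin m → Derivation ℂ (Pm m) (Pm m),
      (∀ i : Fin m, D (Sum.inr i) = MvPolynomial.pderiv (Fin.natAdd 4 i)) ∧
      (∀ a b : Fin 3 ⊕ Fin m, ∀ p : Pm m, D a (D b p) = D b (D a p)) ∧
      (∀ a : Fin 3 ⊕ Fin m, ∀ p : Pm m, ∃ k : ℕ, (D a)^[k] p = 0) ∧
      LinearIndependent (Pm m) D ∧
      (∀ p : Pm m, (∀ a : Fin 3 ⊕ Fin m, D a p = 0) ↔ p ∈ Algebra.adjoin ℂ {cB m}) ∧
      ∀ g : Pm m, (∀ a : Fin 3 ⊕ Fin m, D a g = 0) →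
        ¬ ∃ τ : Pm m ≃ₐ[ℂ] Pm m, τ g = MvPolynomial.X (Fin.castAdd m 0) := by
  classical
  choose N D hD1 hD using exists_der m
  have inj := iota_injective m
  have dc : ∀ (a : Fin 3 ⊕ Fin m) (n : ℕ) (f : Lm m),
      pderiv a (cL m ^ n * f) = cL m ^ n * pderiv a f := by
    intro a n f; rw [cL_pow, pderiv_C_mul]
  have hker : ∀ p : Pm m, (∀ a : Fin 3 ⊕ Fin m, D a p = 0) ↔ p ∈ Algebra.adjoin ℂ {cB m} := by
    intro p
    constructor
    · intro hp
      have h1 : ∀ a, pderiv a (iota m p) = 0 := by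
        intro a
        have := hD a p
        rw [hp a, map_zero] at this
        exact (mul_eq_zero.1 this.symm).resolve_left (pow_ne_zero _ (cL_ne m))
      have : CharZero KK := algebraRat.charZero KK
      have h2 := eq_C_of_pderiv_eq_zero _ h1
      obtain ⟨n, q, hq⟩ := LaurentPolynomial.exists_T_pow (coeff 0 (iota m p))
      have h3 : cB m ^ n * p = Polynomial.aeval (cB m) q := by
        apply inj
        rw [iota_aeval, hq, map_mul, map_mul, map_pow, iota_cB, cL_pow, ← h2, mul_comm]
      have h4 : Polynomial.X ^ n * piT m p = q := by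
        have := congrArg (piT m) h3
        rw [map_mul, map_pow, piT_cB, ← Polynomial.aeval_algHom_apply, piT_cB,
          Polynomial.aeval_X_left_apply] at this
        exact this
      rw [← h4, map_mul, map_pow, Polynomial.aeval_X] at h3
      rw [mul_left_cancel₀ (pow_ne_zero n (cB_ne m)) h3]
      exact Polynomial.aeval_mem_adjoin_singleton ℂ (cB m)
    · intro hp a
      induction hp using Algebra.adjoin_induction with
      | mem x hx =>
        rw [Set.mem_singleton_iff.1 hx]
        apply inj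
        rw [hD, iota_cB, cL, pderiv_C]; simp
      | algebraMap r => simp
      | add x y _ _ hx hy => simp [hx, hy]
      | mul x y _ _ hx hy => simp [hx, hy]
  refine ⟨D, fun i => hD1 _ i rfl, ?_, ?_, ?_, hker, ?_⟩
  · intro a b p
    apply inj
    rw [hD, hD, hD, hD, dc, dc, pderiv_comm']; ring
  · intro a p
    have it : ∀ k : ℕ, iota m ((D a)^[k] p) = cL m ^ (N a * k) * (pderiv a)^[k] (iota m p) := by
      intro k
      induction k with
      | zero => simp
      | succ k ih =>
        rw [Function.iterate_succ_apply', Function.iterate_succ_apply', hD, ih, dc]; ring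
    obtain ⟨k, hk⟩ := pderiv_locNil a (iota m p)
    exact ⟨k, inj (by rw [it, hk]; simp)⟩
  · rw [Fintype.linearIndependent_iff]
    intro g hg b
    have h1 := congrArg (fun E : Derivation ℂ (Pm m) (Pm m) => iota m (E (tt m b))) hg
    simp only [Derivation.zero_apply, map_zero] at h1
    have h2 : (∑ i, g i • D i) (tt m b) = ∑ i, g i * D i (tt m b) := by
      rw [← Derivation.coeFnAddMonoidHom_apply, map_sum]; simp
    rw [h2, map_sum, Finset.sum_eq_single b] at h1
    · rw [map_mul, hD, iota_tt, pderiv_X_self, mul_one] at h1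
      apply inj
      rw [map_zero]
      exact (mul_eq_zero.1 h1).resolve_right (pow_ne_zero _ (cL_ne m))
    · intro a _ hab
      rw [map_mul, hD, iota_tt, pderiv_X_of_ne hab.symm]; simp
    · simp
  · rintro g hg ⟨τ, hτ⟩
    let pt : Fin (4 + m) → ℂ := Fin.addCases ![2, 0, -1 / 2, 1 / 2] (fun _ => 0)
    have crit : ∀ (E : Derivation ℂ (Pm m) (Pm m)), ∀ g ∈ Algebra.adjoin ℂ {cB m},
        eval pt (E g) = 0 := by
      intro E g hg
      induction hg using Algebra.adjoin_induction with
      | mem x hx =>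
        rw [Set.mem_singleton_iff.1 hx]
        apply crit_point _ _ _ _ (eval pt) <;> simp [vv, pt]
      | algebraMap r => simp
      | add x y _ _ hx hy => simp [hx, hy]
      | mul x y _ _ hx hy => simp [hx, hy]
    have := crit (conjDer τ (pderiv (Fin.castAdd m 0))) g ((hker g).1 hg)
    rw [conjDer_apply, hτ] at this
    simp at this

end

end Crest.Agent.R268
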