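import Crest.Agent.R268.Main

/-!
Explicit changes of coordinates.
-/

set_option autoImplicit false
set_option linter.unusedSectionVars false
set_option linter.unusedSimpArgs false
set_option maxSynthPendingDepth 6

namespace Crest.Agent.R268

/-- A surjective endomorphism of a Noetherian ring is injective. -/
lemma inj_of_surj {P : Type*} [CommRing P] [IsNoetherianRing P] (φ : P →+* P)
    (h : Function.Surjective φ) : Function.Injective φ := by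
  let K : ℕ →o Ideal P :=
    ⟨fun n => RingHom.ker (φ ^ n), monotone_nat_of_le_succ fun n a ha => by
      rw [RingHom.mem_ker] at ha ⊢
      rw [pow_succ', RingHom.mul_def, RingHom.comp_apply, ha, map_zero]⟩
  obtain ⟨n, hn⟩ := monotone_stabilizes_iff_noetherian.2 inferInstance K
  rw [injective_iff_map_eq_zero]
  intro a ha
  have hs : Function.Surjective (φ ^ n) := by
    rw [RingHom.coe_pow]; exact h.iterate n
  obtain ⟨b, rfl⟩ := hs a
  have h1 : b ∈ K (n + 1) := by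
    change (φ ^ (n + 1)) b = 0
    rw [pow_succ', RingHom.mul_def, RingHom.comp_apply, ha]
  rw [← hn (n + 1) (Nat.le_succ n)] at h1
  exact h1

lemma bij_of_two_surj {P Q : Type*} [CommRing P] [IsNoetherianRing P] [CommRing Q] [Algebra ℂ P]
    [Algebra ℂ Q] (φ : P →ₐ[ℂ] Q) (ψ : Q →ₐ[ℂ] P) (hφ : Function.Surjective φ)
    (hψ : Function.Surjective ψ) : Function.Bijective φ :=
  ⟨Function.Injective.of_comp (f := ψ) (inj_of_surj (ψ.comp φ : P →+* P) (hψ.comp hφ)), hφ⟩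

/-- Membership of polynomial expressions in a subalgebra. -/
macro "mem_tac" : tactic => `(tactic| repeat' first
  | assumption
  | exact one_mem _
  | exact zero_mem _
  | exact ofNat_mem _ _
  | exact Subalgebra.algebraMap_mem _ _
  | apply hf_mem
  | apply sub_mem
  | apply add_mem
  | apply mul_mem
  | apply neg_mem
  | apply pow_mem)

section
variable {A : Type*} [CommRing A]

def xx (o : Bool) (p s u F : A) : A := s ^ 2 + hf o u + p ^ ll o * F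

def HH (o : Bool) (p s u F J : A) : A :=
  xx o p s u F ^ 2 * F - (1 + 2 * s * xx o p s u F) * J - p ^ ll o * J ^ 2 - p ^ kd o * u

lemma map_xx (o : Bool) {A' Φ : Type*} [CommRing A'] [FunLike Φ A A'] [RingHomClass Φ A A']
    (φ : Φ) (p s u F : A) : φ (xx o p s u F) = xx o (φ p) (φ s) (φ u) (φ F) := by
  simp only [xx, map_add, map_mul, map_pow, map_hf]

lemma map_HH (o : Bool) {A' Φ : Type*} [CommRing A'] [FunLike Φ A A'] [RingHomClass Φ A A']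
    (φ : Φ) (p s u F J : A) : φ (HH o p s u F J) = HH o (φ p) (φ s) (φ u) (φ F) (φ J) := by
  simp only [HH, map_add, map_sub, map_mul, map_pow, map_xx, map_one, map_ofNat]

variable [Algebra ℂ A]

lemma xx_mem (o : Bool) (S : Subalgebra ℂ A) {p s u F : A} (hp : p ∈ S) (hs : s ∈ S) (hu : u ∈ S)
    (hF : F ∈ S) : xx o p s u F ∈ S := by
  unfold xx; mem_tac

lemma shift (o : Bool) (p s u F J w : A) : ∃ s₁ u₁ F₁ J₁ : A,
    HH o p s₁ u₁ F₁ J₁ = HH o p s u F J + p ^ kk o * w ∧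
    ∀ S : Subalgebra ℂ A, p ∈ S → w ∈ S → s₁ ∈ S → u₁ ∈ S → F₁ ∈ S → J₁ ∈ S →
      s ∈ S ∧ u ∈ S ∧ F ∈ S ∧ J ∈ S := by
  obtain ⟨l, hl, hl'⟩ : ∃ l : A, hf o u - hf o (u - p ^ ll o * w) = p ^ ll o * l ∧
      ∀ S : Subalgebra ℂ A, p ∈ S → w ∈ S → u ∈ S → l ∈ S := by
    cases o
    · exact ⟨-(w * (u + (u - p ^ ll false * w))), by simp only [hf]; simp; ring,
        fun S hp hw hu => by mem_tac⟩
    · exact ⟨w * (u ^ 2 + u * (u - p ^ ll true * w) + (u - p ^ ll true * w) ^ 2),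
        by simp only [hf]; simp; ring, fun S hp hw hu => by mem_tac⟩
  set x := xx o p s u F with hx
  have hx1 : xx o p (s - p ^ ll o * x * l) (u - p ^ ll o * w)
      (F + l * (1 + x * (s + (s - p ^ ll o * x * l)))) = x := by
    conv_rhs => rw [hx]
    unfold xx
    linear_combination -hl
  refine ⟨s - p ^ ll o * x * l, u - p ^ ll o * w, F + l * (1 + x * (s + (s - p ^ ll o * x * l))),
    J + x ^ 2 * l, ?_, ?_⟩
  · rw [HH, HH, hx1, ← hx, kk_eq]; ring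
  · intro S hp hw hs hu hF hJ
    have h1 : x ∈ S := hx1 ▸ xx_mem o S hp hs hu hF
    have h2 : u ∈ S := by
      rw [show u = (u - p ^ ll o * w) + p ^ ll o * w by ring]; mem_tac
    have h3 := hl' S hp hw h2
    have h4 : s ∈ S := by
      rw [show s = (s - p ^ ll o * x * l) + p ^ ll o * x * l by ring]; mem_tac
    refine ⟨h4, h2, ?_, ?_⟩
    · rw [show F = (F + l * (1 + x * (s + (s - p ^ ll o * x * l)))) -
        l * (1 + x * (s + (s - p ^ ll o * x * l))) by ring]; mem_tac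
    · rw [show J = (J + x ^ 2 * l) - x ^ 2 * l by ring]; mem_tac

lemma coord_node (p s u F J w : A) (h : HH false p s u F J = p * w) : ∃ F' w' : A,
    ∀ S : Subalgebra ℂ A, p ∈ S → s ∈ S → u ∈ S → F' ∈ S → w' ∈ S → F ∈ S ∧ J ∈ S ∧ w ∈ S := by
  obtain ⟨x, hx⟩ : ∃ x, x = s ^ 2 - u ^ 2 := ⟨_, rfl⟩
  obtain ⟨g, hg⟩ : ∃ g, g = (2 * x * F + p * F ^ 2) * F - 2 * s * F * J - J ^ 2 := ⟨_, rfl⟩
  obtain ⟨F', hF'⟩ : ∃ F', F' = (1 - 2 * s * x) * F + 4 * s ^ 2 * J := ⟨_, rfl⟩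
  refine ⟨F', w - g, fun S hp hs hu hF hw => ?_⟩
  have hJ' : x ^ 2 * F - (1 + 2 * s * x) * J = u + p * (w - g) := by
    simp only [HH, xx, hf, ll, kd] at h
    simp only [Bool.false_eq_true, ↓reduceIte] at h
    rw [hg, hx]; linear_combination h
  have m1 : x ∈ S := by rw [hx]; mem_tac
  have m2 : F ∈ S := by
    rw [show F = (1 + 2 * s * x) * F' + 4 * s ^ 2 * (u + p * (w - g)) by rw [← hJ', hF']; ring]
    mem_tac
  have m3 : J ∈ S := by
    rw [show J = x ^ 2 * F' - (1 - 2 * s * x) * (u + p * (w - g)) by rw [← hJ', hF']; ring]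
    mem_tac
  have m4 : g ∈ S := by rw [hg]; mem_tac
  refine ⟨m2, m3, ?_⟩
  rw [show w = (w - g) + g by ring]; mem_tac

lemma coord_zero (s u F J : A) (h : HH false 0 s u F J = 0) : ∃ F' : A,
    ∀ S : Subalgebra ℂ A, s ∈ S → u ∈ S → F' ∈ S → F ∈ S ∧ J ∈ S := by
  obtain ⟨x, hx⟩ : ∃ x, x = s ^ 2 - u ^ 2 := ⟨_, rfl⟩
  obtain ⟨F', hF'⟩ : ∃ F', F' = (1 - 2 * s * x) * F + 4 * s ^ 2 * J := ⟨_, rfl⟩
  refine ⟨F', fun S hs hu hF => ?_⟩
  have hJ' : x ^ 2 * F - (1 + 2 * s * x) * J = u := by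
    simp only [HH, xx, hf, ll, kd] at h
    simp only [Bool.false_eq_true, ↓reduceIte] at h
    rw [hx]; linear_combination h
  have m1 : x ∈ S := by rw [hx]; mem_tac
  constructor
  · rw [show F = (1 + 2 * s * x) * F' + 4 * s ^ 2 * u by rw [← hJ', hF']; ring]
    mem_tac
  · rw [show J = x ^ 2 * F' - (1 - 2 * s * x) * u by rw [← hJ', hF']; ring]
    mem_tac

lemma coord_zero' (s u F' : A) : ∃ F J : A, HH false 0 s u F J = 0 ∧
    ∀ S : Subalgebra ℂ A, s ∈ S → u ∈ S → F ∈ S → J ∈ S → F' ∈ S := by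
  obtain ⟨x, hx⟩ : ∃ x, x = s ^ 2 - u ^ 2 := ⟨_, rfl⟩
  obtain ⟨F, hF⟩ : ∃ F, F = (1 + 2 * s * x) * F' + 4 * s ^ 2 * u := ⟨_, rfl⟩
  obtain ⟨J, hJ⟩ : ∃ J, J = x ^ 2 * F' - (1 - 2 * s * x) * u := ⟨_, rfl⟩
  refine ⟨F, J, ?_, fun S hs hu hF' hJ' => ?_⟩
  · have : xx false 0 s u F = x := by simp [xx, hf, ll, hx, sub_eq_add_neg]
    rw [HH, this, hF, hJ]; simp only [ll, kd, Bool.false_eq_true, ↓reduceIte]; ring
  · have m1 : x ∈ S := by rw [hx]; mem_tac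
    rw [show F' = (1 - 2 * s * x) * F + 4 * s ^ 2 * J by rw [hF, hJ]; ring]
    mem_tac

lemma coord_unit (p q s u F J : A) (hq : p * q = 1) (h : HH false p s u F J = 0) : ∃ x y z : A,
    ∀ S : Subalgebra ℂ A, q ∈ S → x ∈ S → y ∈ S → z ∈ S → s ∈ S ∧ u ∈ S ∧ F ∈ S ∧ J ∈ S := by
  obtain ⟨x, hx⟩ : ∃ x, x = s ^ 2 - u ^ 2 + p * F := ⟨_, rfl⟩
  obtain ⟨y, hy⟩ : ∃ y, y = s + x ^ 2 + x * u ^ 2 := ⟨_, rfl⟩
  obtain ⟨z, hz⟩ : ∃ z, z = x * s + p * J := ⟨_, rfl⟩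
  have : xx false p s u F = x := by simp [xx, hf, ll, hx, sub_eq_add_neg]
  rw [HH, this] at h
  simp only [ll, kd, Bool.false_eq_true, ↓reduceIte] at h
  refine ⟨x, y, z, fun S mq mx my mz => ?_⟩
  have mu : u ∈ S := by
    rw [show u = q * (x * y - z * (z + 1)) by
      rw [hy, hz]; linear_combination (-u) * hq - (q * p) * h - (q * x ^ 2) * hx]
    mem_tac
  have ms : s ∈ S := by rw [show s = y - x ^ 2 - x * u ^ 2 by rw [hy]; ring]; mem_tac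
  refine ⟨ms, mu, ?_, ?_⟩
  · rw [show F = q * (x - s ^ 2 + u ^ 2) by rw [hx]; linear_combination (-F) * hq]; mem_tac
  · rw [show J = q * (z - x * s) by rw [hz]; linear_combination (-J) * hq]; mem_tac

lemma coord_unit' (p q x y z : A) (hq : p * q = 1) : ∃ s u F J : A, HH false p s u F J = 0 ∧
    ∀ S : Subalgebra ℂ A, p ∈ S → s ∈ S → u ∈ S → F ∈ S → J ∈ S → x ∈ S ∧ y ∈ S ∧ z ∈ S := by
  obtain ⟨u, hu⟩ : ∃ u, u = q * (x * y - z * (z + 1)) := ⟨_, rfl⟩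
  obtain ⟨s, hs⟩ : ∃ s, s = y - x ^ 2 - x * u ^ 2 := ⟨_, rfl⟩
  obtain ⟨F, hF⟩ : ∃ F, F = q * (x - s ^ 2 + u ^ 2) := ⟨_, rfl⟩
  obtain ⟨J, hJ⟩ : ∃ J, J = q * (z - x * s) := ⟨_, rfl⟩
  have hx : x = s ^ 2 - u ^ 2 + p * F := by rw [hF]; linear_combination (-x + s ^ 2 - u ^ 2) * hq
  have hz : z = x * s + p * J := by rw [hJ]; linear_combination (-z + x * s) * hq
  have hy : y = s + x ^ 2 + x * u ^ 2 := by rw [hs]; ring
  refine ⟨s, u, F, J, ?_, fun S mp ms mu mF mJ => ?_⟩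
  · have : xx false p s u F = x := by simp [xx, hf, ll, hx, sub_eq_add_neg]
    rw [HH, this]
    simp only [ll, kd, Bool.false_eq_true, ↓reduceIte]
    have h1 : p * (x ^ 2 * F - (1 + 2 * s * x) * J - p ^ 1 * J ^ 2) = x * y - z * (z + 1) := by
      rw [hy, hz]; linear_combination (-x ^ 2) * hx
    linear_combination q * h1 - hu -
      (x ^ 2 * F - (1 + 2 * s * x) * J - p ^ 1 * J ^ 2) * hq
  · have mx : x ∈ S := by rw [hx]; mem_tac
    refine ⟨mx, ?_, ?_⟩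
    · rw [hy]; mem_tac
    · rw [hz]; mem_tac

lemma cusp_id (p s u x F J F' J' : A) (hx : x = s ^ 2 + u ^ 3)
    (hF : F = (1 + 2 * s * x) * F' + 4 * s ^ 2 * J') (hJ : J = x ^ 2 * F' - (1 - 2 * s * x) * J')
    (g b : A) (hg : g = 2 * x * ((1 + 2 * s * x) * F') ^ 2 -
      2 * s * ((1 + 2 * s * x) * F') * (x ^ 2 * F') - (x ^ 2 * F') ^ 2)
    (hb : b = 2 * x * (4 * s ^ 2) * (F + (1 + 2 * s * x) * F') -
      2 * s * (4 * s ^ 2 * J - (1 - 2 * s * x) * ((1 + 2 * s * x) * F')) +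
      (1 - 2 * s * x) * (J + x ^ 2 * F')) :
    HH true p s u F J =
      (J' - p * u + p ^ 2 * g) * (1 + p ^ 2 * b) + p ^ 3 * (u * b - p * g * b + p * F ^ 3) := by
  have e1 : xx true p s u F = x + p ^ 2 * F := by simp [xx, hf, ll, hx]
  have e2 : x ^ 2 * F - (1 + 2 * s * x) * J = J' := by rw [hF, hJ]; ring
  have e3 : 2 * x * F ^ 2 - 2 * s * F * J - J ^ 2 = g + J' * b := by
    rw [hg, hb, hF, hJ]; ring
  rw [HH, e1]
  simp only [ll, kd, ↓reduceIte]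
  linear_combination e2 + p ^ 2 * e3

lemma coord_cusp (p s u F J w : A) (h : HH true p s u F J = p ^ 3 * w) : ∃ F' w' : A,
    ∀ S : Subalgebra ℂ A, p ∈ S → s ∈ S → u ∈ S → F' ∈ S → w' ∈ S → F ∈ S ∧ J ∈ S ∧ w ∈ S := by
  obtain ⟨x, hx⟩ : ∃ x, x = s ^ 2 + u ^ 3 := ⟨_, rfl⟩
  obtain ⟨F', hF'⟩ : ∃ F', F' = (1 - 2 * s * x) * F + 4 * s ^ 2 * J := ⟨_, rfl⟩
  obtain ⟨J', hJ'⟩ : ∃ J', J' = x ^ 2 * F - (1 + 2 * s * x) * J := ⟨_, rfl⟩
  have hF : F = (1 + 2 * s * x) * F' + 4 * s ^ 2 * J' := by rw [hF', hJ']; ring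
  have hJ : J = x ^ 2 * F' - (1 - 2 * s * x) * J' := by rw [hF', hJ']; ring
  obtain ⟨g, hg⟩ : ∃ g, g = 2 * x * ((1 + 2 * s * x) * F') ^ 2 -
      2 * s * ((1 + 2 * s * x) * F') * (x ^ 2 * F') - (x ^ 2 * F') ^ 2 := ⟨_, rfl⟩
  obtain ⟨b, hb⟩ : ∃ b, b = 2 * x * (4 * s ^ 2) * (F + (1 + 2 * s * x) * F') -
      2 * s * (4 * s ^ 2 * J - (1 - 2 * s * x) * ((1 + 2 * s * x) * F')) +
      (1 - 2 * s * x) * (J + x ^ 2 * F') := ⟨_, rfl⟩
  have e := cusp_id p s u x F J F' J' hx hF hJ g b hg hb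
  rw [h] at e
  obtain ⟨c, hc⟩ : ∃ c, c = u * b - p * g * b + p * F ^ 3 := ⟨_, rfl⟩
  obtain ⟨K, hK⟩ : ∃ K, K = J' - p * u + p ^ 2 * g := ⟨_, rfl⟩
  rw [← hc, ← hK] at e
  obtain ⟨w', hw'⟩ : ∃ w', w' = (w - c) * (1 - p ^ 2 * b) + p * b ^ 2 * K := ⟨_, rfl⟩
  refine ⟨F', w', fun S mp ms mu mF mw => ?_⟩
  have mx : x ∈ S := by rw [hx]; mem_tac
  have mg : g ∈ S := by rw [hg]; mem_tac
  have mJ' : J' ∈ S := by
    rw [show J' = p ^ 3 * w' + p * u - p ^ 2 * g by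
      rw [hw']; linear_combination (-1 + p ^ 2 * b) * e - hK]
    mem_tac
  have m2 : F ∈ S := by rw [hF]; mem_tac
  have m3 : J ∈ S := by rw [hJ]; mem_tac
  have mb : b ∈ S := by rw [hb]; mem_tac
  have mc : c ∈ S := by rw [hc]; mem_tac
  refine ⟨m2, m3, ?_⟩
  rw [show w = w' * (1 + p ^ 2 * b) + c by rw [hw']; linear_combination (p * b ^ 2) * e]
  mem_tac

lemma coord_cusp' (p s u F' w' : A) : ∃ F J w : A, HH true p s u F J = p ^ 3 * w ∧
    ∀ S : Subalgebra ℂ A, p ∈ S → s ∈ S → u ∈ S → F ∈ S → J ∈ S → w ∈ S → F' ∈ S ∧ w' ∈ S := by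
  obtain ⟨x, hx⟩ : ∃ x, x = s ^ 2 + u ^ 3 := ⟨_, rfl⟩
  obtain ⟨g, hg⟩ : ∃ g, g = 2 * x * ((1 + 2 * s * x) * F') ^ 2 -
      2 * s * ((1 + 2 * s * x) * F') * (x ^ 2 * F') - (x ^ 2 * F') ^ 2 := ⟨_, rfl⟩
  obtain ⟨J', hJ'⟩ : ∃ J', J' = p ^ 3 * w' + p * u - p ^ 2 * g := ⟨_, rfl⟩
  obtain ⟨F, hF⟩ : ∃ F, F = (1 + 2 * s * x) * F' + 4 * s ^ 2 * J' := ⟨_, rfl⟩
  obtain ⟨J, hJ⟩ : ∃ J, J = x ^ 2 * F' - (1 - 2 * s * x) * J' := ⟨_, rfl⟩
  obtain ⟨b, hb⟩ : ∃ b, b = 2 * x * (4 * s ^ 2) * (F + (1 + 2 * s * x) * F') -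
      2 * s * (4 * s ^ 2 * J - (1 - 2 * s * x) * ((1 + 2 * s * x) * F')) +
      (1 - 2 * s * x) * (J + x ^ 2 * F') := ⟨_, rfl⟩
  have e := cusp_id p s u x F J F' J' hx hF hJ g b hg hb
  obtain ⟨c, hc⟩ : ∃ c, c = u * b - p * g * b + p * F ^ 3 := ⟨_, rfl⟩
  obtain ⟨w, hw⟩ : ∃ w, w = w' * (1 + p ^ 2 * b) + c := ⟨_, rfl⟩
  refine ⟨F, J, w, by rw [e, ← hc, hw, hJ']; ring, fun S mp ms mu mF mJ mw => ?_⟩
  have mx : x ∈ S := by rw [hx]; mem_tac
  have mF' : F' ∈ S := by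
    rw [show F' = (1 - 2 * s * x) * F + 4 * s ^ 2 * J by rw [hF, hJ]; ring]; mem_tac
  have mJ' : J' ∈ S := by
    rw [show J' = x ^ 2 * F - (1 + 2 * s * x) * J by rw [hF, hJ]; ring]; mem_tac
  have mg : g ∈ S := by rw [hg]; mem_tac
  have mb : b ∈ S := by rw [hb]; mem_tac
  have mc : c ∈ S := by rw [hc]; mem_tac
  refine ⟨mF', ?_⟩
  rw [show w' = (w - c) * (1 - p ^ 2 * b) + p * b ^ 2 * (J' - p * u + p ^ 2 * g) by
    rw [hw, hJ']; ring]
  mem_tac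

lemma surj_of_X {σ B : Type*} [CommRing B] [Algebra ℂ B] (ψ : B →ₐ[ℂ] MvPolynomial σ ℂ)
    (h : ∀ i, MvPolynomial.X i ∈ ψ.range) : Function.Surjective ψ := by
  intro f
  change f ∈ ψ.range
  induction f using MvPolynomial.induction_on with
  | C a => exact Subalgebra.algebraMap_mem _ a
  | add p q hp hq => exact add_mem hp hq
  | mul_X p i hp => exact mul_mem hp (h i)

lemma poly_top {S : Subalgebra ℂ (Polynomial A)} {s : Set A} (hs : Algebra.adjoin ℂ s = ⊤)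
    (h : ∀ a ∈ s, Polynomial.C a ∈ S) (hX : Polynomial.X ∈ S) (f : Polynomial A) : f ∈ S := by
  have hC : ∀ a, Polynomial.C a ∈ S := by
    intro a
    have : Algebra.adjoin ℂ s ≤ S.comap (Polynomial.CAlgHom : A →ₐ[ℂ] Polynomial A) :=
      Algebra.adjoin_le h
    exact this (hs ▸ Algebra.mem_top)
  induction f using Polynomial.induction_on with
  | C a => exact hC a
  | add p q hp hq => exact add_mem hp hq
  | monomial n a h => rw [pow_succ, ← mul_assoc]; exact mul_mem h hX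

end

lemma HH_Lam (o : Bool) : xx o pL (sA o) (uL o) (FL o) = xL o ∧
    HH o pL (sA o) (uL o) (FL o) (JL o) = 0 := by
  have : xx o pL (sA o) (uL o) (FL o) = xL o := by rw [xx, pl_F, hL]; ring
  exact ⟨this, by rw [HH, this]; exact H_rel o⟩

/-- A domain with the universal property of the model embeds onto `BB`. -/
lemma model_embed (o : Bool) {B : Type} [CommRing B] [IsDomain B] [Algebra ℂ B] (p s u F J : B)
    (hgen : Algebra.adjoin ℂ {p, s, u, F, J} = ⊤) (hH : HH o p s u F J = 0)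
    (j : B →ₐ[ℂ] Lam) (jp : j p = pL) (js : j s = sA o) (ju : j u = uL o) (jF : j F = FL o)
    (jJ : j J = JL o) : Function.Injective j ∧ j.range = BB o := by
  refine inj_of_model o j p s u F J hgen jp js ju jF jJ (xx o p s u F) rfl ?_ ?_ hH
  · rintro rfl; exact pL_ne (by rw [← jp, map_zero])
  · intro h
    have := congrArg j h
    rw [map_xx, jp, js, ju, jF, (HH_Lam o).1, map_zero] at this
    exact xL_ne o this

end Crest.Agent.R268
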