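import Mathlib

/-!
Explicit formulas for a polynomial `c` on affine four-space with coordinates `h, u, v, w`
whose fibres over non-zero values are affine three-spaces and which has a critical point.
All formulas are written over an arbitrary commutative ring.
-/

set_option autoImplicit false

namespace Crest.Agent.R268

section Formulas
variable {C : Type*} [CommRing C]

def cx (h u v : C) : C := u ^ 3 + h * v
def cy (h u w : C) : C := -u ^ 2 + h * w
def cs (h u v w : C) : C :=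
  2 * u ^ 3 * v + 3 * u ^ 4 * w + h * (v ^ 2 - 3 * u ^ 2 * w ^ 2) + h ^ 2 * w ^ 3
def cR (s y : C) : C := -3 * s * y + 3 * s ^ 3
def cc0 (s x y : C) : C := 2 * s ^ 2 * x + y * cR s y
def cU0 (s x y : C) : C := 2 * s ^ 2 * y ^ 2 - x * cR s y
/-- the distinguished function -/
def cc (h u v w : C) : C := h + cc0 (cs h u v w) (cx h u v) (cy h u w)
def cx' (h u v w : C) : C := cx h u v + cs h u v w ^ 3
def cy' (h u v w : C) : C := cy h u w - cs h u v w ^ 2
def cV (h u v w : C) : C :=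
  u + 2 * cs h u v w ^ 2 * (u * v + 2 * u ^ 2 * w - h * w ^ 2)
    + cR (cs h u v w) (cy h u w) * (u * w + v)
def cwnum (h s x y V : C) : C :=
  (2 * cc0 s x y + h) * y + s * ((2 * s ^ 2) ^ 2 * y + cR s y ^ 2) + 2 * V * cU0 s x y + h * V ^ 2
def cvnum (h s x y V : C) : C :=
  ((h + cc0 s x y) ^ 2 + (h + cc0 s x y) * cc0 s x y + cc0 s x y ^ 2) * x
    + s * ((2 * s ^ 2) ^ 3 * (x ^ 2 - y ^ 3) + 3 * (2 * s ^ 2) ^ 2 * x * y * cR s y
      + x * cR s y ^ 3)
    - V * (3 * cU0 s x y ^ 2 + 3 * cU0 s x y * h * V + h ^ 2 * V ^ 2)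

/-- backward formulas; `ci` is the inverse of `c` -/
def bs (ci x' y' : C) : C := ci * (x' ^ 2 + y' ^ 3)
def bx (ci x' y' : C) : C := x' - bs ci x' y' ^ 3
def by' (ci x' y' : C) : C := y' + bs ci x' y' ^ 2
def bh (c ci x' y' : C) : C := c - cc0 (bs ci x' y') (bx ci x' y') (by' ci x' y')
def bu (c ci x' y' V : C) : C :=
  ci * (bh c ci x' y' * V + cU0 (bs ci x' y') (bx ci x' y') (by' ci x' y'))
def bv (c ci x' y' V : C) : C :=
  ci ^ 3 * cvnum (bh c ci x' y') (bs ci x' y') (bx ci x' y') (by' ci x' y') V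
def bw (c ci x' y' V : C) : C :=
  ci ^ 2 * cwnum (bh c ci x' y') (bs ci x' y') (bx ci x' y') (by' ci x' y') V

lemma cusp_eq (h u v w : C) : cx h u v ^ 2 + cy h u w ^ 3 = h * cs h u v w := by
  simp only [cx, cy, cs]; ring

lemma shift_eq (s x y : C) : (x + s ^ 3) ^ 2 + (y - s ^ 2) ^ 3 = x ^ 2 + y ^ 3 + s * cc0 s x y := by
  simp only [cc0, cR]; ring

lemma cusp_eq' (h u v w : C) :
    cx' h u v w ^ 2 + cy' h u v w ^ 3 = cc h u v w * cs h u v w := by
  rw [cx', cy', shift_eq, cusp_eq, cc]; ring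

lemma cu_eq (h u v w : C) :
    cc h u v w * u = h * cV h u v w + cU0 (cs h u v w) (cx h u v) (cy h u w) := by
  simp only [cc, cV, cc0, cU0]
  generalize cR (cs h u v w) (cy h u w) = R
  generalize cs h u v w = s
  simp only [cx, cy]; ring

lemma cw_eq (h u v w : C) :
    cc h u v w ^ 2 * w = cwnum h (cs h u v w) (cx h u v) (cy h u w) (cV h u v w) := by
  have hs : cs h u v w
      = 2 * u ^ 3 * v + 3 * u ^ 4 * w + h * (v ^ 2 - 3 * u ^ 2 * w ^ 2) + h ^ 2 * w ^ 3 := rfl
  simp only [cc, cV, cc0, cU0, cwnum]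
  generalize cR (cs h u v w) (cy h u w) = R
  generalize cs h u v w = s at hs ⊢
  generalize 2 * s ^ 2 = a
  simp only [cx, cy]
  linear_combination (-(a ^ 2 * (-u ^ 2 + h * w) + R ^ 2)) * hs

lemma cv_eq (h u v w : C) :
    cc h u v w ^ 3 * v = cvnum h (cs h u v w) (cx h u v) (cy h u w) (cV h u v w) := by
  have hs : cs h u v w
      = 2 * u ^ 3 * v + 3 * u ^ 4 * w + h * (v ^ 2 - 3 * u ^ 2 * w ^ 2) + h ^ 2 * w ^ 3 := rfl
  simp only [cc, cV, cc0, cU0, cvnum]
  generalize cR (cs h u v w) (cy h u w) = R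
  generalize cs h u v w = s at hs ⊢
  generalize 2 * s ^ 2 = a
  simp only [cx, cy]
  linear_combination (-(a ^ 3 * ((u ^ 3 + h * v) ^ 2 - (-u ^ 2 + h * w) ^ 3)
    + 3 * a ^ 2 * (u ^ 3 + h * v) * (-u ^ 2 + h * w) * R + (u ^ 3 + h * v) * R ^ 3)) * hs

/-- backward after forward is the identity when `c` is invertible -/
lemma bwd_fwd (h u v w ci : C) (hc : cc h u v w * ci = 1) :
    bh (cc h u v w) ci (cx' h u v w) (cy' h u v w) = h ∧
    bu (cc h u v w) ci (cx' h u v w) (cy' h u v w) (cV h u v w) = u ∧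
    bv (cc h u v w) ci (cx' h u v w) (cy' h u v w) (cV h u v w) = v ∧
    bw (cc h u v w) ci (cx' h u v w) (cy' h u v w) (cV h u v w) = w := by
  have e1 : bs ci (cx' h u v w) (cy' h u v w) = cs h u v w := by
    rw [bs, cusp_eq']; linear_combination (cs h u v w) * hc
  have e2 : bx ci (cx' h u v w) (cy' h u v w) = cx h u v := by
    rw [bx, e1, cx']; ring
  have e3 : by' ci (cx' h u v w) (cy' h u v w) = cy h u w := by
    rw [by', e1, cy']; ring
  have e4 : bh (cc h u v w) ci (cx' h u v w) (cy' h u v w) = h := by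
    rw [bh, e1, e2, e3, cc]; ring
  refine ⟨e4, ?_, ?_, ?_⟩
  · rw [bu, e4, e1, e2, e3, ← cu_eq]; linear_combination u * hc
  · rw [bv, e4, e1, e2, e3, ← cv_eq]
    linear_combination (v * ((cc h u v w * ci) ^ 2 + cc h u v w * ci + 1)) * hc
  · rw [bw, e4, e1, e2, e3, ← cw_eq]
    linear_combination (w * (cc h u v w * ci + 1)) * hc

/-- forward after backward is the identity when `c` is invertible and `h` is regular -/
lemma fwd_bwd [IsDomain C] (c ci x' y' V : C) (hc : c * ci = 1) (hh : bh c ci x' y' ≠ 0) :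
    cc (bh c ci x' y') (bu c ci x' y' V) (bv c ci x' y' V) (bw c ci x' y' V) = c ∧
    cx' (bh c ci x' y') (bu c ci x' y' V) (bv c ci x' y' V) (bw c ci x' y' V) = x' ∧
    cy' (bh c ci x' y') (bu c ci x' y' V) (bv c ci x' y' V) (bw c ci x' y' V) = y' ∧
    cV (bh c ci x' y') (bu c ci x' y' V) (bv c ci x' y' V) (bw c ci x' y' V) = V := by
  set s := bs ci x' y' with hs
  set x := bx ci x' y' with hx
  set y := by' ci x' y' with hy
  set h := bh c ci x' y' with hh'
  have hx' : x' = x + s ^ 3 := by rw [hx, bx]; ring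
  have hy' : y' = y - s ^ 2 := by rw [hy, by']; ring
  have hcc : c = h + cc0 s x y := by rw [hh', bh]; ring
  have hcs : x' ^ 2 + y' ^ 3 = c * s := by rw [hs, bs]; linear_combination (-(x' ^ 2 + y' ^ 3)) * hc
  have hxy : x ^ 2 + y ^ 3 = h * s := by
    have := shift_eq s x y
    rw [← hx', ← hy', hcs, hcc] at this
    linear_combination -this
  have hu : c * bu c ci x' y' V = h * V + cU0 s x y := by
    rw [bu]; linear_combination (h * V + cU0 s x y) * hc
  have hv : c ^ 3 * bv c ci x' y' V = cvnum h s x y V := by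
    rw [bv]; linear_combination (cvnum h s x y V * ((c * ci) ^ 2 + c * ci + 1)) * hc
  have hw : c ^ 2 * bw c ci x' y' V = cwnum h s x y V := by
    rw [bw]; linear_combination (cwnum h s x y V * (c * ci + 1)) * hc
  set u := bu c ci x' y' V
  set v := bv c ci x' y' V
  set w := bw c ci x' y' V
  have hc0 : c ≠ 0 := by rintro rfl; simp at hc
  have ex : cx h u v = x := by
    apply mul_left_cancel₀ (pow_ne_zero 3 hc0)
    have : c ^ 3 * cx h u v = (c * u) ^ 3 + h * (c ^ 3 * v) := by rw [cx]; ring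
    rw [this, hu, hv, hcc]
    simp only [cvnum, cU0, cc0]
    generalize cR s y = R
    generalize 2 * s ^ 2 = a
    linear_combination (-(a ^ 3 * (x ^ 2 - y ^ 3) + 3 * a ^ 2 * x * y * R + x * R ^ 3)) * hxy
  have ey : cy h u w = y := by
    apply mul_left_cancel₀ (pow_ne_zero 2 hc0)
    have : c ^ 2 * cy h u w = -(c * u) ^ 2 + h * (c ^ 2 * w) := by rw [cy]; ring
    rw [this, hu, hw, hcc]
    simp only [cwnum, cU0, cc0]
    generalize cR s y = R
    generalize 2 * s ^ 2 = a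
    linear_combination (-(a ^ 2 * y + R ^ 2)) * hxy
  have es : cs h u v w = s := by
    apply mul_left_cancel₀ hh
    rw [← cusp_eq, ex, ey, hxy]
  have ec : cc h u v w = c := by rw [cc, es, ex, ey, hcc]
  refine ⟨ec, ?_, ?_, ?_⟩
  · rw [cx', ex, es, hx']
  · rw [cy', ey, es, hy']
  · apply mul_left_cancel₀ hh
    have := cu_eq h u v w
    rw [ec, es, ex, ey, hu] at this
    linear_combination -this

end Formulas

section Maps
variable {C C' F : Type*} [CommRing C] [CommRing C'] [FunLike F C C'] [RingHomClass F C C'] (φ : F)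

@[simp] lemma map_cx (h u v : C) : φ (cx h u v) = cx (φ h) (φ u) (φ v) := by
  simp [cx]
@[simp] lemma map_cy (h u w : C) : φ (cy h u w) = cy (φ h) (φ u) (φ w) := by
  simp [cy]
@[simp] lemma map_cs (h u v w : C) : φ (cs h u v w) = cs (φ h) (φ u) (φ v) (φ w) := by
  simp [cs, map_ofNat]
@[simp] lemma map_cR (s y : C) : φ (cR s y) = cR (φ s) (φ y) := by
  simp [cR, map_ofNat]
@[simp] lemma map_cc0 (s x y : C) : φ (cc0 s x y) = cc0 (φ s) (φ x) (φ y) := by
  simp [cc0, map_ofNat]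
@[simp] lemma map_cU0 (s x y : C) : φ (cU0 s x y) = cU0 (φ s) (φ x) (φ y) := by
  simp [cU0, map_ofNat]
@[simp] lemma map_cc (h u v w : C) : φ (cc h u v w) = cc (φ h) (φ u) (φ v) (φ w) := by
  simp [cc]
@[simp] lemma map_cx' (h u v w : C) : φ (cx' h u v w) = cx' (φ h) (φ u) (φ v) (φ w) := by
  simp [cx']
@[simp] lemma map_cy' (h u v w : C) : φ (cy' h u v w) = cy' (φ h) (φ u) (φ v) (φ w) := by
  simp [cy']
@[simp] lemma map_cV (h u v w : C) : φ (cV h u v w) = cV (φ h) (φ u) (φ v) (φ w) := by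
  simp [cV, map_ofNat]
@[simp] lemma map_cwnum (h s x y V : C) :
    φ (cwnum h s x y V) = cwnum (φ h) (φ s) (φ x) (φ y) (φ V) := by
  simp [cwnum, map_ofNat]
@[simp] lemma map_cvnum (h s x y V : C) :
    φ (cvnum h s x y V) = cvnum (φ h) (φ s) (φ x) (φ y) (φ V) := by
  simp [cvnum, map_ofNat]
@[simp] lemma map_bs (ci x y : C) : φ (bs ci x y) = bs (φ ci) (φ x) (φ y) := by
  simp [bs]
@[simp] lemma map_bx (ci x y : C) : φ (bx ci x y) = bx (φ ci) (φ x) (φ y) := by
  simp [bx]
@[simp] lemma map_by' (ci x y : C) : φ (by' ci x y) = by' (φ ci) (φ x) (φ y) := by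
  simp [by']
@[simp] lemma map_bh (c ci x y : C) : φ (bh c ci x y) = bh (φ c) (φ ci) (φ x) (φ y) := by
  simp [bh]
@[simp] lemma map_bu (c ci x y V : C) :
    φ (bu c ci x y V) = bu (φ c) (φ ci) (φ x) (φ y) (φ V) := by
  simp [bu]
@[simp] lemma map_bv (c ci x y V : C) :
    φ (bv c ci x y V) = bv (φ c) (φ ci) (φ x) (φ y) (φ V) := by
  simp [bv]
@[simp] lemma map_bw (c ci x y V : C) :
    φ (bw c ci x y V) = bw (φ c) (φ ci) (φ x) (φ y) (φ V) := by
  simp [bw]

end Maps

lemma bh_zero {C : Type*} [CommRing C] (c ci : C) : bh c ci 0 0 = c := by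
  simp [bh, bs, bx, by', cc0, cR]

lemma cc_zero {C : Type*} [CommRing C] (h : C) : cc h 0 0 0 = h := by
  simp [cc, cs, cx, cy, cc0, cR]

/-- Every derivation kills `c` at the critical point. -/
lemma crit_point {P : Type*} [CommRing P] [Algebra ℂ P] (h u v w : P) (ev : P →+* ℂ)
    (eh : ev h = 2) (eu : ev u = 0) (ev' : ev v = -1 / 2) (ew : ev w = 1 / 2)
    (D : Derivation ℂ P P) : ev (D (cc h u v w)) = 0 := by
  have hs : ev (cs h u v w) = 1 := by rw [map_cs, eh, eu, ev', ew, cs]; norm_num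
  have hx : ev (cx h u v) = -1 := by rw [map_cx, eh, eu, ev', cx]; norm_num
  have hy : ev (cy h u w) = 1 := by rw [map_cy, eh, eu, ew, cy]; norm_num
  have hx' : ev (cx' h u v w) = 0 := by rw [cx', map_add, map_pow, hs, hx]; norm_num
  have hy' : ev (cy' h u v w) = 0 := by rw [cy', map_sub, map_pow, hs, hy]; norm_num
  have hc : ev (cc h u v w) = 0 := by
    rw [cc, map_add, map_cc0, hs, hx, hy, eh, cc0, cR]; norm_num
  have key := congrArg (fun t => ev (D t)) (cusp_eq' h u v w)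
  simp only [map_add, Derivation.leibniz, Derivation.leibniz_pow, smul_eq_mul, map_mul,
    nsmul_eq_mul, map_pow, hs, hx', hy', hc] at key
  simpa using key.symm

/-- Transport of a derivation along an algebra isomorphism. -/
noncomputable def conjDer {A B : Type*} [CommRing A] [CommRing B] [Algebra ℂ A] [Algebra ℂ B]
    (τ : A ≃ₐ[ℂ] B) (D : Derivation ℂ B B) : Derivation ℂ A A :=
  Derivation.mk' (τ.symm.toLinearMap ∘ₗ (D : B →ₗ[ℂ] B) ∘ₗ τ.toLinearMap) (by
    intro a b
    simp [Derivation.leibniz])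

lemma conjDer_apply {A B : Type*} [CommRing A] [CommRing B] [Algebra ℂ A] [Algebra ℂ B]
    (τ : A ≃ₐ[ℂ] B) (D : Derivation ℂ B B) (a : A) : conjDer τ D a = τ.symm (D (τ a)) := rfl

end Crest.Agent.R268
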