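import Crest.Agent.R268.Amb

/-!
Lowest-order terms of the elements of the algebra generated by `p, s, u, F, J`.
-/

set_option autoImplicit false
set_option linter.unusedSectionVars false
set_option linter.unusedSimpArgs false
set_option maxSynthPendingDepth 6

namespace Crest.Agent.R268

open AddMonoidAlgebra

variable (o : Bool)

noncomputable def BB : Subalgebra ℂ Lam := Algebra.adjoin ℂ {pL, sA o, uL o, FL o, JL o}
noncomputable def OO : Subalgebra ℂ Lam := Algebra.adjoin ℂ {xL o, xI o, zL, uL o, pL, N1 o}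
noncomputable def O0 : Subalgebra ℂ Lam := Algebra.adjoin ℂ {xL o, xI o, zL, uL o}
noncomputable def WW : Subalgebra ℂ Lam := Algebra.adjoin ℂ {uL o, zL, xL o, yb o}
noncomputable def RR : Subalgebra ℂ Lam := Algebra.adjoin ℂ {pL, uL o, zL, xL o, yL o}

/-- Elements of nonnegative `p`-order. -/
noncomputable def P0 : Subalgebra ℂ Lam := suppSub
  { carrier := {g | 0 ≤ pr1 g}
    add_mem' := fun {a b} ha hb => by
      simp only [Set.mem_ofPred_eq, map_add] at ha hb ⊢; omega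
    zero_mem' := by simp }

/-- Elements not involving `p`. -/
noncomputable def Q0 : Subalgebra ℂ Lam := suppSub
  { carrier := {g | pr1 g = 0}
    add_mem' := fun {a b} ha hb => by
      simp only [Set.mem_ofPred_eq, map_add] at ha hb ⊢; omega
    zero_mem' := by simp }

lemma mem_P0 {f : Lam} : f ∈ P0 ↔ ∀ i t, i < 0 → f.coeff (G i t) = 0 := by
  constructor
  · intro h i t hi; exact h _ (by change ¬ (0 ≤ i); omega)
  · intro h g hg
    obtain ⟨i, t, rfl⟩ := exists_G g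
    exact h i t (by change ¬ (0 ≤ i) at hg; omega)

lemma mem_Q0 {f : Lam} : f ∈ Q0 ↔ ∀ i t, i ≠ 0 → f.coeff (G i t) = 0 := by
  constructor
  · intro h i t hi; exact h _ hi
  · intro h g hg
    obtain ⟨i, t, rfl⟩ := exists_G g
    exact h i t hg

lemma Q0_le_P0 {f : Lam} (h : f ∈ Q0) : f ∈ P0 :=
  mem_P0.2 fun i t hi => mem_Q0.1 h i t hi.ne

lemma single_Q0 (t : ℤ) (r : R1) : (single (G 0 t) r : Lam) ∈ Q0 := single_mem_suppSub rfl r
lemma p_P0 : pL ∈ P0 := single_mem_suppSub (show (0 : ℤ) ≤ 1 by norm_num) _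
lemma x_Q0 : xL o ∈ Q0 := single_Q0 _ _
lemma xI_Q0 : xI o ∈ Q0 := single_Q0 _ _
lemma z_Q0 : zL ∈ Q0 := single_Q0 _ _
lemma u_Q0 : uL o ∈ Q0 := single_Q0 _ _
lemma yb_Q0 : yb o ∈ Q0 := by rw [yb_eq]; exact single_Q0 _ _
lemma WW_Q0 {f : Lam} (h : f ∈ WW o) : f ∈ Q0 := by
  refine Algebra.adjoin_le ?_ h
  rintro t (rfl | rfl | rfl | rfl)
  exacts [u_Q0 o, z_Q0, x_Q0 o, yb_Q0 o]
lemma O0_Q0 {f : Lam} (h : f ∈ O0 o) : f ∈ Q0 := by
  refine Algebra.adjoin_le ?_ h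
  rintro t (rfl | rfl | rfl | rfl)
  exacts [x_Q0 o, xI_Q0 o, z_Q0, u_Q0 o]

lemma y_split : ∃ δ ∈ P0, yL o = yb o + pL * δ :=
  ⟨pL ^ km o * uL o * xI o, mul_mem (mul_mem (pow_mem p_P0 _) (Q0_le_P0 (u_Q0 o)))
    (Q0_le_P0 (xI_Q0 o)), by rw [yL, kk_eq']; ring⟩

lemma y_P0 : yL o ∈ P0 := by
  obtain ⟨δ, hδ, e⟩ := y_split o
  rw [e]; exact add_mem (Q0_le_P0 (yb_Q0 o)) (mul_mem p_P0 hδ)

lemma RR_P0 {f : Lam} (h : f ∈ RR o) : f ∈ P0 := by
  refine Algebra.adjoin_le ?_ h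
  rintro t (rfl | rfl | rfl | rfl | rfl)
  exacts [p_P0, Q0_le_P0 (u_Q0 o), Q0_le_P0 z_Q0, Q0_le_P0 (x_Q0 o), y_P0 o]

lemma coeff_p_mul (f : Lam) (i t : ℤ) : (pL * f).coeff (G i t) = f.coeff (G (i - 1) t) := by
  rw [← coeff_T_mul (G 1 0) (G (i - 1) t) f, G_add]; congr 2 <;> ring

lemma coeff_p_mul_P0 {f : Lam} (hf : f ∈ P0) {i : ℤ} (hi : i ≤ 0) (t : ℤ) :
    (pL * f).coeff (G i t) = 0 := by
  rw [coeff_p_mul]; exact mem_P0.1 hf _ _ (by omega)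

section mem
lemma p_RR : pL ∈ RR o := Algebra.subset_adjoin (by simp)
lemma u_RR : uL o ∈ RR o := Algebra.subset_adjoin (by simp)
lemma z_RR : zL ∈ RR o := Algebra.subset_adjoin (by simp)
lemma x_RR : xL o ∈ RR o := Algebra.subset_adjoin (by simp)
lemma y_RR : yL o ∈ RR o := Algebra.subset_adjoin (by simp)
lemma u_WW : uL o ∈ WW o := Algebra.subset_adjoin (by simp)
lemma z_WW : zL ∈ WW o := Algebra.subset_adjoin (by simp)
lemma x_WW : xL o ∈ WW o := Algebra.subset_adjoin (by simp)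
lemma yb_WW : yb o ∈ WW o := Algebra.subset_adjoin (by simp)
lemma h_WW : hL o ∈ WW o := hf_mem o _ (u_WW o)
lemma n1_WW : n1 o ∈ WW o :=
  add_mem (mul_mem (pow_mem (x_WW o) 2) (h_WW o)) (pow_mem (z_WW o) 2)
lemma n3_WW : n3 o ∈ WW o :=
  add_mem (mul_mem (pow_mem (add_mem (z_WW o) (one_mem _)) 2) (h_WW o)) (pow_mem (yb_WW o) 2)
lemma p_BB : pL ∈ BB o := Algebra.subset_adjoin (by simp)
lemma s_BB : sA o ∈ BB o := Algebra.subset_adjoin (by simp)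
lemma u_BB : uL o ∈ BB o := Algebra.subset_adjoin (by simp)
lemma F_BB : FL o ∈ BB o := Algebra.subset_adjoin (by simp)
lemma J_BB : JL o ∈ BB o := Algebra.subset_adjoin (by simp)
lemma h_BB : hL o ∈ BB o := hf_mem o _ (u_BB o)
lemma x_BB : xL o ∈ BB o := by
  rw [show xL o = sA o ^ 2 + hL o + pL ^ ll o * FL o by rw [pl_F]; ring]
  exact add_mem (add_mem (pow_mem (s_BB o) 2) (h_BB o)) (mul_mem (pow_mem (p_BB o) _) (F_BB o))
lemma z_BB : zL ∈ BB o := by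
  rw [show zL = xL o * sA o + pL ^ ll o * JL o by rw [pl_J]; ring]
  exact add_mem (mul_mem (x_BB o) (s_BB o)) (mul_mem (pow_mem (p_BB o) _) (J_BB o))
lemma y_BB : yL o ∈ BB o := by
  rw [y_eq]
  exact sub_mem (add_mem (s_BB o) (pow_mem (x_BB o) 2)) (mul_mem (x_BB o) (h_BB o))
lemma N1_BB : N1 o ∈ BB o := by
  rw [show N1 o = -JL o - pL ^ kd o * uL o by rw [J_eq]; ring]
  exact sub_mem (neg_mem (J_BB o)) (mul_mem (pow_mem (p_BB o) _) (u_BB o))
lemma N3_BB : N3 o ∈ BB o := by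
  rw [N3_eq]
  have hz := add_mem (z_BB o) (one_mem (BB o))
  exact sub_mem (mul_mem (sub_mem (mul_mem (x_BB o) (F_BB o)) (mul_mem (s_BB o) (J_BB o)))
    (add_mem (y_BB o) (mul_mem (s_BB o) hz))) (mul_mem (pow_mem hz 2) (F_BB o))
lemma x_O0 : xL o ∈ O0 o := Algebra.subset_adjoin (by simp)
lemma xI_O0 : xI o ∈ O0 o := Algebra.subset_adjoin (by simp)
lemma z_O0 : zL ∈ O0 o := Algebra.subset_adjoin (by simp)
lemma u_O0 : uL o ∈ O0 o := Algebra.subset_adjoin (by simp)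
lemma G1_O0 : n1 o - xL o ^ 3 ∈ O0 o :=
  sub_mem (add_mem (mul_mem (pow_mem (x_O0 o) 2) (hf_mem o _ (u_O0 o))) (pow_mem (z_O0 o) 2))
    (pow_mem (x_O0 o) 3)
end mem

lemma BB_le_OO {f : Lam} (h : f ∈ BB o) : f ∈ OO o := by
  have hx : xL o ∈ OO o := Algebra.subset_adjoin (by simp)
  have hxI : xI o ∈ OO o := Algebra.subset_adjoin (by simp)
  have hz : zL ∈ OO o := Algebra.subset_adjoin (by simp)
  have hu : uL o ∈ OO o := Algebra.subset_adjoin (by simp)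
  have hp : pL ∈ OO o := Algebra.subset_adjoin (by simp)
  have hN : N1 o ∈ OO o := Algebra.subset_adjoin (by simp)
  have hJ : JL o ∈ OO o := by
    rw [J_eq]; exact sub_mem (neg_mem hN) (mul_mem (pow_mem hp _) hu)
  refine Algebra.adjoin_le ?_ h
  rintro t (rfl | rfl | rfl | rfl | rfl)
  · exact hp
  · exact add_mem (sub_mem (add_mem (mul_mem (mul_mem hz (add_mem hz (one_mem _))) hxI)
      (mul_mem (mul_mem (pow_mem hp _) hu) hxI)) (pow_mem hx 2)) (mul_mem hx (hf_mem o _ hu))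
  · exact hu
  · rw [F_eq]
    exact mul_mem (pow_mem hxI 2) (sub_mem (add_mem (neg_mem hN)
      (mul_mem (mul_mem (ofNat_mem _ 2) hz) hJ)) (mul_mem (pow_mem hp _) (pow_mem hJ 2)))
  · exact hJ

lemma BB_clear {f : Lam} (h : f ∈ BB o) : ∃ n : ℕ, pL ^ n * f ∈ RR o := by
  have hs : sA o ∈ RR o :=
    add_mem (sub_mem (y_RR o) (pow_mem (x_RR o) 2)) (mul_mem (x_RR o) (hf_mem o _ (u_RR o)))
  refine exists_pow_mul_mem (RR o) pL (p_RR o) _ ?_ h
  rintro t (rfl | rfl | rfl | rfl | rfl)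
  · exact ⟨0, by simpa using p_RR o⟩
  · exact ⟨0, by simpa using hs⟩
  · exact ⟨0, by simpa using u_RR o⟩
  · exact ⟨ll o, by
      rw [pl_F]; exact sub_mem (sub_mem (x_RR o) (pow_mem hs 2)) (hf_mem o _ (u_RR o))⟩
  · exact ⟨ll o, by rw [pl_J]; exact sub_mem (z_RR o) (mul_mem (x_RR o) hs)⟩

open Polynomial in
lemma RR_split {f : Lam} (h : f ∈ RR o) :
    ∃ Q, ∃ f' ∈ RR o, f = ev4 (uL o) zL (xL o) (yL o) Q + pL * f' := by
  induction h using Algebra.adjoin_induction with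
  | mem t ht =>
    rcases ht with rfl | rfl | rfl | rfl | rfl
    · exact ⟨0, 1, one_mem _, by simp⟩
    · exact ⟨C (C (C X)), 0, zero_mem _, by simp⟩
    · exact ⟨C (C X), 0, zero_mem _, by simp⟩
    · exact ⟨C X, 0, zero_mem _, by simp⟩
    · exact ⟨X, 0, zero_mem _, by simp⟩
  | algebraMap r => exact ⟨algebraMap ℂ _ r, 0, zero_mem _, by rw [AlgHom.commutes]; simp⟩
  | add a b _ _ ha hb =>
    obtain ⟨Q, f, hf, rfl⟩ := ha
    obtain ⟨Q', f', hf', rfl⟩ := hb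
    exact ⟨Q + Q', f + f', add_mem hf hf', by rw [map_add]; ring⟩
  | mul a b _ hb' ha hb =>
    obtain ⟨Q, f, hf, rfl⟩ := ha
    obtain ⟨Q', f', hf', e⟩ := hb
    refine ⟨Q * Q', f * b + ev4 (uL o) zL (xL o) (yL o) Q * f', add_mem (mul_mem hf hb')
      (mul_mem (ev4_mem _ (u_RR o) (z_RR o) (x_RR o) (y_RR o) Q) hf'), ?_⟩
    rw [map_mul]
    linear_combination ev4 (uL o) zL (xL o) (yL o) Q * e

open Polynomial in
lemma ev4_split (Q : ℂ[X][X][X][X]) :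
    ∃ δ ∈ P0, ev4 (uL o) zL (xL o) (yL o) Q = ev4 (uL o) zL (xL o) (yb o) Q + pL * δ := by
  induction Q using Polynomial.induction_on with
  | C a => exact ⟨0, zero_mem _, by simp⟩
  | add a b ha hb =>
    obtain ⟨δ, hδ, e⟩ := ha
    obtain ⟨δ', hδ', e'⟩ := hb
    exact ⟨δ + δ', add_mem hδ hδ', by rw [map_add, map_add, e, e']; ring⟩
  | monomial n a h =>
    obtain ⟨δ, hδ, e⟩ := h
    obtain ⟨δ', hδ', e'⟩ := y_split o
    refine ⟨δ * yL o + ev4 (uL o) zL (xL o) (yb o) (C a * X ^ n) * δ', add_mem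
      (mul_mem hδ (y_P0 o)) (mul_mem (Q0_le_P0 (WW_Q0 o
        (ev4_mem _ (u_WW o) (z_WW o) (x_WW o) (yb_WW o) _))) hδ'), ?_⟩
    rw [pow_succ, ← mul_assoc, map_mul, map_mul (ev4 (uL o) zL (xL o) (yb o)) _ X, ev4_X, ev4_X,
      e]
    linear_combination ev4 (uL o) zL (xL o) (yb o) (C a * X ^ n) * e'

lemma WW_homog : ∀ s ∈ ({uL o, zL, xL o, yb o} : Set Lam), ∃ g r, s = single g r := by
  rintro t (rfl | rfl | rfl | rfl)
  exacts [⟨_, _, rfl⟩, ⟨_, _, rfl⟩, ⟨_, _, rfl⟩, ⟨_, _, yb_eq o⟩]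

lemma O0_homog : ∀ s ∈ ({xL o, xI o, zL, uL o} : Set Lam), ∃ g r, s = single g r := by
  rintro t (rfl | rfl | rfl | rfl)
  exacts [⟨_, _, rfl⟩, ⟨_, _, rfl⟩, ⟨_, _, rfl⟩, ⟨_, _, rfl⟩]

open Polynomial in
lemma lead_RR (N : ℕ) : ∀ f ∈ RR o, ∀ i t : ℤ, i ≤ N → Ge (G i t) f →
    ∃ w ∈ WW o, comp (G i t) f = single (G i 0) 1 * w := by
  induction N with
  | zero =>
    intro f hf i t hi hge
    rcases lt_or_eq_of_le hi with hi | rfl
    · exact ⟨0, zero_mem _, by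
        rw [mul_zero, comp_eq_zero]; exact mem_P0.1 (RR_P0 o hf) _ _ (by simpa using hi)⟩
    · obtain ⟨Q, f', hf', e⟩ := RR_split o hf
      obtain ⟨δ, hδ, e'⟩ := ev4_split o Q
      refine ⟨comp (G 0 t) (ev4 (uL o) zL (xL o) (yb o) Q), comp_mem_adjoin _ (WW_homog o)
        (ev4_mem _ (u_WW o) (z_WW o) (x_WW o) (yb_WW o) _) _, ?_⟩
      rw [Nat.cast_zero, ← one_eq, one_mul, e, e', comp_add, comp_add,
        comp_eq_zero.2 (coeff_p_mul_P0 hδ le_rfl t),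
        comp_eq_zero.2 (coeff_p_mul_P0 (RR_P0 o hf') le_rfl t), add_zero, add_zero]
  | succ N ih =>
    intro f hf i t hi hge
    rcases lt_or_eq_of_le hi with hi | rfl
    · exact ih f hf i t (by push_cast at hi; omega) hge
    · obtain ⟨Q, f', hf', e⟩ := RR_split o hf
      obtain ⟨δ, hδ, e'⟩ := ev4_split o Q
      have h0 : ev4 (uL o) zL (xL o) (yb o) Q = 0 := by
        apply AddMonoidAlgebra.ext
        ext1 g
        obtain ⟨i, t', rfl⟩ := exists_G g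
        by_cases hi0 : i = 0
        · subst hi0
          have h1 := hge (G 0 t') (G_lt.2 (Or.inl (by positivity)))
          rw [e, e', AddMonoidAlgebra.coeff_add, AddMonoidAlgebra.coeff_add, Finsupp.add_apply, Finsupp.add_apply,
            coeff_p_mul_P0 hδ le_rfl, coeff_p_mul_P0 (RR_P0 o hf') le_rfl, add_zero,
            add_zero] at h1
          exact h1
        · exact mem_Q0.1 (WW_Q0 o (ev4_mem _ (u_WW o) (z_WW o) (x_WW o) (yb_WW o) _)) _ _ hi0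
      obtain ⟨Q', hQ'⟩ := nf_lemma o Q h0
      set f₁ := pL ^ km o * uL o * ev4 (uL o) zL (xL o) (yL o) Q' + f' with hf₁
      have hf₁R : f₁ ∈ RR o := add_mem (mul_mem (mul_mem (pow_mem (p_RR o) _) (u_RR o))
        (ev4_mem _ (u_RR o) (z_RR o) (x_RR o) (y_RR o) _)) hf'
      have ef : f = single (G 1 0) 1 * f₁ := by
        change f = pL * f₁
        have hxy := x_y o
        rw [kk_eq'] at hxy
        rw [e, hQ', hf₁]
        simp only [map_mul, map_sub, ev4_C, ev4_X, ev3_X, ev3_C, map_add, ev2_X, map_one]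
        linear_combination ev4 (uL o) zL (xL o) (yL o) Q' * hxy
      have eg : G ((N + 1 : ℕ) : ℤ) t = G 1 0 + G N t := by
        rw [G_add]; push_cast; congr 1 <;> ring
      rw [eg, ef, Ge_T_mul] at hge
      obtain ⟨w, hw, ew⟩ := ih f₁ hf₁R N t le_rfl hge
      refine ⟨w, hw, ?_⟩
      rw [eg, ef, comp_T_mul, ew, ← mul_assoc, sG_mul]
      push_cast; congr 3 <;> ring

/-- The lowest term of an element of `BB` is a power of `p` times an element of `WW`. -/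
lemma lead_W {f : Lam} (hf : f ∈ BB o) {i t : ℤ} (hge : Ge (G i t) f) :
    ∃ w ∈ WW o, comp (G i t) f = single (G i 0) 1 * w := by
  obtain ⟨n, hn⟩ := BB_clear o hf
  rw [pL_pow] at hn
  obtain ⟨w, hw, e⟩ := lead_RR o (n + i).toNat _ hn (n + i) (0 + t) (Int.self_le_toNat _)
    (by rw [← G_add]; exact Ge_T_mul.2 hge)
  refine ⟨w, hw, ?_⟩
  rw [← G_add, comp_T_mul] at e
  apply mul_left_cancel₀ (pow_ne_zero n pL_ne)
  rw [pL_pow, e, ← mul_assoc, sG_mul]; simp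

lemma G1_lead : Ge (G 0 0) (n1 o - xL o ^ 3) ∧ comp (G 0 0) (n1 o - xL o ^ 3) = n1 o := by
  have h : G 0 0 < G ((3 : ℕ) * 0) ((3 : ℕ) * aa o) :=
    G_lt.2 (Or.inr ⟨by simp, by have := aa_pos o; omega⟩)
  rw [n1_eq, xL, sG_pow]
  refine ⟨(Ge_single _ _).sub ((Ge_single _ _).mono h.le), ?_⟩
  rw [comp_sub, comp_single, if_pos rfl, (Ge_single _ _).comp_eq_zero h, sub_zero]

lemma slice_OO {f : Lam} (hf : f ∈ OO o) (i : ℤ) (k : ℕ)
    (hk : ∀ j : ℕ, 0 ≤ ll o * j + i → k ≤ j) :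
    ∃ η ∈ O0 o, ∀ t, f.coeff (G i t) = ((n1 o - xL o ^ 3) ^ k * η).coeff (G 0 t) := by
  refine adjoin_mono_induction _
    (fun a => ∃ (m j : ℕ), ∃ η ∈ O0 o, a = pL ^ m * N1 o ^ j * η)
    (fun a => ∃ η ∈ O0 o, ∀ t, a.coeff (G i t) = ((n1 o - xL o ^ 3) ^ k * η).coeff (G 0 t))
    ⟨0, 0, 1, one_mem _, by simp⟩ ?_ ?_ ?_ ?_ ?_ ?_ hf
  · rintro s (rfl | rfl | rfl | rfl | rfl | rfl)
    · exact ⟨0, 0, _, x_O0 o, by simp⟩
    · exact ⟨0, 0, _, xI_O0 o, by simp⟩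
    · exact ⟨0, 0, _, z_O0 o, by simp⟩
    · exact ⟨0, 0, _, u_O0 o, by simp⟩
    · exact ⟨1, 0, 1, one_mem _, by simp⟩
    · exact ⟨0, 1, 1, one_mem _, by simp⟩
  · rintro a b ⟨m, j, η, hη, rfl⟩ ⟨m', j', η', hη', rfl⟩
    exact ⟨m + m', j + j', η * η', mul_mem hη hη', by ring⟩
  · rintro a ⟨m, j, η, hη, rfl⟩
    have e : pL ^ m * N1 o ^ j * η =
        single (G (m - ll o * j) 0) 1 * ((n1 o - xL o ^ 3) ^ j * η) := by
      rw [N1, mul_pow, ← pow_mul, pL_pow, pI_pow, ← mul_assoc, ← mul_assoc, sG_mul]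
      push_cast; simp [sub_eq_add_neg]
    have hQ : (n1 o - xL o ^ 3) ^ j * η ∈ Q0 := O0_Q0 o (mul_mem (pow_mem (G1_O0 o) j) hη)
    by_cases him : (m : ℤ) - ll o * j = i
    · obtain ⟨d, rfl⟩ := Nat.exists_eq_add_of_le (hk j (by omega))
      refine ⟨(n1 o - xL o ^ 3) ^ d * η, mul_mem (pow_mem (G1_O0 o) d) hη, fun t => ?_⟩
      rw [e, him, show G i t = G i 0 + G 0 t by simp [G_add], coeff_T_mul, pow_add, mul_assoc]
    · refine ⟨0, zero_mem _, fun t => ?_⟩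
      rw [e, show G i t = G (m - ll o * j) 0 + G (i - (m - ll o * j)) t by simp [G_add],
        coeff_T_mul, mem_Q0.1 hQ _ _ (by omega)]
      simp
  · exact ⟨0, zero_mem _, by simp⟩
  · rintro a b ⟨η, hη, e⟩ ⟨η', hη', e'⟩
    exact ⟨η + η', add_mem hη hη', fun t => by simp [mul_add, e, e']⟩
  · rintro r a ⟨η, hη, e⟩
    exact ⟨r • η, Subalgebra.smul_mem _ hη r, fun t => by simp [e]⟩

/-- The lowest term of an element of `OO` is divisible by a power of `n1`. -/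
lemma lead_P {f : Lam} (hfO : f ∈ OO o) {i t : ℤ} (hge : Ge (G i t) f) (k : ℕ)
    (hk : ∀ j : ℕ, 0 ≤ ll o * j + i → k ≤ j) :
    ∃ η ∈ O0 o, comp (G i t) f = single (G i 0) 1 * (n1 o ^ k * η) := by
  obtain ⟨η, hη, e⟩ := slice_OO o hfO i k hk
  obtain ⟨h1, h2⟩ := G1_lead o
  obtain ⟨h3, h4⟩ := h1.pow k
  rw [nsmul_G, mul_zero] at h3 h4
  have h5 : (n1 o - xL o ^ 3).coeff (G 0 0) = hf o (MvPolynomial.X 0) + MvPolynomial.X 1 ^ 2 := by
    exact single_right_injective (h2.trans (n1_eq o))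
  have hηge : Ge (G 0 t) η := by
    by_cases hη0 : η = 0
    · rw [hη0]; exact Ge_zero _
    obtain ⟨g, hg, hg0⟩ := exists_ord hη0
    refine hg.mono (not_lt.1 fun hlt => ?_)
    obtain ⟨i', t', rfl⟩ := exists_G g
    have hi' : i' = 0 := by
      by_contra h; exact hg0 (mem_Q0.1 (O0_Q0 o hη) _ _ h)
    subst hi'
    have h6 := h3.coeff_mul hg
    rw [G_add, zero_add, zero_add, ← e, hge _ (G_lt.2 (Or.inr ⟨rfl, by simpa [G_lt] using hlt⟩)),
      h4, h5] at h6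
    exact mul_ne_zero (pow_ne_zero k (n1c_ne o)) hg0 h6.symm
  refine ⟨comp (G 0 t) η, comp_mem_adjoin _ (O0_homog o) hη _, ?_⟩
  have h6 := h3.coeff_mul hηge
  rw [G_add, zero_add, zero_add, ← e, h4, h5] at h6
  rw [comp, h6, comp, n1_eq, sG_pow, sG_mul, sG_mul]; simp

lemma O0_clear {η : Lam} (h : η ∈ O0 o) :
    ∃ n : ℕ, xL o ^ n * η ∈ Algebra.adjoin ℂ {uL o, zL, xL o} := by
  refine exists_pow_mul_mem _ (xL o) (Algebra.subset_adjoin (by simp)) _ ?_ h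
  rintro t (rfl | rfl | rfl | rfl)
  · exact ⟨0, by simpa using Algebra.subset_adjoin (by simp)⟩
  · exact ⟨1, by rw [pow_one, x_xI]; exact one_mem _⟩
  · exact ⟨0, by simpa using Algebra.subset_adjoin (by simp)⟩
  · exact ⟨0, by simpa using Algebra.subset_adjoin (by simp)⟩

lemma ZZ_le_WW {f : Lam} (h : f ∈ Algebra.adjoin ℂ {uL o, zL, xL o}) : f ∈ WW o := by
  refine Algebra.adjoin_le ?_ h
  rintro t (rfl | rfl | rfl)
  exacts [u_WW o, z_WW o, x_WW o]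

lemma WW_le_VV {f : Lam} (h : f ∈ WW o) : f ∈ Algebra.adjoin ℂ {uL o, sL o, xL o} := by
  have hu : uL o ∈ Algebra.adjoin ℂ {uL o, sL o, xL o} := Algebra.subset_adjoin (by simp)
  have hs : sL o ∈ Algebra.adjoin ℂ {uL o, sL o, xL o} := Algebra.subset_adjoin (by simp)
  have hx : xL o ∈ Algebra.adjoin ℂ {uL o, sL o, xL o} := Algebra.subset_adjoin (by simp)
  have hz : zL ∈ Algebra.adjoin ℂ {uL o, sL o, xL o} := by rw [← x_s o]; exact mul_mem hx hs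
  refine Algebra.adjoin_le ?_ h
  rintro t (rfl | rfl | rfl | rfl)
  · exact hu
  · exact hz
  · exact hx
  · rw [← z_s]; exact mul_mem (add_mem hz (one_mem _)) hs

lemma VV_clear {f : Lam} (h : f ∈ Algebra.adjoin ℂ {uL o, sL o, xL o}) :
    ∃ n : ℕ, (zL + 1) ^ n * f ∈ WW o := by
  refine exists_pow_mul_mem _ _ (add_mem (z_WW o) (one_mem _)) _ ?_ h
  rintro t (rfl | rfl | rfl)
  · exact ⟨0, by simpa using u_WW o⟩
  · exact ⟨1, by rw [pow_one, z_s]; exact yb_WW o⟩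
  · exact ⟨0, by simpa using x_WW o⟩

open Polynomial in
lemma div_V {w η : Lam} (hw : w ∈ WW o) (hη : η ∈ O0 o) (k : ℕ) (e : w = n1 o ^ k * η) :
    ∃ P₁, w = ev3 (uL o) (sL o) (xL o) (C ((X ^ 2 + C (hf o X)) ^ k) * P₁) := by
  obtain ⟨j, hj⟩ := O0_clear o hη
  obtain ⟨P, hP⟩ := exists_ev3 (WW_le_VV o hw)
  obtain ⟨Q, hQ⟩ := exists_ev3 (WW_le_VV o (ZZ_le_WW o hj))
  have h1 : X ^ j * P = C ((X ^ 2 + C (hf o X)) ^ k) * (X ^ (2 * k) * Q) := by
    apply evV_inj o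
    simp only [map_mul, map_pow, ev3_X, ev3_C, map_add, ev2_X, ev2_C, hP, hQ, map_hf, aeval_X]
    rw [e, show n1 o = xL o ^ 2 * (sL o ^ 2 + hf o (uL o)) by rw [n1, ← x_s o, hL]; ring, mul_pow]
    ring
  have h2 : C ((X ^ 2 + C (hf o X)) ^ k) ∣ P := by
    rw [C_dvd_iff_dvd_coeff]
    intro n
    rw [← coeff_X_pow_mul P j n, h1, coeff_C_mul]
    exact Dvd.intro _ rfl
  obtain ⟨P₁, rfl⟩ := h2
  exact ⟨P₁, hP.symm⟩

open Polynomial in
lemma div_V3 {w η : Lam} (hw : w ∈ WW o) (hη : η ∈ O0 o) (k : ℕ) (e : w = n1 o ^ k * η) :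
    ∃ M : ℕ, ∃ η₃ ∈ WW o, (zL + 1) ^ M * w = n3 o ^ k * η₃ := by
  obtain ⟨P₁, hP⟩ := div_V o hw hη k e
  obtain ⟨n, hn⟩ := VV_clear o (ev3_mem _ (u := uL o) (s := sL o) (x := xL o)
    (Algebra.subset_adjoin (by simp)) (Algebra.subset_adjoin (by simp))
    (Algebra.subset_adjoin (by simp)) P₁)
  refine ⟨2 * k + n, _, hn, ?_⟩
  rw [hP]
  simp only [map_mul, map_pow, ev3_X, ev3_C, map_add, ev2_X, ev2_C, map_hf, aeval_X]
  rw [show n3 o = (zL + 1) ^ 2 * (sL o ^ 2 + hf o (uL o)) by rw [n3, ← z_s o, hL]; ring, mul_pow,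
    ← pow_mul]
  ring

lemma div_V1 {w η : Lam} (hη : η ∈ O0 o) (k : ℕ) (e : w = n1 o ^ k * η) :
    ∃ j : ℕ, ∃ η₁ ∈ WW o, xL o ^ j * w = n1 o ^ k * η₁ := by
  obtain ⟨j, hj⟩ := O0_clear o hη
  exact ⟨j, _, ZZ_le_WW o hj, by rw [e]; ring⟩

lemma div_ideal {w η : Lam} (hw : w ∈ WW o) (hη : η ∈ O0 o) (k : ℕ) (e : w = n1 o ^ k * η) :
    ∃ a ∈ WW o, ∃ b ∈ WW o, w = n1 o ^ k * a + n3 o ^ k * b := by
  obtain ⟨j, η₁, hη₁, e₁⟩ := div_V1 o hη k e
  obtain ⟨M, η₃, hη₃, e₃⟩ := div_V3 o hw hη k e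
  let a : WW o := ⟨n1 o, n1_WW o⟩
  let b : WW o := ⟨n3 o, n3_WW o⟩
  let x : WW o := ⟨xL o, x_WW o⟩
  let z : WW o := ⟨zL, z_WW o⟩
  let h : WW o := ⟨hL o, h_WW o⟩
  let w' : WW o := ⟨w, hw⟩
  let I : Ideal (WW o) := Ideal.span {a ^ k, b ^ k}
  let K : Ideal (WW o) := I.colon {w'}
  have ha : a ^ k ∈ I := Ideal.subset_span (by simp)
  have hb : b ^ k ∈ I := Ideal.subset_span (by simp)
  have k1 : a ∈ K.radical := ⟨k, by
    rw [Submodule.mem_colon_singleton]; exact I.mul_mem_right _ ha⟩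
  have k2 : x ∈ K.radical := ⟨j, by
    rw [Submodule.mem_colon_singleton,
      show x ^ j • w' = a ^ k * ⟨η₁, hη₁⟩ from Subtype.ext e₁]
    exact I.mul_mem_right _ ha⟩
  have k3 : z + 1 ∈ K.radical := ⟨M, by
    rw [Submodule.mem_colon_singleton,
      show (z + 1) ^ M • w' = b ^ k * ⟨η₃, hη₃⟩ from Subtype.ext e₃]
    exact I.mul_mem_right _ hb⟩
  have k4 : z ∈ K.radical := by
    apply Ideal.mem_radical_of_pow_mem (m := 2)
    rw [show z ^ 2 = a - x * (x * h) from Subtype.ext (by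
      change zL ^ 2 = n1 o - xL o * (xL o * hL o); rw [n1]; ring)]
    exact sub_mem k1 (Ideal.mul_mem_right _ _ k2)
  have k5 : (1 : WW o) ∈ K.radical := by simpa using sub_mem k3 k4
  obtain ⟨n, hn⟩ := k5
  rw [one_pow, Submodule.mem_colon_singleton, one_smul, Ideal.mem_span_pair] at hn
  obtain ⟨c, d, hcd⟩ := hn
  refine ⟨c, c.2, d, d.2, ?_⟩
  have := congrArg Subtype.val hcd
  change (c : Lam) * n1 o ^ k + d * n3 o ^ k = w at this
  rw [← this]; ring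

end Crest.Agent.R268
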