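import Crest.Agent.R268.Comm

/-!
The exponential map of a locally nilpotent derivation, and two "generic orbit" arguments.
-/

set_option autoImplicit false

namespace Crest.Agent.R268

open Polynomial

section Exp
variable {A : Type*} [CommRing A] [Algebra ℂ A] (D : Derivation ℂ A A)

lemma iter_up (a : A) (n k : ℕ) (h : D^[n] a = 0) (hk : n ≤ k) : D^[k] a = 0 := by
  obtain ⟨j, rfl⟩ := Nat.exists_eq_add_of_le' hk
  rw [Function.iterate_add_apply, h]
  exact Function.iterate_fixed (map_zero D) j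

lemma iter_add (n : ℕ) (a b : A) : D^[n] (a + b) = D^[n] a + D^[n] b := by
  induction n generalizing a b with
  | zero => simp
  | succ n ih => simp [Function.iterate_succ_apply, ih]

variable (hD : ∀ a, ∃ n : ℕ, D^[n] a = 0)

noncomputable def expF (a : A) : A[X] :=
  ∑ n ∈ Finset.range (hD a).choose, monomial n (((n.factorial : ℂ)⁻¹) • D^[n] a)

lemma coeff_expF (a : A) (n : ℕ) : (expF D hD a).coeff n = ((n.factorial : ℂ)⁻¹) • D^[n] a := by
  rw [expF, finsetSum_coeff]
  simp only [coeff_monomial]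
  rw [Finset.sum_ite_eq']
  split_ifs with h
  · rfl
  · rw [iter_up D a _ n (hD a).choose_spec (by simpa using h), smul_zero]

lemma expF_add (a b : A) : expF D hD (a + b) = expF D hD a + expF D hD b := by
  ext n; simp [coeff_expF]

lemma expF_zero : expF D hD 0 = 0 := by
  ext n; simp [coeff_expF, Function.iterate_fixed (map_zero D) n]

lemma derivative_expF (a : A) : derivative (expF D hD a) = expF D hD (D a) := by
  ext n
  rw [coeff_derivative, coeff_expF, coeff_expF, Function.iterate_succ_apply, Nat.factorial_succ]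
  have h1 : ((n : A) + 1) = algebraMap ℂ A ((n : ℂ) + 1) := by simp
  have h2 : ((n : ℂ) + 1) ≠ 0 := Nat.cast_add_one_ne_zero n
  have h3 : (n.factorial : ℂ) ≠ 0 := by exact_mod_cast n.factorial_ne_zero
  rw [h1, mul_comm, ← Algebra.smul_def, smul_smul]
  congr 1
  push_cast
  field_simp

lemma coeff_zero_expF (a : A) : (expF D hD a).coeff 0 = a := by simp [coeff_expF]

lemma expF_mul [IsDomain A] (a b : A) : expF D hD (a * b) = expF D hD a * expF D hD b := by
  have : CharZero A := charZero_of_injective_ringHom (algebraMap ℂ A).injective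
  have key : ∀ (N m n : ℕ) (a b : A), m + n = N → D^[m] a = 0 → D^[n] b = 0 →
      expF D hD (a * b) = expF D hD a * expF D hD b := by
    intro N
    induction N with
    | zero =>
      intro m n a b h ha hb
      obtain rfl : m = 0 := by omega
      simp only [Function.iterate_zero, id_eq] at ha
      simp [ha, expF_zero]
    | succ N ih =>
      intro m n a b h ha hb
      rcases m with _ | m
      · simp only [Function.iterate_zero, id_eq] at ha
        simp [ha, expF_zero]
      rcases n with _ | n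
      · simp only [Function.iterate_zero, id_eq] at hb
        simp [hb, expF_zero]
      have h1 : derivative (expF D hD (a * b) - expF D hD a * expF D hD b) = 0 := by
        rw [derivative_sub, derivative_mul, derivative_expF, derivative_expF, derivative_expF,
          Derivation.leibniz, expF_add, smul_eq_mul, smul_eq_mul,
          ih (m + 1) n a (D b) (by omega) ha hb, ih (n + 1) m b (D a) (by omega) hb ha]
        ring
      rw [derivative_eq_zero] at h1
      have h2 := eq_C_of_natDegree_eq_zero h1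
      rw [coeff_sub, mul_coeff_zero, coeff_zero_expF, coeff_zero_expF, coeff_zero_expF, sub_self,
        map_zero] at h2
      exact sub_eq_zero.1 h2
  obtain ⟨m, hm⟩ := hD a
  obtain ⟨n, hn⟩ := hD b
  exact key _ m n a b rfl hm hn

lemma expF_one : expF D hD 1 = 1 := by
  ext n
  rw [coeff_expF, coeff_one]
  rcases n with _ | n
  · simp
  · simp [Function.iterate_succ_apply, Function.iterate_fixed (map_zero D) n]

/-- The exponential map as a ring homomorphism. -/
noncomputable def expHom [IsDomain A] : A →+* A[X] where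
  toFun := expF D hD
  map_one' := expF_one D hD
  map_mul' := expF_mul D hD
  map_zero' := expF_zero D hD
  map_add' := expF_add D hD

variable [IsDomain A]

/-- The exponential map with coefficients in the fraction field ("generic orbit"). -/
noncomputable def orb : A →+* (FractionRing A)[X] :=
  (mapRingHom (algebraMap A (FractionRing A))).comp (expHom D hD)

lemma coeff_orb (a : A) (n : ℕ) :
    (orb D hD a).coeff n = algebraMap A (FractionRing A) (((n.factorial : ℂ)⁻¹) • D^[n] a) := by
  simp only [orb, RingHom.comp_apply, coe_mapRingHom, coeff_map]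
  congr 1
  exact coeff_expF D hD a n

lemma coeff_orb_eq_zero (a : A) (n : ℕ) : (orb D hD a).coeff n = 0 ↔ D^[n] a = 0 := by
  rw [coeff_orb, map_eq_zero_iff _ (IsFractionRing.injective A (FractionRing A))]
  have h3 : ((n.factorial : ℂ))⁻¹ ≠ 0 := inv_ne_zero (by exact_mod_cast n.factorial_ne_zero)
  constructor
  · intro h
    have := congrArg (fun t => (n.factorial : ℂ) • t) h
    simp only [smul_smul, smul_zero] at this
    rwa [mul_inv_cancel₀ (by exact_mod_cast n.factorial_ne_zero), one_smul] at this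
  · intro h; rw [h, smul_zero]

lemma coeff_zero_orb (a : A) : (orb D hD a).coeff 0 = algebraMap A (FractionRing A) a := by
  simp [coeff_orb]

lemma coeff_one_orb (a : A) : (orb D hD a).coeff 1 = algebraMap A (FractionRing A) (D a) := by
  simp [coeff_orb]

lemma orb_ne_zero {a : A} (ha : a ≠ 0) : orb D hD a ≠ 0 := by
  intro h
  have := coeff_zero_orb D hD a
  rw [h, coeff_zero, eq_comm, map_eq_zero_iff _ (IsFractionRing.injective A (FractionRing A))]
    at this
  exact ha this

lemma natDegree_orb_le (a : A) (n : ℕ) : (orb D hD a).natDegree ≤ n ↔ D^[n + 1] a = 0 := by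
  rw [natDegree_le_iff_coeff_eq_zero]
  constructor
  · intro h; exact (coeff_orb_eq_zero D hD a _).1 (h _ (Nat.lt_succ_self n))
  · intro h N hN; exact (coeff_orb_eq_zero D hD a _).2 (iter_up D a _ _ h hN)

lemma natDegree_orb_eq_zero (a : A) : (orb D hD a).natDegree = 0 ↔ D a = 0 := by
  rw [← Nat.le_zero, natDegree_orb_le]; simp

lemma orb_eq_C {a : A} (h : D a = 0) : orb D hD a = C (algebraMap A (FractionRing A) a) := by
  rw [eq_C_of_natDegree_eq_zero ((natDegree_orb_eq_zero D hD a).2 h), coeff_zero_orb]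

include hD in
/-- The kernel is factorially closed. -/
lemma ker_of_dvd {a b : A} (hb : b ≠ 0) (h : D b = 0) (hab : a ∣ b) : D a = 0 := by
  obtain ⟨c, rfl⟩ := hab
  have h1 := (natDegree_orb_eq_zero D hD _).2 h
  rw [map_mul, natDegree_mul (orb_ne_zero D hD (left_ne_zero_of_mul hb))
    (orb_ne_zero D hD (right_ne_zero_of_mul hb))] at h1
  exact (natDegree_orb_eq_zero D hD a).1 (by omega)

include hD in
lemma exists_top {a : A} (ha : a ≠ 0) : ∃ n : ℕ, D^[n] a ≠ 0 ∧ D^[n + 1] a = 0 := by
  refine ⟨(orb D hD a).natDegree, ?_, (natDegree_orb_le D hD a _).1 le_rfl⟩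
  rw [Ne, ← coeff_orb_eq_zero D hD]
  exact leadingCoeff_ne_zero.2 (orb_ne_zero D hD ha)

include hD in
/-- First generic-orbit argument (a function whose zero divisor is fixed by an involution). -/
theorem caseA_abs (p u x y z N₁ N₃ : A) (e₁ e₂ : ℤ) (hp0 : p ≠ 0) (hu0 : u ≠ 0)
    (h1 : p ^ 2 * N₁ = x ^ 2 * u ^ 3 + z ^ 2) (h3 : p ^ 2 * N₃ = (z + 1) ^ 2 * u ^ 3 + y ^ 2)
    (hp : ∀ k : ℕ, ¬ (2 : ℤ) ∣ 1 + k * e₁ → p ∣ D^[k] p)
    (hp' : ¬ (3 : ℤ) ∣ e₂ → u ∣ D p)
    (hu : ∀ k : ℕ, ¬ (3 : ℤ) ∣ -2 + k * e₂ → u ∣ D^[k] u)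
    (hsq : ∀ a b : A, a ^ 2 + u ^ 3 * b ^ 2 = 0 → b = 0) : D p = 0 := by
  by_contra hDp
  obtain ⟨ν, hν0, hν1⟩ := exists_top D hD hp0
  have hνpos : ν ≠ 0 := by rintro rfl; exact hDp (by simpa using hν1)
  have hev : (2 : ℤ) ∣ 1 + ν * e₁ := by
    by_contra hodd
    exact hDp (ker_of_dvd D hD hν0 (by rwa [Function.iterate_succ_apply'] at hν1) (hp ν hodd))
  obtain ⟨μ, rfl⟩ := Nat.exists_eq_succ_of_ne_zero hνpos
  have hodd : ¬ (2 : ℤ) ∣ 1 + μ * e₁ := by
    intro h
    have he : (2 : ℤ) ∣ e₁ := by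
      have := dvd_sub hev h
      push_cast at this
      rwa [show 1 + ((μ : ℤ) + 1) * e₁ - (1 + μ * e₁) = e₁ by ring] at this
    have := dvd_sub h (Dvd.dvd.mul_left he μ)
    rw [add_sub_cancel_right] at this
    omega
  have hμ0 : D^[μ] p ≠ 0 := by
    intro h; exact hν0 (iter_up D p _ _ h (Nat.le_succ μ))
  have hD2 : D^[2] p = 0 := by
    obtain ⟨r, hr⟩ := hp μ hodd
    have h2 : (orb D hD (D^[μ] p)).natDegree ≤ 1 := by
      rw [natDegree_orb_le, ← Function.iterate_add_apply]
      rwa [show 1 + 1 + μ = μ.succ + 1 by omega]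
    rw [hr] at hμ0
    rw [hr, map_mul, natDegree_mul (orb_ne_zero D hD hp0)
      (orb_ne_zero D hD (right_ne_zero_of_mul hμ0))] at h2
    exact (natDegree_orb_le D hD p 1).1 (by omega)
  have hDDp : D (D p) = 0 := hD2
  have hDu : D u = 0 := by
    by_contra hDu
    have he : (3 : ℤ) ∣ e₂ := by
      by_contra h
      exact hDu (ker_of_dvd D hD hDp hDDp (hp' h))
    obtain ⟨κ, hκ0, hκ1⟩ := exists_top D hD hu0
    refine hDu (ker_of_dvd D hD hκ0 (by rwa [Function.iterate_succ_apply'] at hκ1) (hu κ ?_))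
    intro h
    have := dvd_sub h (Dvd.dvd.mul_left he κ)
    rw [add_sub_cancel_right] at this
    omega
  -- evaluate at the root of the orbit polynomial of `p`
  let L := FractionRing A
  let j : A →+* L := algebraMap A L
  have hj : Function.Injective j := IsFractionRing.injective A L
  have hlam : j (D p) ≠ 0 := by rwa [Ne, map_eq_zero_iff _ hj]
  let ev : A →+* L := (evalRingHom (-(j p) / j (D p))).comp (orb D hD)
  have evp : ev p = 0 := by
    have hdeg : (orb D hD p).natDegree ≤ 1 := (natDegree_orb_le D hD p 1).2 hD2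
    have := eq_X_add_C_of_natDegree_le_one hdeg
    simp only [ev, RingHom.comp_apply, coe_evalRingHom]
    rw [this, coeff_zero_orb, coeff_one_orb]
    simp only [eval_add, eval_mul, eval_C, eval_X]
    change j (D p) * (-(j p) / j (D p)) + j p = 0
    rw [mul_div_cancel₀ _ hlam, neg_add_cancel]
  have evu : ev u = j u := by
    simp only [ev, RingHom.comp_apply, coe_evalRingHom]
    rw [orb_eq_C D hD hDu, eval_C]
  have hsq' : ∀ a b : L, a ^ 2 + j u ^ 3 * b ^ 2 = 0 → b = 0 := by
    intro a b hab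
    by_contra hb
    obtain ⟨a₁, a₂, ha₂, ha⟩ := IsFractionRing.div_surjective A (a / b)
    have ha₂' : j a₂ ≠ 0 := by
      rw [Ne, map_eq_zero_iff _ hj]; exact nonZeroDivisors.ne_zero ha₂
    have : a₁ ^ 2 + u ^ 3 * a₂ ^ 2 = 0 := by
      apply hj
      rw [map_add, map_mul, map_pow, map_pow, map_pow, map_zero]
      have h5 : j a₁ = a / b * j a₂ := by
        rw [← ha]; change j a₁ = j a₁ / j a₂ * j a₂; rw [div_mul_cancel₀ _ ha₂']
      have h6 : a / b * b = a := div_mul_cancel₀ _ hb
      apply mul_left_cancel₀ (pow_ne_zero 2 hb)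
      rw [h5]
      linear_combination (j a₂ ^ 2) * hab + (j a₂ ^ 2 * (a / b * b + a)) * h6
    exact nonZeroDivisors.ne_zero ha₂ (hsq _ _ this)
  have e1 := congrArg ev h1
  have e3 := congrArg ev h3
  simp only [map_mul, map_add, map_pow, map_one, evp, evu] at e1 e3
  have x0 : ev x = 0 := hsq' (ev z) (ev x) (by linear_combination -e1)
  have z0 : ev z = 0 := by
    rw [x0] at e1
    exact pow_eq_zero_iff (two_ne_zero) |>.1 (by linear_combination -e1)
  have z1 : ev z + 1 = 0 := hsq' (ev y) (ev z + 1) (by linear_combination -e3)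
  rw [z0] at z1
  simp at z1

end Exp

section PolyLemmas
variable {L : Type*} [Field L] [CharZero L]

lemma const_of_cusp (a c u : L[X]) (ha : a ≠ 0) (hu : u ≠ 0)
    (h : IsUnit (a ^ 2 * u ^ 3 + c ^ 2)) :
    a.natDegree = 0 ∧ c.natDegree = 0 ∧ u.natDegree = 0 := by
  obtain ⟨r, hr, hr'⟩ := isUnit_iff.1 h
  have hc : c.natDegree = 0 := by
    by_contra hc
    have hc0 : c ≠ 0 := by rintro rfl; simp at hc
    have hd := congrArg derivative hr'
    simp only [derivative_C, derivative_add, derivative_mul, derivative_pow] at hd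
    have hcop : IsCoprime (a * u ^ 2) c := by
      have h1 : IsCoprime (a * u) c := by
        obtain ⟨w, hw⟩ := h.exists_left_inv
        exact ⟨w * a * u ^ 2, w * c, by linear_combination hw⟩
      exact IsCoprime.mul_left h1.of_mul_left_left (h1.of_mul_left_right.pow_left)
    have hdvd : a * u ^ 2 ∣ derivative c := by
      apply hcop.dvd_of_dvd_mul_left
      have h2 : (C (2 : L)) * C (2 : L)⁻¹ = 1 := by rw [← map_mul]; simp
      refine ⟨-(C (2 : L)⁻¹ * (C 2 * derivative a * u + C 3 * a * derivative u)), ?_⟩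
      simp only [Nat.cast_ofNat, Nat.add_one_sub_one, pow_one] at hd
      linear_combination (-C (2 : L)⁻¹) * hd - (c * derivative c) * h2
    have hdc : derivative c ≠ 0 := by rwa [Ne, derivative_eq_zero]
    have h3 := natDegree_le_of_dvd hdvd hdc
    rw [natDegree_mul ha (pow_ne_zero 2 hu), natDegree_pow, natDegree_derivative] at h3
    have h4 : (a ^ 2 * u ^ 3).natDegree = (c ^ 2).natDegree := by
      have : a ^ 2 * u ^ 3 = C r - c ^ 2 := by linear_combination -hr'
      rw [this, natDegree_sub_eq_right_of_natDegree_lt]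
      rw [natDegree_C, natDegree_pow]; omega
    rw [natDegree_mul (pow_ne_zero 2 ha) (pow_ne_zero 3 hu), natDegree_pow, natDegree_pow,
      natDegree_pow] at h4
    omega
  have h4 : (a ^ 2 * u ^ 3).natDegree = 0 := by
    have : a ^ 2 * u ^ 3 = C r - c ^ 2 := by linear_combination -hr'
    rw [this, eq_C_of_natDegree_eq_zero hc, ← map_pow, ← map_sub, natDegree_C]
  rw [natDegree_mul (pow_ne_zero 2 ha) (pow_ne_zero 3 hu), natDegree_pow, natDegree_pow] at h4
  omega

lemma const_of_node (a c u : L[X]) (ha : a ≠ 0) (hu : u ≠ 0)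
    (h : IsUnit (a ^ 2 * (-u ^ 2) + c ^ 2)) :
    a.natDegree = 0 ∧ c.natDegree = 0 ∧ u.natDegree = 0 := by
  have h1 : IsUnit ((c - a * u) * (c + a * u)) := by convert h using 1; ring
  obtain ⟨r, -, hr⟩ := isUnit_iff.1 (isUnit_of_mul_isUnit_left h1)
  obtain ⟨r', -, hr'⟩ := isUnit_iff.1 (isUnit_of_mul_isUnit_right h1)
  have h2 : (C (2 : L)) * C (2 : L)⁻¹ = 1 := by rw [← map_mul]; simp
  have h22 : (C (2 : L) : L[X]) = 2 := rfl
  have hc : c = C (2⁻¹ * (r + r')) := by
    rw [map_mul, map_add, hr, hr']; linear_combination (-c) * h2 + (c * C (2 : L)⁻¹) * h22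
  have hau : a * u = C (2⁻¹ * (r' - r)) := by
    rw [map_mul, map_sub, hr, hr']
    linear_combination (-(a * u)) * h2 + (a * u * C (2 : L)⁻¹) * h22
  have h4 : (a * u).natDegree = 0 := by rw [hau, natDegree_C]
  rw [natDegree_mul ha hu] at h4
  refine ⟨by omega, by rw [hc, natDegree_C], by omega⟩

end PolyLemmas

section CaseB
variable {A : Type*} [CommRing A] [IsDomain A] [Algebra ℂ A] (D : Derivation ℂ A A)
  (hD : ∀ a, ∃ n : ℕ, D^[n] a = 0)

include hD in
/-- Second generic-orbit argument (an invariant divisor on the cylinder over a quadric). -/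
theorem caseB_abs (x y z u h κ η₁ η₃ : A) (k₁ k₃ : ℕ) (hxy : x * y = z * (z + 1))
    (hx0 : x ≠ 0) (hu0 : u ≠ 0) (hκ0 : κ ≠ 0) (hκ : D κ = 0)
    (h1 : x ^ k₁ * κ = (x ^ 2 * h + z ^ 2) * η₁)
    (h3 : (z + 1) ^ k₃ * κ = ((z + 1) ^ 2 * h + y ^ 2) * η₃)
    (hh : h = u ^ 3 ∨ h = -u ^ 2) : D u = 0 ∧ x * D z = z * D x := by
  classical
  let L := FractionRing A
  have : CharZero A := charZero_of_injective_ringHom (algebraMap ℂ A).injective
  let j : A →+* L := algebraMap A L
  have hj : Function.Injective j := IsFractionRing.injective A L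
  have : CharZero L := charZero_of_injective_ringHom hj
  let Φ := orb D hD
  have hX0 : Φ x ≠ 0 := orb_ne_zero D hD hx0
  have hU0 : Φ u ≠ 0 := orb_ne_zero D hD hu0
  obtain ⟨b, d, hb, hd, hcop⟩ := extract_gcd (Φ x) (Φ z + 1)
  set a := gcd (Φ x) (Φ z + 1) with ha
  have hcop' : IsCoprime b d := (gcd_isUnit_iff b d).1 hcop
  have ha0 : a ≠ 0 := by intro h0; rw [h0, zero_mul] at hb; exact hX0 hb
  have hb0 : b ≠ 0 := by intro h0; rw [h0, mul_zero] at hb; exact hX0 hb
  have exy := congrArg Φ hxy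
  simp only [map_mul, map_add, map_one] at exy
  have hby : b * Φ y = Φ z * d := by
    apply mul_left_cancel₀ ha0
    rw [← mul_assoc, ← hb, exy, hd]; ring
  obtain ⟨c, hc⟩ : b ∣ Φ z := hcop'.dvd_of_dvd_mul_right ⟨Φ y, hby.symm⟩
  have hy : Φ y = c * d := by
    apply mul_left_cancel₀ hb0
    rw [hby, hc]; ring
  have hdet : a * d - b * c = 1 := by rw [← hd, ← hc]; ring
  have hκu : IsUnit (Φ κ) := by
    rw [show Φ κ = _ from orb_eq_C D hD hκ]
    exact isUnit_C.2 (IsUnit.mk0 _ (by rwa [Ne, map_eq_zero_iff _ hj]))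
  have e1 := congrArg Φ h1
  have e3 := congrArg Φ h3
  simp only [map_mul, map_add, map_pow, map_one] at e1 e3
  set N := a ^ 2 * Φ h + c ^ 2 with hN
  have hNa : IsCoprime N a := by
    have h5 : IsCoprime c a := ⟨-b, d, by linear_combination hdet⟩
    have h6 : IsCoprime (c ^ 2) a := h5.pow_left
    have := h6.add_mul_left_left (a * Φ h)
    rwa [show c ^ 2 + a * (a * Φ h) = N by rw [hN]; ring] at this
  have d1 : N ∣ b ^ k₁ := by
    have h7 : N ∣ a ^ k₁ * (b ^ k₁ * Φ κ) := by
      refine ⟨b ^ 2 * Φ η₁, ?_⟩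
      rw [← mul_assoc, ← mul_pow, ← hb, e1, hb, hc, hN]; ring
    exact (hκu.dvd_mul_right).1 (hNa.pow_right.dvd_of_dvd_mul_left h7)
  have d3 : N ∣ d ^ k₃ := by
    have h7 : N ∣ a ^ k₃ * (d ^ k₃ * Φ κ) := by
      refine ⟨d ^ 2 * Φ η₃, ?_⟩
      rw [← mul_assoc, ← mul_pow, ← hd, e3, hd, hy, hN]; ring
    exact (hκu.dvd_mul_right).1 (hNa.pow_right.dvd_of_dvd_mul_left h7)
  have hNu : IsUnit N := (hcop'.pow (m := k₁) (n := k₃)).isUnit_of_dvd' d1 d3
  have hconst : a.natDegree = 0 ∧ c.natDegree = 0 ∧ (Φ u).natDegree = 0 := by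
    rcases hh with rfl | rfl
    · rw [hN, map_pow] at hNu; exact const_of_cusp a c _ ha0 hU0 hNu
    · rw [hN, map_neg, map_pow] at hNu; exact const_of_node a c _ ha0 hU0 hNu
  refine ⟨(natDegree_orb_eq_zero D hD u).1 hconst.2.2, ?_⟩
  have ea := eq_C_of_natDegree_eq_zero hconst.1
  have ec := eq_C_of_natDegree_eq_zero hconst.2.1
  have x0 : j x = a.coeff 0 * b.coeff 0 := by
    rw [← coeff_zero_orb D hD, show orb D hD x = a * b from hb, mul_coeff_zero]
  have x1 : j (D x) = a.coeff 0 * b.coeff 1 := by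
    rw [← coeff_one_orb D hD, show orb D hD x = a * b from hb]
    conv_lhs => rw [ea, coeff_C_mul]
  have z0 : j z = b.coeff 0 * c.coeff 0 := by
    rw [← coeff_zero_orb D hD, show orb D hD z = b * c from hc, mul_coeff_zero]
  have z1 : j (D z) = b.coeff 1 * c.coeff 0 := by
    rw [← coeff_one_orb D hD, show orb D hD z = b * c from hc]
    conv_lhs => rw [ec, coeff_mul_C]
  apply hj
  rw [map_mul, map_mul, x0, x1, z0, z1]; ring

end CaseB

/-- Restriction of a derivation to its locally nilpotent part. -/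
noncomputable def nilDer {A : Type*} [CommRing A] [Algebra ℂ A] (D : Derivation ℂ A A) :
    Derivation ℂ (nilSub D) (nilSub D) :=
  Derivation.mk'
    { toFun := fun a => ⟨D a, by
        obtain ⟨n, hn⟩ := a.2
        exact ⟨n, by rw [← Function.iterate_succ_apply]; exact iter_up D _ _ _ hn (Nat.le_succ n)⟩⟩
      map_add' := fun a b => Subtype.ext (by simp)
      map_smul' := fun r a => Subtype.ext (by simp) }
    (fun a b => Subtype.ext (by simp))

lemma nilDer_coe {A : Type*} [CommRing A] [Algebra ℂ A] (D : Derivation ℂ A A) (a : nilSub D) :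
    (nilDer D a : A) = D a := rfl

lemma nilDer_iter_coe {A : Type*} [CommRing A] [Algebra ℂ A] (D : Derivation ℂ A A) (n : ℕ)
    (a : nilSub D) : ((nilDer D)^[n] a : A) = D^[n] a := by
  induction n generalizing a with
  | zero => rfl
  | succ n ih => rw [Function.iterate_succ_apply, Function.iterate_succ_apply, ih, nilDer_coe]

lemma nilDer_nil {A : Type*} [CommRing A] [Algebra ℂ A] (D : Derivation ℂ A A) (a : nilSub D) :
    ∃ n : ℕ, (nilDer D)^[n] a = 0 := by
  obtain ⟨n, hn⟩ := a.2
  exact ⟨n, Subtype.ext (by rw [nilDer_iter_coe]; exact hn)⟩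

end Crest.Agent.R268
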