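import Crest.Agent.R268.LND

/-!
Lowest-order terms in the group algebra of a linearly ordered abelian group, and lowest-order
parts of derivations.
-/

set_option autoImplicit false
set_option linter.unusedSectionVars false
set_option linter.unusedSimpArgs false

namespace Crest.Agent.R268

open AddMonoidAlgebra

section Graded
variable {R Γ : Type*} [CommRing R] [AddCommGroup Γ] [LinearOrder Γ] [IsOrderedAddMonoid Γ]

/-- All terms of `f` have degree at least `g`. -/
def Ge (g : Γ) (f : R[Γ]) : Prop := ∀ h, h < g → f.coeff h = 0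

/-- The component of degree `g`. -/
noncomputable def comp (g : Γ) (f : R[Γ]) : R[Γ] := single g (f.coeff g)

omit [IsOrderedAddMonoid Γ] in
lemma comp_single (g h : Γ) (r : R) :
    comp g (single h r : R[Γ]) = if h = g then single h r else 0 := by
  unfold comp
  split_ifs with hh
  · subst hh; simp
  · simp [Finsupp.single_apply, hh]

omit [LinearOrder Γ] [IsOrderedAddMonoid Γ] in
lemma comp_add (g : Γ) (a b : R[Γ]) : comp g (a + b) = comp g a + comp g b := by
  simp [comp]

omit [LinearOrder Γ] [IsOrderedAddMonoid Γ] in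
lemma comp_sub (g : Γ) (a b : R[Γ]) : comp g (a - b) = comp g a - comp g b := by
  simp [comp]

omit [LinearOrder Γ] [IsOrderedAddMonoid Γ] in
lemma comp_zero (g : Γ) : comp g (0 : R[Γ]) = 0 := by simp [comp]

omit [LinearOrder Γ] [IsOrderedAddMonoid Γ] in
lemma comp_eq_zero {g : Γ} {f : R[Γ]} : comp g f = 0 ↔ f.coeff g = 0 := by simp [comp]

omit [IsOrderedAddMonoid Γ] in
lemma Ge.add {g : Γ} {a b : R[Γ]} (ha : Ge g a) (hb : Ge g b) : Ge g (a + b) := by
  intro h hh; simp [ha h hh, hb h hh]

omit [IsOrderedAddMonoid Γ] in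
lemma Ge.sub {g : Γ} {a b : R[Γ]} (ha : Ge g a) (hb : Ge g b) : Ge g (a - b) := by
  intro h hh; simp [ha h hh, hb h hh]

omit [IsOrderedAddMonoid Γ] in
lemma Ge_zero (g : Γ) : Ge g (0 : R[Γ]) := by intro h _; simp

omit [IsOrderedAddMonoid Γ] in
lemma Ge.mono {g g' : Γ} {a : R[Γ]} (ha : Ge g a) (h : g' ≤ g) : Ge g' a :=
  fun k hk => ha k (lt_of_lt_of_le hk h)

omit [IsOrderedAddMonoid Γ] in
lemma Ge_single (g : Γ) (r : R) : Ge g (single g r : R[Γ]) := by
  intro h hh; simp [Finsupp.single_apply, hh.ne']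

omit [IsOrderedAddMonoid Γ] in
lemma Ge.comp_eq_zero {g g' : Γ} {a : R[Γ]} (ha : Ge g a) (h : g' < g) : comp g' a = 0 :=
  Crest.Agent.R268.comp_eq_zero.2 (ha _ h)

lemma Ge.mul {g h : Γ} {a b : R[Γ]} (ha : Ge g a) (hb : Ge h b) : Ge (g + h) (a * b) := by
  intro k hk
  rw [coeff_mul_apply_left, Finsupp.sum]
  apply Finset.sum_eq_zero
  intro i hi
  have hgi : g ≤ i := by
    by_contra hlt
    exact (Finsupp.mem_support_iff.1 hi) (ha i (not_le.1 hlt))
  rw [hb (-i + k), mul_zero]
  have : k < i + h := lt_of_lt_of_le hk (by gcongr)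
  exact neg_add_lt_iff_lt_add.2 this

lemma Ge.coeff_mul {g h : Γ} {a b : R[Γ]} (ha : Ge g a) (hb : Ge h b) :
    (a * b).coeff (g + h) = a.coeff g * b.coeff h := by
  rw [coeff_mul_apply_left, Finsupp.sum, Finset.sum_eq_single g]
  · simp
  · intro i hi hig
    have hgi : g ≤ i := by
      by_contra hlt
      exact (Finsupp.mem_support_iff.1 hi) (ha i (not_le.1 hlt))
    rw [hb (-i + (g + h)), mul_zero]
    have : g + h < i + h := by gcongr; exact lt_of_le_of_ne hgi hig.symm
    exact neg_add_lt_iff_lt_add.2 this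
  · intro hg
    rw [Finsupp.notMem_support_iff.1 hg, zero_mul]

lemma Ge.comp_mul {g h : Γ} {a b : R[Γ]} (ha : Ge g a) (hb : Ge h b) :
    comp (g + h) (a * b) = comp g a * comp h b := by
  simp only [comp, single_mul_single, ha.coeff_mul hb]

lemma Ge.pow {g : Γ} {a : R[Γ]} (ha : Ge g a) (n : ℕ) :
    Ge (n • g) (a ^ n) ∧ (a ^ n).coeff (n • g) = a.coeff g ^ n := by
  induction n with
  | zero =>
    refine ⟨?_, by simp [one_def]⟩
    simpa [one_def] using Ge_single (0 : Γ) (1 : R)
  | succ n ih =>
    rw [succ_nsmul, pow_succ]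
    exact ⟨ih.1.mul ha, by rw [ih.1.coeff_mul ha, ih.2, pow_succ]⟩

omit [IsOrderedAddMonoid Γ] in
lemma exists_ord {f : R[Γ]} (hf : f ≠ 0) : ∃ g, Ge g f ∧ f.coeff g ≠ 0 := by
  have hne : f.coeff.support.Nonempty := by
    rw [Finsupp.support_nonempty_iff]; simpa using hf
  refine ⟨f.coeff.support.min' hne, fun h hh => ?_,
    Finsupp.mem_support_iff.1 (Finset.min'_mem _ hne)⟩
  by_contra h0
  exact absurd (Finset.min'_le _ h (Finsupp.mem_support_iff.2 h0)) (not_le.2 hh)

omit [LinearOrder Γ] [IsOrderedAddMonoid Γ] in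
lemma coeff_T_mul (a g : Γ) (f : R[Γ]) : (single a 1 * f : R[Γ]).coeff (a + g) = f.coeff g := by
  rw [coeff_single_mul_apply]; simp

omit [LinearOrder Γ] [IsOrderedAddMonoid Γ] in
lemma comp_T_mul (a g : Γ) (f : R[Γ]) :
    comp (a + g) (single a 1 * f : R[Γ]) = single a 1 * comp g f := by
  simp [comp, coeff_T_mul, single_mul_single]

lemma Ge_T_mul {a g : Γ} {f : R[Γ]} : Ge (a + g) (single a 1 * f : R[Γ]) ↔ Ge g f := by
  constructor
  · intro h k hk
    rw [← coeff_T_mul a k f]; exact h _ (by gcongr)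
  · intro h; exact (Ge_single a 1).mul h

variable [Algebra ℂ R]

omit [LinearOrder Γ] [IsOrderedAddMonoid Γ] in
lemma comp_smul (g : Γ) (r : ℂ) (a : R[Γ]) : comp g (r • a) = r • comp g a := by
  simp [comp]

/-- Elements supported on a submonoid of degrees. -/
def suppSub (P : AddSubmonoid Γ) : Subalgebra ℂ R[Γ] where
  carrier := {f | ∀ g, g ∉ P → f.coeff g = 0}
  mul_mem' := by
    intro a b ha hb k hk
    rw [coeff_mul_apply_left, Finsupp.sum]
    apply Finset.sum_eq_zero
    intro i hi
    have hi' : i ∈ P := by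
      by_contra h; exact (Finsupp.mem_support_iff.1 hi) (ha i h)
    rw [hb (-i + k), mul_zero]
    intro h
    exact hk (by simpa using P.add_mem hi' h)
  add_mem' := by intro a b ha hb k hk; simp [ha k hk, hb k hk]
  algebraMap_mem' := by
    intro r k hk
    have : k ≠ 0 := by rintro rfl; exact hk P.zero_mem
    simp [Finsupp.single_apply, this.symm]

omit [LinearOrder Γ] [IsOrderedAddMonoid Γ] in
lemma mem_suppSub {P : AddSubmonoid Γ} {f : R[Γ]} :
    f ∈ suppSub P ↔ ∀ g, g ∉ P → f.coeff g = 0 := Iff.rfl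

omit [IsOrderedAddMonoid Γ] in
lemma single_mem_suppSub {P : AddSubmonoid Γ} {g : Γ} (hg : g ∈ P) (r : R) :
    (single g r : R[Γ]) ∈ suppSub P := by
  intro k hk
  have : g ≠ k := by rintro rfl; exact hk hg
  simp [Finsupp.single_apply, this]

omit [IsOrderedAddMonoid Γ] in
/-- Induction over a subalgebra generated by a set, through monomials in the generators. -/
lemma adjoin_mono_induction {A : Type*} [CommRing A] [Algebra ℂ A] (S : Set A)
    (M : A → Prop) (Q : A → Prop) (M1 : M 1) (MS : ∀ s ∈ S, M s)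
    (Mmul : ∀ a b, M a → M b → M (a * b)) (QM : ∀ a, M a → Q a) (Q0 : Q 0)
    (Qadd : ∀ a b, Q a → Q b → Q (a + b)) (Qsmul : ∀ (r : ℂ) a, Q a → Q (r • a))
    {f : A} (hf : f ∈ Algebra.adjoin ℂ S) : Q f := by
  have h1 : f ∈ Submodule.span ℂ (Submonoid.closure S : Set A) := by
    rw [← Algebra.adjoin_eq_span]; exact hf
  clear hf
  induction h1 using Submodule.span_induction with
  | mem x hx =>
    apply QM
    induction hx using Submonoid.closure_induction with
    | mem x hx => exact MS x hx
    | one => exact M1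
    | mul x y _ _ hx hy => exact Mmul x y hx hy
  | zero => exact Q0
  | add x y _ _ hx hy => exact Qadd x y hx hy
  | smul r x _ hx => exact Qsmul r x hx

omit [IsOrderedAddMonoid Γ] in
lemma comp_mem_adjoin (S : Set R[Γ]) (hS : ∀ s ∈ S, ∃ g r, s = single g r) {f : R[Γ]}
    (hf : f ∈ Algebra.adjoin ℂ S) (g : Γ) : comp g f ∈ Algebra.adjoin ℂ S := by
  refine adjoin_mono_induction S (fun a => a ∈ Algebra.adjoin ℂ S ∧ ∃ g r, a = single g r)
    (fun a => comp g a ∈ Algebra.adjoin ℂ S) ⟨one_mem _, 0, 1, rfl⟩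
    (fun s hs => ⟨Algebra.subset_adjoin hs, hS s hs⟩) ?_ ?_ ?_ ?_ ?_ hf
  · rintro a b ⟨ha, g, r, rfl⟩ ⟨hb, g', r', rfl⟩
    exact ⟨mul_mem ha hb, g + g', r * r', single_mul_single ..⟩
  · rintro a ⟨ha, g', r, rfl⟩
    rw [comp_single]; split_ifs
    · exact ha
    · exact zero_mem _
  · rw [comp_zero]; exact zero_mem _
  · intro a b ha hb; rw [comp_add]; exact add_mem ha hb
  · intro r a ha; rw [comp_smul]; exact Subalgebra.smul_mem _ ha r

omit [IsOrderedAddMonoid Γ] in
lemma comp_mem_mul (S : Set R[Γ]) (t : R[Γ]) (H : AddSubgroup Γ)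
    (hS : ∀ s ∈ S, ∃ g r, s = single g r ∧ (g ∈ H ∨ s = t)) {f : R[Γ]}
    (hf : f ∈ Algebra.adjoin ℂ S) (g : Γ) (hg : g ∉ H) :
    ∃ q ∈ Algebra.adjoin ℂ S, comp g f = t * q := by
  refine adjoin_mono_induction S
    (fun a => a ∈ Algebra.adjoin ℂ S ∧ ∃ g r, a = single g r ∧
      (g ∈ H ∨ ∃ q ∈ Algebra.adjoin ℂ S, a = t * q))
    (fun a => ∃ q ∈ Algebra.adjoin ℂ S, comp g a = t * q) ⟨one_mem _, 0, 1, rfl, Or.inl H.zero_mem⟩
    ?_ ?_ ?_ ?_ ?_ ?_ hf
  · intro s hs
    obtain ⟨g, r, h1, h2⟩ := hS s hs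
    refine ⟨Algebra.subset_adjoin hs, g, r, h1, h2.imp id ?_⟩
    rintro rfl; exact ⟨1, one_mem _, (mul_one _).symm⟩
  · rintro a b ⟨ha, g, r, ea, h1⟩ ⟨hb, g', r', eb, h2⟩
    refine ⟨mul_mem ha hb, g + g', r * r', by rw [ea, eb, single_mul_single], ?_⟩
    rcases h1 with h1 | ⟨q, hq, e⟩
    · rcases h2 with h2 | ⟨q, hq, e⟩
      · exact Or.inl (H.add_mem h1 h2)
      · exact Or.inr ⟨a * q, mul_mem ha hq, by rw [e]; ring⟩
    · exact Or.inr ⟨q * b, mul_mem hq hb, by rw [e]; ring⟩
  · rintro a ⟨ha, g', r, ea, h⟩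
    rw [ea, comp_single]; split_ifs with hh
    · subst hh
      rw [← ea]
      exact h.resolve_left hg
    · exact ⟨0, zero_mem _, by simp⟩
  · exact ⟨0, zero_mem _, by simp [comp_zero]⟩
  · rintro a b ⟨q, hq, e⟩ ⟨q', hq', e'⟩
    exact ⟨q + q', add_mem hq hq', by rw [comp_add, e, e', mul_add]⟩
  · rintro r a ⟨q, hq, e⟩
    exact ⟨r • q, Subalgebra.smul_mem _ hq r, by rw [comp_smul, e, mul_smul_comm]⟩

/-- A derivation preserving degrees. -/
def Deg0 (E : Derivation ℂ R[Γ] R[Γ]) : Prop := ∀ g r, ∃ r', E (single g r) = single g r'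

omit [IsOrderedAddMonoid Γ] in
lemma Deg0.comp {E : Derivation ℂ R[Γ] R[Γ]} (hE : Deg0 E) (g : Γ) (f : R[Γ]) :
    comp g (E f) = E (comp g f) := by
  induction f using AddMonoidAlgebra.induction_linear with
  | zero => simp [comp_zero]
  | add a b ha hb => rw [map_add, comp_add, comp_add, map_add, ha, hb]
  | single h r =>
    obtain ⟨r', e⟩ := hE h r
    rw [e, comp_single, comp_single]
    split_ifs
    · exact e.symm
    · simp

omit [IsOrderedAddMonoid Γ] in
lemma Deg0.ge {E : Derivation ℂ R[Γ] R[Γ]} (hE : Deg0 E) {g : Γ} {f : R[Γ]} (hf : Ge g f) :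
    Ge g (E f) := by
  intro h hh
  rw [← comp_eq_zero, hE.comp, hf.comp_eq_zero hh, map_zero]

variable {ι : Type*} [Fintype ι]

lemma sum_smul_apply (c : ι → R[Γ]) (E : ι → Derivation ℂ R[Γ] R[Γ]) (f : R[Γ]) :
    (∑ i, c i • E i) f = ∑ i, c i * E i f := by
  rw [← Derivation.coeFnAddMonoidHom_apply, map_sum]; simp

lemma lead_step (c : ι → R[Γ]) (E : ι → Derivation ℂ R[Γ] R[Γ]) (hE : ∀ i, Deg0 (E i)) (e : Γ)
    (hc : ∀ i, Ge e (c i)) {g : Γ} {f : R[Γ]} (hf : Ge g f) :
    Ge (e + g) ((∑ i, c i • E i) f) ∧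
      comp (e + g) ((∑ i, c i • E i) f) = (∑ i, comp e (c i) • E i) (comp g f) := by
  rw [sum_smul_apply, sum_smul_apply]
  constructor
  · intro h hh
    rw [coeff_sum, Finsupp.finsetSum_apply]
    exact Finset.sum_eq_zero fun i _ => ((hc i).mul ((hE i).ge hf)) h hh
  · have : comp (e + g) (∑ i, c i * E i f) = ∑ i, comp (e + g) (c i * E i f) := by
      classical
      induction (Finset.univ : Finset ι) using Finset.induction_on with
      | empty => simp [comp_zero]
      | insert i s hi ih => rw [Finset.sum_insert hi, Finset.sum_insert hi, comp_add, ih]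
    rw [this]
    exact Finset.sum_congr rfl fun i _ => by rw [(hc i).comp_mul ((hE i).ge hf), (hE i).comp]

lemma lead_iter (c : ι → R[Γ]) (E : ι → Derivation ℂ R[Γ] R[Γ]) (hE : ∀ i, Deg0 (E i)) (e : Γ)
    (hc : ∀ i, Ge e (c i)) {g : Γ} {f : R[Γ]} (hf : Ge g f) (n : ℕ) :
    Ge (n • e + g) ((⇑(∑ i, c i • E i : Derivation ℂ R[Γ] R[Γ]))^[n] f) ∧
      comp (n • e + g) ((⇑(∑ i, c i • E i : Derivation ℂ R[Γ] R[Γ]))^[n] f) =
        (⇑(∑ i, comp e (c i) • E i : Derivation ℂ R[Γ] R[Γ]))^[n] (comp g f) := by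
  induction n with
  | zero => simp [hf]
  | succ n ih =>
    obtain ⟨h1, h2⟩ := lead_step c E hE e hc ih.1
    rw [Function.iterate_succ_apply', Function.iterate_succ_apply', succ_nsmul', add_assoc,
      ← ih.2]
    exact ⟨h1, h2⟩

omit [IsOrderedAddMonoid Γ] [Algebra ℂ R] in
lemma exists_common_ord (c : ι → R[Γ]) (hc : ∃ i, c i ≠ 0) :
    ∃ e, (∀ i, Ge e (c i)) ∧ ∃ i, (c i).coeff e ≠ 0 := by
  classical
  let s : Finset Γ := Finset.univ.biUnion fun i => (c i).coeff.support
  have hs : s.Nonempty := by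
    obtain ⟨i, hi⟩ := hc
    obtain ⟨g, -, hg⟩ := exists_ord hi
    exact ⟨g, Finset.mem_biUnion.2 ⟨i, Finset.mem_univ _, Finsupp.mem_support_iff.2 hg⟩⟩
  refine ⟨s.min' hs, fun i h hh => ?_, ?_⟩
  · by_contra h0
    exact absurd (Finset.min'_le s h
      (Finset.mem_biUnion.2 ⟨i, Finset.mem_univ _, Finsupp.mem_support_iff.2 h0⟩)) (not_le.2 hh)
  · obtain ⟨i, -, hi⟩ := Finset.mem_biUnion.1 (Finset.min'_mem s hs)
    exact ⟨i, Finsupp.mem_support_iff.1 hi⟩

/-- Euler derivation attached to an additive character of the degrees. -/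
noncomputable def eulerDer (φ : Γ →+ ℤ) : Derivation ℂ R[Γ] R[Γ] :=
  Derivation.mk'
    { toFun := fun f => f.coeff.sum fun g r => single g (φ g • r)
      map_add' := fun a b => by
        rw [coeff_add, Finsupp.sum_add_index'] <;> simp
      map_smul' := fun r a => by
        induction a using AddMonoidAlgebra.induction_linear with
        | zero => simp
        | add a b ha hb =>
          rw [smul_add, coeff_add, coeff_add, Finsupp.sum_add_index', Finsupp.sum_add_index', ha,
            hb, smul_add] <;> simp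
        | single g s =>
          rw [smul_single, coeff_single, coeff_single, Finsupp.sum_single_index,
            Finsupp.sum_single_index] <;> simp }
    (by
      intro a b
      induction a using AddMonoidAlgebra.induction_linear with
      | zero => simp
      | add a a' ha ha' => rw [add_mul, map_add, ha, ha', map_add, add_smul, smul_add]; abel
      | single g r =>
        induction b using AddMonoidAlgebra.induction_linear with
        | zero => simp
        | add b b' hb hb' => rw [mul_add, map_add, hb, hb', map_add, add_smul, smul_add]; abel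
        | single h s =>
          simp only [single_mul_single, LinearMap.coe_mk, AddHom.coe_mk, coeff_single,
            smul_eq_mul]
          rw [Finsupp.sum_single_index, Finsupp.sum_single_index, Finsupp.sum_single_index,
            single_mul_single, single_mul_single, add_comm h g, ← single_add]
          · congr 1; simp; ring
          all_goals simp)

omit [LinearOrder Γ] [IsOrderedAddMonoid Γ] in
lemma eulerDer_single (φ : Γ →+ ℤ) (g : Γ) (r : R) :
    eulerDer φ (single g r : R[Γ]) = single g (φ g • r) := by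
  change (single g r : R[Γ]).coeff.sum (fun g r => (single g (φ g • r) : R[Γ])) = _
  rw [coeff_single, Finsupp.sum_single_index]; simp

/-- Coefficientwise extension of a derivation. -/
noncomputable def coeffDer (δ : Derivation ℂ R R) : Derivation ℂ R[Γ] R[Γ] :=
  Derivation.mk'
    { toFun := fun f => f.coeff.sum fun g r => single g (δ r)
      map_add' := fun a b => by
        rw [coeff_add, Finsupp.sum_add_index'] <;> simp
      map_smul' := fun r a => by
        induction a using AddMonoidAlgebra.induction_linear with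
        | zero => simp
        | add a b ha hb =>
          rw [smul_add, coeff_add, coeff_add, Finsupp.sum_add_index', Finsupp.sum_add_index', ha,
            hb, smul_add] <;> simp
        | single g s =>
          rw [smul_single, coeff_single, coeff_single, Finsupp.sum_single_index,
            Finsupp.sum_single_index] <;> simp }
    (by
      intro a b
      induction a using AddMonoidAlgebra.induction_linear with
      | zero => simp
      | add a a' ha ha' => rw [add_mul, map_add, ha, ha', map_add, add_smul, smul_add]; abel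
      | single g r =>
        induction b using AddMonoidAlgebra.induction_linear with
        | zero => simp
        | add b b' hb hb' => rw [mul_add, map_add, hb, hb', map_add, add_smul, smul_add]; abel
        | single h s =>
          simp only [single_mul_single, LinearMap.coe_mk, AddHom.coe_mk, coeff_single,
            smul_eq_mul]
          rw [Finsupp.sum_single_index, Finsupp.sum_single_index, Finsupp.sum_single_index,
            single_mul_single, single_mul_single, add_comm h g, ← single_add]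
          · congr 1; simp
          all_goals simp)

omit [LinearOrder Γ] [IsOrderedAddMonoid Γ] in
lemma coeffDer_single (δ : Derivation ℂ R R) (g : Γ) (r : R) :
    coeffDer δ (single g r : R[Γ]) = single g (δ r) := by
  change (single g r : R[Γ]).coeff.sum (fun g r => (single g (δ r) : R[Γ])) = _
  rw [coeff_single, Finsupp.sum_single_index]; simp

end Graded

end Crest.Agent.R268
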