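import Crest.Agent.R268.Cases

/-!
The algebra `BB` is not a polynomial ring (cuspidal case), and not a polynomial ring having `p`
as a variable (nodal case).
-/

set_option autoImplicit false
set_option linter.unusedSectionVars false
set_option linter.unusedSimpArgs false
set_option maxSynthPendingDepth 6

namespace Crest.Agent.R268

open AddMonoidAlgebra

variable (o : Bool)

/-- The four basic degree-preserving derivations. -/
noncomputable def EE : Fin 4 → Derivation ℂ Lam Lam :=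
  ![eulerDer pr1, eulerDer pr2, coeffDer (MvPolynomial.pderiv 1), coeffDer (MvPolynomial.pderiv 0)]

lemma EE_deg0 (i : Fin 4) : Deg0 (EE i) := by
  intro g r
  fin_cases i
  exacts [⟨_, eulerDer_single _ _ _⟩, ⟨_, eulerDer_single _ _ _⟩, ⟨_, coeffDer_single _ _ _⟩,
    ⟨_, coeffDer_single _ _ _⟩]

noncomputable def DD (c : Fin 4 → Lam) : Derivation ℂ Lam Lam := ∑ i, c i • EE i

lemma DD_single (c : Fin 4 → Lam) (i t : ℤ) (r : R1) :
    DD c (single (G i t) r) = c 0 * single (G i t) (i • r) + c 1 * single (G i t) (t • r) +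
      c 2 * single (G i t) (MvPolynomial.pderiv 1 r) +
      c 3 * single (G i t) (MvPolynomial.pderiv 0 r) := by
  rw [DD, sum_smul_apply, Fin.sum_univ_four]
  change c 0 * eulerDer pr1 _ + c 1 * eulerDer pr2 _ + c 2 * coeffDer _ _ + c 3 * coeffDer _ _ = _
  rw [eulerDer_single, eulerDer_single, coeffDer_single, coeffDer_single]; rfl

lemma single_zsmul (g : Gm) (n : ℤ) (r : R1) : (single g (n • r) : Lam) = n * single g r := by
  rw [← zsmul_eq_mul, smul_single]

lemma DD_p (c : Fin 4 → Lam) : DD c pL = c 0 * pL := by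
  rw [pL, DD_single]; simp
lemma DD_x (c : Fin 4 → Lam) : DD c (xL o) = c 1 * ((aa o : Lam) * xL o) := by
  rw [xL, DD_single, single_zsmul, single_zsmul]; simp
lemma DD_z (c : Fin 4 → Lam) : DD c zL = c 2 := by
  rw [zL, DD_single]; simp [← one_eq]
lemma DD_u (c : Fin 4 → Lam) :
    DD c (uL o) = c 1 * (-(bb o : Lam) * uL o) + c 3 * single (G 0 (-bb o)) 1 := by
  rw [uL, DD_single, single_zsmul, single_zsmul]; simp

lemma aa_inv : (aa o : Lam) * algebraMap ℂ Lam (aa o : ℂ)⁻¹ = 1 := by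
  rw [← map_natCast (algebraMap ℂ Lam), ← map_mul, mul_inv_cancel₀, map_one]
  exact_mod_cast (aa_pos o).ne'

lemma th_inv : (single (G 0 (bb o)) 1 * single (G 0 (-bb o)) 1 : Lam) = 1 := by
  rw [sG_mul]; simp [← one_eq]

lemma exists_DD (a b c d : Lam) :
    ∃ cc, DD cc pL = a ∧ DD cc (xL o) = b ∧ DD cc zL = c ∧ DD cc (uL o) = d := by
  refine ⟨![pI * a, algebraMap ℂ Lam (aa o : ℂ)⁻¹ * xI o * b, c, single (G 0 (bb o)) 1 *
    (d + (bb o : Lam) * uL o * (algebraMap ℂ Lam (aa o : ℂ)⁻¹ * xI o * b))], ?_, ?_, ?_, ?_⟩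
  · rw [DD_p]; change pI * a * pL = a; linear_combination a * p_pI
  · rw [DD_x]; change algebraMap ℂ Lam (aa o : ℂ)⁻¹ * xI o * b * _ = b
    linear_combination (xL o * xI o * b) * aa_inv o + b * x_xI o
  · rw [DD_z]; rfl
  · rw [DD_u]
    change algebraMap ℂ Lam (aa o : ℂ)⁻¹ * xI o * b * _ + single (G 0 (bb o)) 1 *
      (d + (bb o : Lam) * uL o * (algebraMap ℂ Lam (aa o : ℂ)⁻¹ * xI o * b)) * _ = d
    linear_combination (d + (bb o : Lam) * uL o * (algebraMap ℂ Lam (aa o : ℂ)⁻¹ * xI o * b)) * th_inv o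

lemma DD_eq_zero (c : Fin 4 → Lam) (h1 : DD c pL = 0) (h2 : DD c (xL o) = 0) (h3 : DD c zL = 0)
    (h4 : DD c (uL o) = 0) (i : Fin 4) : c i = 0 := by
  rw [DD_p] at h1
  rw [DD_x] at h2
  rw [DD_z] at h3
  have c1 : c 1 = 0 := (mul_eq_zero.1 h2).resolve_right
    (mul_ne_zero (left_ne_zero_of_mul_eq_one (aa_inv o)) (xL_ne o))
  rw [DD_u, c1, zero_mul, zero_add] at h4
  fin_cases i
  · exact (mul_eq_zero.1 h1).resolve_right pL_ne
  · exact c1
  · exact h3
  · exact (mul_eq_zero.1 h4).resolve_right (right_ne_zero_of_mul_eq_one (th_inv o))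

theorem core (c : Fin 4 → Lam) (hst : ∀ f ∈ BB o, DD c f ∈ BB o)
    (hnil : ∀ f ∈ BB o, ∃ n : ℕ, (DD c)^[n] f = 0) (hcase : o = true ∨ DD c pL = 0) :
    ∀ i, c i ∈ P0 := by
  by_cases h0 : ∃ i, c i ≠ 0
  swap
  · intro i
    rw [not_exists] at h0
    rw [not_not.1 (h0 i)]; exact zero_mem _
  obtain ⟨e, he, i₀, hi₀⟩ := exists_common_ord c h0
  obtain ⟨e₁, e₂, rfl⟩ := exists_G e
  by_cases he₁ : 0 ≤ e₁
  · intro i
    exact mem_P0.2 fun j t hj => he i _ (G_lt.2 (Or.inl (by omega)))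
  exfalso
  let D := DD fun i => comp (G e₁ e₂) (c i)
  have hL' : ∀ g a, Gr o g a → Gr o (G e₁ e₂ + g) (D a) := by
    rintro g a ⟨f, hf, hge, rfl⟩
    obtain ⟨h1, h2⟩ := lead_step c EE EE_deg0 _ he hge
    exact ⟨DD c f, hst f hf, h1, h2⟩
  have hN : ∀ g a, Gr o g a → a ∈ nilSub D := by
    rintro g a ⟨f, hf, hge, rfl⟩
    obtain ⟨n, hn⟩ := hnil f hf
    obtain ⟨-, h2⟩ := lead_iter c EE EE_deg0 _ he hge n
    refine ⟨n, ?_⟩
    change comp _ ((DD c)^[n] f) = D^[n] _ at h2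
    rw [← h2, hn, comp_zero]
  have hp : D pL = 0 := by
    rcases hcase with rfl | h
    · exact caseA D e₁ e₂ hL' hN
    · rw [DD_p] at h
      rw [DD_p, (mul_eq_zero.1 h).resolve_right pL_ne, comp_zero, zero_mul]
  obtain ⟨h2, h3, h4⟩ := caseB o D e₁ e₂ hL' hN (not_le.1 he₁) hp
  exact hi₀ (comp_eq_zero.1 (DD_eq_zero o _ hp h2 h3 h4 i₀))

section Ext
variable {B : Type*} [CommRing B] [Algebra ℂ B] (j : B →ₐ[ℂ] Lam) (hj : Function.Injective j)
  (hr : j.range = BB o)

include hj hr in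
lemma exists_ext (D : Derivation ℂ B B) : ∃ c, ∀ b, DD c (j b) = j (D b) := by
  obtain ⟨p, hp⟩ : pL ∈ j.range := hr ▸ p_BB o
  obtain ⟨x, hx⟩ : xL o ∈ j.range := hr ▸ x_BB o
  obtain ⟨z, hz⟩ : zL ∈ j.range := hr ▸ z_BB o
  obtain ⟨u, hu⟩ : uL o ∈ j.range := hr ▸ u_BB o
  change j p = _ at hp
  change j x = _ at hx
  change j z = _ at hz
  change j u = _ at hu
  obtain ⟨c, h1, h2, h3, h4⟩ := exists_DD o (j (D p)) (j (D x)) (j (D z)) (j (D u))
  let S : Subalgebra ℂ Lam :=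
    { carrier := {f | ∃ b, j b = f ∧ DD c f = j (D b)}
      mul_mem' := by
        rintro _ _ ⟨a, rfl, ha⟩ ⟨b, rfl, hb⟩
        exact ⟨a * b, map_mul _ _ _, by
          simp only [Derivation.leibniz, ha, hb, smul_eq_mul, map_add, map_mul]⟩
      add_mem' := by
        rintro _ _ ⟨a, rfl, ha⟩ ⟨b, rfl, hb⟩
        exact ⟨a + b, map_add _ _ _, by simp only [ha, hb, map_add]⟩
      algebraMap_mem' := fun r => ⟨algebraMap ℂ B r, j.commutes r, by
        rw [Derivation.map_algebraMap, Derivation.map_algebraMap, map_zero]⟩ }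
  have sat : ∀ t f, t ∈ S → t ≠ 0 → f ∈ BB o → t * f ∈ S → f ∈ S := by
    rintro _ f ⟨a, rfl, ha⟩ ht hf ⟨b', hb', hb''⟩
    obtain ⟨b, rfl⟩ : f ∈ j.range := hr ▸ hf
    change j b' = j a * j b at hb'
    change DD c (j a * j b) = _ at hb''
    rw [← map_mul] at hb'
    obtain rfl := hj hb'
    refine ⟨b, rfl, mul_left_cancel₀ ht ?_⟩
    simp only [Derivation.leibniz, ha, smul_eq_mul, map_add, map_mul] at hb''
    exact add_right_cancel hb''
  have mp : pL ∈ S := ⟨p, hp, h1⟩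
  have mx : xL o ∈ S := ⟨x, hx, h2⟩
  have mz : zL ∈ S := ⟨z, hz, h3⟩
  have mu : uL o ∈ S := ⟨u, hu, h4⟩
  have mh : hL o ∈ S := hf_mem o _ mu
  have my : yL o ∈ S := sat _ _ mx (xL_ne o) (y_BB o) (by
    rw [x_y]; exact add_mem (mul_mem mz (add_mem mz (one_mem _))) (mul_mem (pow_mem mp _) mu))
  have ms : sA o ∈ S := add_mem (sub_mem my (pow_mem mx 2)) (mul_mem mx mh)
  have hle : BB o ≤ S := by
    apply Algebra.adjoin_le
    rintro t (rfl | rfl | rfl | rfl | rfl)
    · exact mp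
    · exact ms
    · exact mu
    · exact sat _ _ (pow_mem mp (ll o)) (pow_ne_zero _ pL_ne) (F_BB o) (by
        rw [pl_F]; exact sub_mem (sub_mem mx (pow_mem ms 2)) mh)
    · exact sat _ _ (pow_mem mp (ll o)) (pow_ne_zero _ pL_ne) (J_BB o) (by
        rw [pl_J]; exact sub_mem mz (mul_mem mx ms))
  refine ⟨c, fun b => ?_⟩
  obtain ⟨b', hb', h⟩ := hle (show j b ∈ BB o from hr ▸ AlgHom.mem_range_self j b)
  rw [h, hj hb']

include hj hr in
lemma lnd_P0 (D : Derivation ℂ B B) (hD : ∀ b, ∃ n : ℕ, D^[n] b = 0)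
    (hcase : o = true ∨ ∀ b, j b = pL → D b = 0) (b : B)
    (hb : j b = pL ∨ j b = xL o ∨ j b = zL ∨ j b = uL o) : j (D b) ∈ P0 := by
  obtain ⟨c, hc⟩ := exists_ext o j hj hr D
  have hc' : ∀ n b, (DD c)^[n] (j b) = j (D^[n] b) := by
    intro n
    induction n with
    | zero => intro b; rfl
    | succ n ih => intro b; rw [Function.iterate_succ_apply, Function.iterate_succ_apply, hc, ih]
  have := core o c (fun f hf => by
      obtain ⟨b, rfl⟩ : f ∈ j.range := hr ▸ hf
      exact hr ▸ ⟨D b, (hc b).symm⟩)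
    (fun f hf => by
      obtain ⟨b, rfl⟩ : f ∈ j.range := hr ▸ hf
      obtain ⟨n, hn⟩ := hD b
      exact ⟨n, (hc' n b).trans (by rw [hn, map_zero])⟩)
    (hcase.imp id fun h => by
      obtain ⟨p, hp⟩ : pL ∈ j.range := hr ▸ p_BB o
      change j p = _ at hp
      rw [← hp, hc, h p hp, map_zero])
  rw [← hc]
  rcases hb with h | h | h | h
  · rw [h, DD_p]; exact mul_mem (this 0) p_P0
  · rw [h, DD_x]; exact mul_mem (this 1) (mul_mem (natCast_mem _ _) (Q0_le_P0 (x_Q0 o)))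
  · rw [h, DD_z]; exact this 2
  · rw [h, DD_u]
    exact add_mem (mul_mem (this 1) (mul_mem (neg_mem (natCast_mem _ _)) (Q0_le_P0 (u_Q0 o))))
      (mul_mem (this 3) (Q0_le_P0 (single_Q0 _ _)))

include hj hr in
lemma ker_P0 (D : Derivation ℂ B B) (hD : ∀ b, ∃ n : ℕ, D^[n] b = 0) (hD0 : ∃ b, D b ≠ 0)
    (hcase : o = true ∨ ∀ b, j b = pL → D b = 0) (a : B) (ha : D a = 0) : j a ∈ P0 := by
  obtain ⟨b, hb, hb0⟩ : ∃ b, (j b = pL ∨ j b = xL o ∨ j b = zL ∨ j b = uL o) ∧ D b ≠ 0 := by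
    by_contra hcon
    push Not at hcon
    obtain ⟨c, hc⟩ := exists_ext o j hj hr D
    have key : ∀ t ∈ BB o, (t = pL ∨ t = xL o ∨ t = zL ∨ t = uL o) → DD c t = 0 := by
      intro t ht h
      obtain ⟨b, rfl⟩ : t ∈ j.range := hr ▸ ht
      exact (hc b).trans (by rw [hcon b h, map_zero])
    have := DD_eq_zero o c (key _ (p_BB o) (by simp)) (key _ (x_BB o) (by simp))
      (key _ (z_BB o) (by simp)) (key _ (u_BB o) (by simp))
    obtain ⟨b, hb⟩ := hD0
    apply hb
    apply hj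
    rw [← hc, DD, sum_smul_apply, map_zero]
    exact Finset.sum_eq_zero fun i _ => by rw [this i, zero_mul]
  have key : ∀ n : ℕ, j a ^ n * j (D b) ∈ P0 := by
    intro n
    have han : D (a ^ n) = 0 := pow_mem (show a ∈ kerSub D from ha) n
    have := lnd_P0 o j hj hr (a ^ n • D) (fun b => by
      obtain ⟨m, hm⟩ := hD b
      exact ⟨m, by rw [smul_der_iter D _ han, hm, mul_zero]⟩)
      (hcase.imp id fun h b hb => by rw [Derivation.smul_apply, h b hb, smul_zero]) b hb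
    rwa [Derivation.smul_apply, smul_eq_mul, map_mul, map_pow] at this
  by_contra hcon
  have ha0 : j a ≠ 0 := by rintro h; rw [h] at hcon; exact hcon (zero_mem _)
  obtain ⟨g, hg, hg0⟩ := exists_ord ha0
  obtain ⟨i, t, rfl⟩ := exists_G g
  have hi : i < 0 := by
    by_contra hi
    exact hcon (mem_P0.2 fun i' t' h => hg _ (G_lt.2 (Or.inl (by omega))))
  obtain ⟨g', hg', hg0'⟩ := exists_ord (show j (D b) ≠ 0 by rwa [Ne, map_eq_zero_iff _ hj])
  obtain ⟨i', t', rfl⟩ := exists_G g'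
  let n : ℕ := i'.toNat + 1
  obtain ⟨h1, h2⟩ := hg.pow n
  have h3 := h1.coeff_mul hg'
  rw [h2, nsmul_G, G_add, mem_P0.1 (key n) _ _ (by
    have : i' ≤ i'.toNat := Int.self_le_toNat _
    have h4 : (n : ℤ) = i'.toNat + 1 := by simp [n]
    nlinarith [Int.natCast_nonneg i'.toNat])] at h3
  exact mul_ne_zero (pow_ne_zero n hg0) hg0' h3.symm

end Ext

lemma N1_not_P0 : N1 o ∉ P0 := by
  intro h
  have h1 := comp_T_mul (G (-ll o) 0) (G 0 0) (n1 o - xL o ^ 3)
  rw [(G1_lead o).2, ← pI_pow, ← N1, G_add, comp_eq_zero.2 (mem_P0.1 h _ _ (by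
    have := ll_pos o; omega))] at h1
  refine mul_ne_zero (pow_ne_zero _ (right_ne_zero_of_mul_eq_one p_pI)) ?_ h1.symm
  rw [n1_eq, Ne, single_eq_zero]; exact n1c_ne o

theorem no_poly (j : MvPolynomial (Fin 4) ℂ →ₐ[ℂ] Lam) (hj : Function.Injective j)
    (hr : j.range = BB o) (hcase : o = true ∨ j (MvPolynomial.X 0) = pL) : False := by
  have key : ∀ i k : Fin 4, i ≠ k → k ≠ 0 → j (MvPolynomial.X i) ∈ P0 := by
    intro i k hik hk
    refine ker_P0 o j hj hr (MvPolynomial.pderiv k) (pderiv_locNil k)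
      ⟨MvPolynomial.X k, by simp⟩ (hcase.imp id fun h b hb => ?_) _
      (MvPolynomial.pderiv_X_of_ne hik)
    rw [← h] at hb
    rw [hj hb]; exact MvPolynomial.pderiv_X_of_ne hk.symm
  have hX : ∀ i, j (MvPolynomial.X i) ∈ P0 := by
    intro i
    by_cases hi : i = 1
    · exact key i 2 (by rw [hi]; decide) (by decide)
    · exact key i 1 hi (by decide)
  have hall : ∀ b, j b ∈ P0 := by
    intro b
    induction b using MvPolynomial.induction_on with
    | C a => rw [← MvPolynomial.algebraMap_eq, AlgHom.commutes]; exact Subalgebra.algebraMap_mem _ _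
    | add p q hp hq => rw [map_add]; exact add_mem hp hq
    | mul_X p i h => rw [map_mul]; exact mul_mem h (hX i)
  obtain ⟨b, hb⟩ : N1 o ∈ j.range := hr ▸ N1_BB o
  exact N1_not_P0 o (hb ▸ hall b)

/-- Injectivity criterion for a model of `BB`. -/
lemma inj_of_model {B : Type} [CommRing B] [IsDomain B] [Algebra ℂ B] (j : B →ₐ[ℂ] Lam)
    (p s u F J : B) (hgen : Algebra.adjoin ℂ {p, s, u, F, J} = ⊤)
    (jp : j p = pL) (js : j s = sA o) (ju : j u = uL o) (jF : j F = FL o) (jJ : j J = JL o)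
    (x : B) (hx : x = s ^ 2 + hf o u + p ^ ll o * F) (hp0 : p ≠ 0) (hx0 : x ≠ 0)
    (hH : x ^ 2 * F - (1 + 2 * s * x) * J - p ^ ll o * J ^ 2 - p ^ kd o * u = 0) :
    Function.Injective j ∧ j.range = BB o := by
  constructor
  · obtain ⟨K, _, _, ι, ψ, hι, h1, h2, h3, h4⟩ :=
      exists_psi' o p x (x * s + p ^ ll o * J) u hp0 hx0
    have hp' : ι p ≠ 0 := by rwa [Ne, map_eq_zero_iff _ hι]
    have hx' : ι x ≠ 0 := by rwa [Ne, map_eq_zero_iff _ hι]
    have hH' := congrArg ι hH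
    have hx'' := congrArg ι hx
    simp only [map_add, map_sub, map_mul, map_pow, map_one, map_zero, map_ofNat, map_hf]
      at hH' hx'' h3
    have h5 : ψ (hL o) = hf o (ι u) := by rw [hL, map_hf, h4]
    have h6 : ψ (sA o) = ι s := by
      have := congrArg ψ (x_y o)
      rw [y_eq, kk_eq] at this
      simp only [map_add, map_sub, map_mul, map_pow, map_one, h1, h2, h3, h4, h5] at this
      apply mul_left_cancel₀ hx'
      linear_combination this - (ι p ^ ll o) * hH' - (ι x ^ 2) * hx''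
    have h7 : ψ (JL o) = ι J := by
      have := congrArg ψ (pl_J o)
      simp only [map_add, map_sub, map_mul, map_pow, map_one, h1, h2, h3, h6] at this
      apply mul_left_cancel₀ (pow_ne_zero (ll o) hp')
      linear_combination this
    have h8 : ψ (FL o) = ι F := by
      have := congrArg ψ (pl_F o)
      simp only [map_add, map_sub, map_mul, map_pow, map_one, h1, h2, h5, h6] at this
      apply mul_left_cancel₀ (pow_ne_zero (ll o) hp')
      linear_combination this + hx''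
    have h9 : ψ.comp j = ι := by
      apply AlgHom.ext_of_adjoin_eq_top hgen
      rintro t (rfl | rfl | rfl | rfl | rfl)
      · exact (congrArg ψ jp).trans h1
      · exact (congrArg ψ js).trans h6
      · exact (congrArg ψ ju).trans h4
      · exact (congrArg ψ jF).trans h8
      · exact (congrArg ψ jJ).trans h7
    rw [← h9] at hι
    exact Function.Injective.of_comp hι
  · rw [← Algebra.map_top, ← hgen, AlgHom.map_adjoin, BB]
    simp only [Set.image_insert_eq, Set.image_singleton, jp, js, ju, jF, jJ]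

end Crest.Agent.R268
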