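import Crest.Agent.R268.Lead

/-!
Iterated polynomial rings, a division lemma, and restriction of derivations.
-/

set_option autoImplicit false
set_option linter.unusedSectionVars false
set_option linter.unusedSimpArgs false

namespace Crest.Agent.R268

open Polynomial

section Ev
variable {A : Type*} [CommRing A] [Algebra ℂ A]

/-- Evaluation of a polynomial in two variables (inner variable first). -/
noncomputable def ev2 (u s : A) : ℂ[X][X] →ₐ[ℂ] A := aevalTower (aeval u) s

/-- Evaluation of a polynomial in three variables (inner variable first). -/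
noncomputable def ev3 (u s x : A) : ℂ[X][X][X] →ₐ[ℂ] A := aevalTower (ev2 u s) x

/-- Evaluation of a polynomial in four variables (inner variable first). -/
noncomputable def ev4 (u s x y : A) : ℂ[X][X][X][X] →ₐ[ℂ] A :=
  aevalTower (R := ℂ[X][X][X]) (ev3 u s x) y

@[simp] lemma ev2_C (u s : A) (c : ℂ[X]) : ev2 u s (C c) = aeval u c := by simp [ev2]
@[simp] lemma ev2_X (u s : A) : ev2 u s X = s := by simp [ev2]
@[simp] lemma ev3_C (u s x : A) (c : ℂ[X][X]) : ev3 u s x (C c) = ev2 u s c := by simp [ev3]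
@[simp] lemma ev3_X (u s x : A) : ev3 u s x X = x := by simp [ev3]
@[simp] lemma ev4_C (u s x y : A) (c : ℂ[X][X][X]) : ev4 u s x y (C c) = ev3 u s x c := by
  simp [ev4]
@[simp] lemma ev4_X (u s x y : A) : ev4 u s x y X = y := by simp [ev4]

lemma aeval_mem (S : Subalgebra ℂ A) {u : A} (hu : u ∈ S) (P : ℂ[X]) : aeval u P ∈ S := by
  induction P using Polynomial.induction_on with
  | C a => simp
  | add p q hp hq => rw [map_add]; exact add_mem hp hq
  | monomial n a h => rw [pow_succ, ← mul_assoc, map_mul, aeval_X]; exact mul_mem h hu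

lemma ev2_mem (S : Subalgebra ℂ A) {u s : A} (hu : u ∈ S) (hs : s ∈ S) (P : ℂ[X][X]) :
    ev2 u s P ∈ S := by
  induction P using Polynomial.induction_on with
  | C a => rw [ev2_C]; exact aeval_mem S hu a
  | add p q hp hq => rw [map_add]; exact add_mem hp hq
  | monomial n a h => rw [pow_succ, ← mul_assoc, map_mul, ev2_X]; exact mul_mem h hs

lemma ev3_mem (S : Subalgebra ℂ A) {u s x : A} (hu : u ∈ S) (hs : s ∈ S) (hx : x ∈ S)
    (P : ℂ[X][X][X]) : ev3 u s x P ∈ S := by
  induction P using Polynomial.induction_on with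
  | C a => rw [ev3_C]; exact ev2_mem S hu hs a
  | add p q hp hq => rw [map_add]; exact add_mem hp hq
  | monomial n a h => rw [pow_succ, ← mul_assoc, map_mul, ev3_X]; exact mul_mem h hx

lemma ev4_mem (S : Subalgebra ℂ A) {u s x y : A} (hu : u ∈ S) (hs : s ∈ S) (hx : x ∈ S)
    (hy : y ∈ S) (P : ℂ[X][X][X][X]) : ev4 u s x y P ∈ S := by
  induction P using Polynomial.induction_on with
  | C a => rw [ev4_C]; exact ev3_mem S hu hs hx a
  | add p q hp hq => rw [map_add]; exact add_mem hp hq
  | monomial n a h => rw [pow_succ, ← mul_assoc, map_mul, ev4_X]; exact mul_mem h hy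

variable {A' : Type*} [CommRing A'] [Algebra ℂ A']

lemma map_ev2 (φ : A →ₐ[ℂ] A') (u s : A) (P : ℂ[X][X]) :
    φ (ev2 u s P) = ev2 (φ u) (φ s) P := by
  induction P using Polynomial.induction_on with
  | C a => rw [ev2_C, ev2_C, aeval_algHom_apply]
  | add p q hp hq => simp only [map_add, hp, hq]
  | monomial n a h =>
    rw [pow_succ, ← mul_assoc, map_mul, map_mul, h, map_mul (ev2 (φ u) (φ s)) _ X, ev2_X, ev2_X]

lemma map_ev3 (φ : A →ₐ[ℂ] A') (u s x : A) (P : ℂ[X][X][X]) :
    φ (ev3 u s x P) = ev3 (φ u) (φ s) (φ x) P := by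
  induction P using Polynomial.induction_on with
  | C a => rw [ev3_C, ev3_C, map_ev2]
  | add p q hp hq => simp only [map_add, hp, hq]
  | monomial n a h =>
    rw [pow_succ, ← mul_assoc, map_mul, map_mul, h, map_mul (ev3 (φ u) (φ s) (φ x)) _ X, ev3_X,
      ev3_X]

lemma map_ev4 (φ : A →ₐ[ℂ] A') (u s x y : A) (P : ℂ[X][X][X][X]) :
    φ (ev4 u s x y P) = ev4 (φ u) (φ s) (φ x) (φ y) P := by
  induction P using Polynomial.induction_on with
  | C a => rw [ev4_C, ev4_C, map_ev3]
  | add p q hp hq => simp only [map_add, hp, hq]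
  | monomial n a h =>
    rw [pow_succ, ← mul_assoc, map_mul, map_mul, h,
      map_mul (ev4 (φ u) (φ s) (φ x) (φ y)) _ X, ev4_X, ev4_X]

lemma ev2_id (P : ℂ[X][X]) : ev2 (A := ℂ[X][X]) (C X) X P = P := by
  induction P using Polynomial.induction_on with
  | C a => rw [ev2_C]; exact aeval_algHom_apply (CAlgHom : ℂ[X] →ₐ[ℂ] ℂ[X][X]) X a |>.trans (by simp)
  | add p q hp hq => simp only [map_add, hp, hq]
  | monomial n a h => rw [pow_succ, ← mul_assoc, map_mul, h, ev2_X]

lemma ev3_id (P : ℂ[X][X][X]) : ev3 (A := ℂ[X][X][X]) (C (C X)) (C X) X P = P := by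
  induction P using Polynomial.induction_on with
  | C a =>
    rw [ev3_C]
    have := map_ev2 (A := ℂ[X][X]) (A' := ℂ[X][X][X]) CAlgHom (C X) X a
    rw [ev2_id] at this
    exact this.symm
  | add p q hp hq => simp only [map_add, hp, hq]
  | monomial n a h => rw [pow_succ, ← mul_assoc, map_mul, h, ev3_X]

lemma exists_ev3 {u s x f : A} (hf : f ∈ Algebra.adjoin ℂ {u, s, x}) : ∃ P, ev3 u s x P = f := by
  have : Algebra.adjoin ℂ {u, s, x} ≤ (ev3 u s x).range := by
    apply Algebra.adjoin_le
    rintro t (rfl | rfl | rfl)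
    · exact ⟨C (C X), by simp⟩
    · exact ⟨C X, by simp⟩
    · exact ⟨X, by simp⟩
  exact this hf

lemma exists_ev4 {u s x y f : A} (hf : f ∈ Algebra.adjoin ℂ {u, s, x, y}) :
    ∃ P, ev4 u s x y P = f := by
  have : Algebra.adjoin ℂ {u, s, x, y} ≤ (ev4 u s x y).range := by
    apply Algebra.adjoin_le
    rintro t (rfl | rfl | rfl | rfl)
    · exact ⟨C (C (C X)), by simp⟩
    · exact ⟨C (C X), by simp⟩
    · exact ⟨C X, by simp⟩
    · exact ⟨X, by simp⟩
  exact this hf

/-- The kernel of a derivation. -/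
def kerSub (D : Derivation ℂ A A) : Subalgebra ℂ A where
  carrier := {a | D a = 0}
  mul_mem' := by
    intro a b ha hb
    simp only [Set.mem_ofPred_eq] at ha hb ⊢
    rw [Derivation.leibniz, ha, hb]; simp
  add_mem' := by
    intro a b ha hb
    simp only [Set.mem_ofPred_eq] at ha hb ⊢
    rw [map_add, ha, hb, add_zero]
  algebraMap_mem' := fun r => D.map_algebraMap r

lemma mem_kerSub {D : Derivation ℂ A A} {a : A} : a ∈ kerSub D ↔ D a = 0 := Iff.rfl

lemma der_ev3 (D : Derivation ℂ A A) {u s : A} (x : A) (hu : D u = 0) (hs : D s = 0)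
    (P : ℂ[X][X][X]) : D (ev3 u s x P) = ev3 u s x (derivative P) * D x := by
  induction P using Polynomial.induction_on' with
  | add p q hp hq => simp only [map_add, hp, hq, add_mul]
  | monomial n a =>
    have h0 : D (ev2 u s a) = 0 := ev2_mem (kerSub D) hu hs a
    rw [← C_mul_X_pow_eq_monomial, derivative_C_mul_X_pow]
    simp only [map_mul, map_pow, ev3_C, ev3_X, Derivation.leibniz, Derivation.leibniz_pow, h0,
      smul_eq_mul, map_natCast, nsmul_eq_mul]
    ring

/-- Restriction of a derivation to a stable subalgebra. -/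
noncomputable def resDer (D : Derivation ℂ A A) (S : Subalgebra ℂ A) (hS : ∀ a ∈ S, D a ∈ S) :
    Derivation ℂ S S :=
  Derivation.mk'
    { toFun := fun a => ⟨D a, hS _ a.2⟩
      map_add' := fun a b => Subtype.ext (by simp)
      map_smul' := fun r a => Subtype.ext (by simp) }
    (fun a b => Subtype.ext (by simp))

lemma resDer_coe (D : Derivation ℂ A A) (S : Subalgebra ℂ A) (hS : ∀ a ∈ S, D a ∈ S) (a : S) :
    (resDer D S hS a : A) = D a := rfl

lemma resDer_iter_coe (D : Derivation ℂ A A) (S : Subalgebra ℂ A) (hS : ∀ a ∈ S, D a ∈ S)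
    (n : ℕ) (a : S) : ((resDer D S hS)^[n] a : A) = D^[n] a := by
  induction n generalizing a with
  | zero => rfl
  | succ n ih => rw [Function.iterate_succ_apply, Function.iterate_succ_apply, ih, resDer_coe]

lemma adjoin_stable (D : Derivation ℂ A A) (s : Set A) (h : ∀ a ∈ s, D a ∈ Algebra.adjoin ℂ s) :
    ∀ a ∈ Algebra.adjoin ℂ s, D a ∈ Algebra.adjoin ℂ s := by
  intro a ha
  induction ha using Algebra.adjoin_induction with
  | mem x hx => exact h x hx
  | algebraMap r => rw [D.map_algebraMap]; exact zero_mem _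
  | add x y _ _ hx hy => rw [map_add]; exact add_mem hx hy
  | mul x y hx' hy' hx hy =>
    rw [Derivation.leibniz, smul_eq_mul, smul_eq_mul]
    exact add_mem (mul_mem hx' hy) (mul_mem hy' hx)

/-- Clearing denominators. -/
lemma exists_pow_mul_mem (S : Subalgebra ℂ A) (t : A) (ht : t ∈ S) (s : Set A)
    (hs : ∀ a ∈ s, ∃ n : ℕ, t ^ n * a ∈ S) {f : A} (hf : f ∈ Algebra.adjoin ℂ s) :
    ∃ n : ℕ, t ^ n * f ∈ S := by
  induction hf using Algebra.adjoin_induction with
  | mem x hx => exact hs x hx
  | algebraMap r => exact ⟨0, by simp⟩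
  | add x y _ _ hx hy =>
    obtain ⟨m, hm⟩ := hx
    obtain ⟨n, hn⟩ := hy
    refine ⟨m + n, ?_⟩
    rw [show t ^ (m + n) * (x + y) = t ^ n * (t ^ m * x) + t ^ m * (t ^ n * y) by ring]
    exact add_mem (mul_mem (pow_mem ht n) hm) (mul_mem (pow_mem ht m) hn)
  | mul x y _ _ hx hy =>
    obtain ⟨m, hm⟩ := hx
    obtain ⟨n, hn⟩ := hy
    refine ⟨m + n, ?_⟩
    rw [show t ^ (m + n) * (x * y) = (t ^ m * x) * (t ^ n * y) by ring]
    exact mul_mem hm hn

lemma smul_der_iter (D : Derivation ℂ A A) (a : A) (ha : D a = 0) (n : ℕ) (f : A) :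
    (⇑(a • D : Derivation ℂ A A))^[n] f = a ^ n * D^[n] f := by
  induction n with
  | zero => simp
  | succ n ih =>
    rw [Function.iterate_succ_apply', Function.iterate_succ_apply', ih]
    simp only [Derivation.smul_apply, Derivation.leibniz, Derivation.leibniz_pow, ha, smul_eq_mul,
      mul_zero, smul_zero, add_zero]
    ring

end Ev

/-- Division lemma: the kernel of `Y ↦ b / a` is generated by `a Y - b` if `a` is a prime not
dividing `b`. -/
lemma div_lemma {T L : Type*} [CommRing T] [CommRing L] (φ : T →+* L) (hφ : Function.Injective φ)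
    (a b : T) (ha : Prime a) (hab : ¬ a ∣ b) (y : L)
    (hy : φ a * y = φ b) (P : T[X]) (hP : eval₂ φ y P = 0) : C a * X - C b ∣ P := by
  induction h : P.natDegree using Nat.strong_induction_on generalizing P with
  | _ n ih =>
    rcases Nat.eq_zero_or_pos n with rfl | hn
    · rw [eq_C_of_natDegree_eq_zero h, eval₂_C, map_eq_zero_iff _ hφ] at hP
      rw [eq_C_of_natDegree_eq_zero h, hP, map_zero]; exact dvd_zero _
    · -- `a` divides the leading coefficient
      have h1 : a ∣ P.coeff n * b ^ n := by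
        have h2 : φ (∑ i ∈ Finset.range (n + 1), P.coeff i * b ^ i * a ^ (n - i)) = 0 := by
          rw [map_sum]
          rw [eval₂_eq_sum_range, h] at hP
          have := congrArg (fun t => φ a ^ n * t) hP
          simp only [Finset.mul_sum, mul_zero] at this
          rw [← this]
          refine Finset.sum_congr rfl fun i hi => ?_
          have hi' : i ≤ n := Nat.lt_succ_iff.1 (Finset.mem_range.1 hi)
          obtain ⟨k, rfl⟩ := Nat.exists_eq_add_of_le hi'
          rw [Nat.add_sub_cancel_left, map_mul, map_mul, map_pow, map_pow, ← hy]; ring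
        rw [map_eq_zero_iff _ hφ, Finset.sum_range_succ, Nat.sub_self, pow_zero, mul_one] at h2
        rw [eq_neg_of_add_eq_zero_right h2, dvd_neg]
        refine Finset.dvd_sum fun i hi => Dvd.dvd.mul_left (dvd_pow_self a ?_) _
        have := Finset.mem_range.1 hi
        omega
      have h3 : a ∣ P.coeff n :=
        (ha.dvd_or_dvd h1).resolve_right fun h => hab (ha.dvd_of_dvd_pow h)
      obtain ⟨c, hc⟩ := h3
      obtain ⟨m, rfl⟩ := Nat.exists_eq_succ_of_ne_zero hn.ne'
      set Q := P - C c * X ^ m * (C a * X - C b) with hQ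
      have hQ0 : eval₂ φ y Q = 0 := by
        rw [hQ, eval₂_sub, hP]
        simp [eval₂_mul, eval₂_sub, hy]
      have hQd : Q.natDegree ≤ m := by
        rw [natDegree_le_iff_coeff_eq_zero]
        intro N hN
        have e : Q = P - C (a * c) * X ^ (m + 1) + C (c * b) * X ^ m := by
          rw [hQ, map_mul, map_mul]; ring
        rw [e, coeff_add, coeff_sub, coeff_C_mul_X_pow, coeff_C_mul_X_pow,
          if_neg (show ¬ N = m by omega), add_zero]
        split_ifs with hN'
        · rw [hN', ← hc, sub_self]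
        · rw [coeff_eq_zero_of_natDegree_lt (by omega), sub_zero]
      have := ih Q.natDegree (by omega) Q hQ0 rfl
      rw [show P = Q + C c * X ^ m * (C a * X - C b) by rw [hQ]; ring]
      exact dvd_add this (Dvd.intro_left _ rfl)

end Crest.Agent.R268
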